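import Vale.Agent.P256.PL.Stmts

/-!
# P256, module A1: construction of `Q` from a separating form
-/

namespace Vale.Agent.P256.PL

open MvPolynomial Matrix

namespace A1

/-! ### real inequalities -/

/-- The numbers `G_j = (L + j g)/(m+1)`. -/
noncomputable def GG (m : ℕ) (L g : ℝ) (j : ℝ) : ℝ := (L + j * g) / (m + 1)

theorem sign_sep (m : ℕ) {L g e : ℝ} (hg : 0 < g)
    (he : |e| < (g / (2 * (m + 1))) ^ m) {j : ℕ} (hj : j ≤ m) :
    0 < (-1 : ℝ) ^ (m - j) *
      (∏ i ∈ Finset.range m, (GG m L g (j + 1 / 2) - GG m L g (i + 1)) - e) := by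
  set q : ℝ := g / (2 * (m + 1)) with hq
  have hm1 : (0 : ℝ) < m + 1 := by positivity
  have hqpos : 0 < q := by positivity
  obtain ⟨n, rfl⟩ : ∃ n, m = j + n := ⟨m - j, by omega⟩
  have hsub : j + n - j = n := by omega
  rw [hsub, Finset.prod_range_add, mul_sub, mul_comm ((-1 : ℝ) ^ n) (_ * _), mul_assoc,
    mul_comm (∏ x ∈ Finset.range n, _) ((-1 : ℝ) ^ n)]
  have h1 : q ^ j ≤ ∏ i ∈ Finset.range j,
      (GG (j + n) L g (j + 1 / 2) - GG (j + n) L g (i + 1)) := by
    have := Finset.prod_le_prod (s := Finset.range j) (f := fun _ => q)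
      (g := fun i : ℕ => (GG (j + n) L g (j + 1 / 2) - GG (j + n) L g (i + 1)))
      (fun i _ => hqpos.le) (fun i hi => by
        have hi' : (i : ℝ) + 1 ≤ j := by
          have := Finset.mem_range.mp hi
          exact_mod_cast this
        simp only [GG, hq]
        rw [← sub_div, div_le_div_iff₀ (by positivity) (by positivity)]
        nlinarith [mul_pos hm1 hg, mul_nonneg hm1.le (mul_nonneg (sub_nonneg.mpr hi') hg.le)])
    simpa using this
  have h2 : q ^ n ≤ (-1 : ℝ) ^ n * ∏ i ∈ Finset.range n,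
      (GG (j + n) L g (j + 1 / 2) - GG (j + n) L g (((j + i : ℕ) : ℝ) + 1)) := by
    have h3 : (-1 : ℝ) ^ n * ∏ i ∈ Finset.range n,
        (GG (j + n) L g (j + 1 / 2) - GG (j + n) L g (((j + i : ℕ) : ℝ) + 1)) =
        ∏ i ∈ Finset.range n,
        (GG (j + n) L g (((j + i : ℕ) : ℝ) + 1) - GG (j + n) L g (j + 1 / 2)) := by
      rw [← Finset.card_range n, ← Finset.prod_const, Finset.card_range,
        ← Finset.prod_mul_distrib]
      refine Finset.prod_congr rfl fun i _ => by ring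
    rw [h3]
    have := Finset.prod_le_prod (s := Finset.range n) (f := fun _ => q)
      (g := fun i : ℕ => (GG (j + n) L g (((j + i : ℕ) : ℝ) + 1) - GG (j + n) L g (j + 1 / 2)))
      (fun i _ => hqpos.le) (fun i hi => by
        simp only [GG, hq]
        rw [← sub_div, div_le_div_iff₀ (by positivity) (by positivity)]
        push_cast
        nlinarith [mul_pos hm1 hg, mul_nonneg hm1.le (mul_nonneg (Nat.cast_nonneg (α := ℝ) i) hg.le)])
    simpa using this
  have h4 : q ^ (j + n) ≤ (∏ i ∈ Finset.range j,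
      (GG (j + n) L g (j + 1 / 2) - GG (j + n) L g (i + 1))) *
      ((-1 : ℝ) ^ n * ∏ i ∈ Finset.range n,
      (GG (j + n) L g (j + 1 / 2) - GG (j + n) L g (((j + i : ℕ) : ℝ) + 1))) := by
    rw [pow_add]
    exact mul_le_mul h1 h2 (by positivity) (le_trans (by positivity) h1)
  have h5 : (-1 : ℝ) ^ n * e ≤ |e| := by
    calc (-1 : ℝ) ^ n * e ≤ |(-1 : ℝ) ^ n * e| := le_abs_self _
      _ = |e| := by simp [abs_mul]
  linarith

theorem sign_zero (m : ℕ) {L g e : ℝ} (hL : 0 ≤ L) (hg : 0 < g)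
    (he : |e| < (g / (2 * (m + 1))) ^ m) :
    0 < (-1 : ℝ) ^ m * (∏ i ∈ Finset.range m, (0 - GG m L g (i + 1)) - e) := by
  set q : ℝ := g / (2 * (m + 1)) with hq
  have hm1 : (0 : ℝ) < m + 1 := by positivity
  have hqpos : 0 < q := by positivity
  have h3 : (-1 : ℝ) ^ m * ∏ i ∈ Finset.range m, (0 - GG m L g (i + 1)) =
      ∏ i ∈ Finset.range m, GG m L g (i + 1) := by
    rw [← Finset.card_range m, ← Finset.prod_const, Finset.card_range,
      ← Finset.prod_mul_distrib]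
    refine Finset.prod_congr rfl fun i _ => by ring
  have h1 : q ^ m ≤ ∏ i ∈ Finset.range m, GG m L g (i + 1) := by
    have := Finset.prod_le_prod (s := Finset.range m) (f := fun _ => q)
      (g := fun i : ℕ => GG m L g (i + 1))
      (fun i _ => hqpos.le) (fun i hi => by
        simp only [GG, hq]
        rw [div_le_div_iff₀ (by positivity) (by positivity)]
        nlinarith [mul_pos hm1 hg, mul_nonneg hm1.le (mul_nonneg (Nat.cast_nonneg (α := ℝ) i) hg.le),
          mul_nonneg hm1.le hL])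
    simpa using this
  have h5 : (-1 : ℝ) ^ m * e ≤ |e| := by
    calc (-1 : ℝ) ^ m * e ≤ |(-1 : ℝ) ^ m * e| := le_abs_self _
      _ = |e| := by simp [abs_mul]
  rw [mul_sub, h3]
  linarith

theorem GG_mono (m : ℕ) {L g : ℝ} (hg : 0 < g) {a b : ℝ} (hab : a < b) :
    GG m L g a < GG m L g b := by
  unfold GG
  have hm1 : (0 : ℝ) < m + 1 := by positivity
  rw [div_lt_div_iff_of_pos_right hm1]
  nlinarith

theorem GG_pos (m : ℕ) {L g : ℝ} (hL : 0 ≤ L) (hg : 0 < g) {a : ℝ} (ha : 0 < a) :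
    0 < GG m L g a := by
  unfold GG
  have hm1 : (0 : ℝ) < m + 1 := by positivity
  have := mul_pos ha hg
  positivity

/-! ### linear forms as polynomials -/

variable {k : ℕ}

/-- Arrays from functions on the index set. -/
def unflat : (Idx4 k → ℝ) →ₗ[ℝ] E4 k ℝ where
  toFun v := fun i j l m => v (i, j, l, m)
  map_add' _ _ := rfl
  map_smul' _ _ := rfl

/-- The coordinates of an array. -/
def flat (R : E4 k ℝ) : Idx4 k → ℝ := fun q => R q.1 q.2.1 q.2.2.1 q.2.2.2

theorem unflat_flat (R : E4 k ℝ) : unflat (flat R) = R := rfl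

/-- A linear form as a polynomial. -/
noncomputable def linP (f : E4 k ℝ →ₗ[ℝ] ℝ) : MvPolynomial (Option (Idx4 k)) ℝ :=
  ∑ q, C (f (unflat (Pi.single q 1))) * X (some q)

theorem linP_hom (f : E4 k ℝ →ₗ[ℝ] ℝ) : (linP f).IsHomogeneous 1 := by
  unfold linP
  refine IsHomogeneous.sum _ _ _ fun q _ => ?_
  have := (isHomogeneous_C (Option (Idx4 k)) (f (unflat (Pi.single q 1)))).mul
    (isHomogeneous_X ℝ (some q))
  simpa using this

theorem Qev_linP (f : E4 k ℝ →ₗ[ℝ] ℝ) (σ : ℝ) (R : E4 k ℝ) : Qev (linP f) σ R = f R := by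
  unfold Qev linP
  have h1 : f R = (f ∘ₗ unflat) (flat R) := rfl
  rw [h1, (f ∘ₗ unflat).pi_apply_eq_sum_univ (flat R)]
  simp only [map_sum, map_mul, aeval_C, aeval_X, Algebra.algebraMap_self, RingHom.id_apply,
    LinearMap.comp_apply, smul_eq_mul]
  refine Finset.sum_congr rfl fun q _ => ?_
  have : (Pi.single q 1 : Idx4 k → ℝ) = fun j => if q = j then 1 else 0 := by
    funext j
    simp [Pi.single_apply, eq_comm]
  rw [this, mul_comm]
  rfl

/-- `normSq` as a polynomial. -/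
noncomputable def nsP (k : ℕ) : MvPolynomial (Option (Idx4 k)) ℝ := ∑ q : Idx4 k, X (some q) ^ 2

theorem nsP_hom : (nsP k).IsHomogeneous 2 := by
  unfold nsP
  refine IsHomogeneous.sum _ _ _ fun q _ => ?_
  simpa using (isHomogeneous_X ℝ (some q : Option (Idx4 k))).pow 2

theorem normSq_eq (R : E4 k ℝ) : normSq R = ∑ q : Idx4 k, flat R q ^ 2 := by
  unfold normSq flat
  simp only [Fintype.sum_prod_type]

theorem Qev_nsP (σ : ℝ) (R : E4 k ℝ) : Qev (nsP k) σ R = normSq R := by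
  rw [normSq_eq]
  unfold Qev nsP
  simp [flat]

theorem normSq_nonneg (R : E4 k ℝ) : 0 ≤ normSq R := by
  unfold normSq; positivity

theorem normSq_eq_zero {R : E4 k ℝ} (h : normSq R = 0) : R = 0 := by
  rw [normSq_eq, Finset.sum_eq_zero_iff_of_nonneg (fun _ _ => sq_nonneg _)] at h
  funext i j l m
  have := h (i, j, l, m) (Finset.mem_univ _)
  simpa [flat] using this

theorem normSq_pos {R : E4 k ℝ} (h : R ≠ 0) : 0 < normSq R :=
  lt_of_le_of_ne (normSq_nonneg R) fun h' => h (normSq_eq_zero h'.symm)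

theorem normSq_smul (c : ℝ) (R : E4 k ℝ) : normSq (c • R) = c ^ 2 * normSq R := by
  rw [normSq_eq, normSq_eq, Finset.mul_sum]
  refine Finset.sum_congr rfl fun q _ => ?_
  simp [flat, mul_pow]

theorem continuous_normSq : Continuous (normSq : E4 k ℝ → ℝ) := by
  unfold normSq
  fun_prop

/-- `normSq` of a linear image as a polynomial. -/
noncomputable def distP (π : E4 k ℝ →ₗ[ℝ] E4 k ℝ) : MvPolynomial (Option (Idx4 k)) ℝ :=
  ∑ q : Idx4 k, linP ((LinearMap.proj q.2.2.2 ∘ₗ LinearMap.proj q.2.2.1 ∘ₗ LinearMap.proj q.2.1 ∘ₗ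
    LinearMap.proj q.1) ∘ₗ π) ^ 2

theorem distP_hom (π : E4 k ℝ →ₗ[ℝ] E4 k ℝ) : (distP π).IsHomogeneous 2 := by
  unfold distP
  refine IsHomogeneous.sum _ _ _ fun q _ => ?_
  simpa using (linP_hom _).pow 2

theorem Qev_distP (π : E4 k ℝ →ₗ[ℝ] E4 k ℝ) (σ : ℝ) (R : E4 k ℝ) :
    Qev (distP π) σ R = normSq (π R) := by
  have h : ∀ f : E4 k ℝ →ₗ[ℝ] ℝ, Qev (linP f ^ 2) σ R = f R ^ 2 := fun f => by
    rw [← Qev_linP f σ R]; simp [Qev]
  rw [normSq_eq]
  unfold distP
  have : Qev (∑ q : Idx4 k, linP ((LinearMap.proj q.2.2.2 ∘ₗ LinearMap.proj q.2.2.1 ∘ₗ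
      LinearMap.proj q.2.1 ∘ₗ LinearMap.proj q.1) ∘ₗ π) ^ 2) σ R =
      ∑ q : Idx4 k, Qev (linP ((LinearMap.proj q.2.2.2 ∘ₗ LinearMap.proj q.2.2.1 ∘ₗ
      LinearMap.proj q.2.1 ∘ₗ LinearMap.proj q.1) ∘ₗ π) ^ 2) σ R := by
    simp only [Qev, map_sum]
  rw [this]
  refine Finset.sum_congr rfl fun q _ => ?_
  rw [h]
  rfl

theorem hev_smul {h : MvPolynomial (Idx4 k) ℝ} {d : ℕ} (hh : h.IsHomogeneous d) (c : ℝ)
    (R : E4 k ℝ) : hev h (c • R) = c ^ d * hev h R := by
  unfold hev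
  rw [eval_eq, eval_eq, Finset.mul_sum]
  refine Finset.sum_congr rfl fun s hs => ?_
  have hd : ∑ i ∈ s.support, s i = d := by
    have := hh (mem_support_iff.mp hs)
    simpa [Finsupp.weight_apply, Finsupp.sum] using this
  simp only [Pi.smul_apply, smul_eq_mul, mul_pow, Finset.prod_mul_distrib, Finset.prod_pow_eq_pow_sum,
    hd]
  ring

theorem continuous_hev (h : MvPolynomial (Idx4 k) ℝ) : Continuous (hev h) := by
  unfold hev
  exact (MvPolynomial.continuous_eval h).comp (by fun_prop)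

theorem Qev_rename (h : MvPolynomial (Idx4 k) ℝ) (σ : ℝ) (R : E4 k ℝ) :
    Qev (rename some h) σ R = hev h R := by
  unfold Qev hev
  rw [aeval_rename, ← coe_aeval_eq_eval]
  rfl

/-! ### compactness -/

theorem exists_K (m : ℕ) (B : Set (E4 k ℝ)) (hB : IsClosed B)
    (hBc : ∀ (c : ℝ) (R), R ∈ B → c • R ∈ B) (φ a D : E4 k ℝ → ℝ) (hm : 0 < m)
    (hφ : Continuous φ) (ha : Continuous a) (hD : Continuous D) (ha0 : ∀ R, R ≠ 0 → 0 < a R)
    (hD0 : ∀ R, 0 ≤ D R) (hφs : ∀ (c : ℝ) R, φ (c • R) = c ^ (2 * m) * φ R)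
    (has : ∀ (c : ℝ) R, a (c • R) = c ^ 2 * a R) (hDs : ∀ (c : ℝ) R, D (c • R) = c ^ 2 * D R)
    (q : ℝ) (hq : 0 < q)
    (hz : ∀ R ∈ B, R ≠ 0 → D R = 0 → φ R < (a R / q) ^ m) :
    ∃ K : ℝ, 0 < K ∧ ∀ R ∈ B, R ≠ 0 → φ R < ((a R + K * D R) / q) ^ m := by
  -- reduction to the unit sphere
  suffices h : ∃ K : ℝ, 0 < K ∧ ∀ R ∈ B, ‖R‖ = 1 → φ R < ((a R + K * D R) / q) ^ m by
    obtain ⟨K, hK, h⟩ := h
    refine ⟨K, hK, fun R hR hR0 => ?_⟩
    have hn : 0 < ‖R‖ := norm_pos_iff.mpr hR0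
    have h1 := h (‖R‖⁻¹ • R) (hBc _ _ hR) (by rw [norm_smul, norm_inv, norm_norm]; field_simp)
    have h2 : R = ‖R‖ • (‖R‖⁻¹ • R) := by rw [smul_smul, mul_inv_cancel₀ hn.ne', one_smul]
    have h3 : φ R = ‖R‖ ^ (2 * m) * φ (‖R‖⁻¹ • R) := by
      conv_lhs => rw [h2]
      rw [hφs]
    have h4 : a R = ‖R‖ ^ 2 * a (‖R‖⁻¹ • R) := by
      conv_lhs => rw [h2]
      rw [has]
    have h5 : D R = ‖R‖ ^ 2 * D (‖R‖⁻¹ • R) := by
      conv_lhs => rw [h2]
      rw [hDs]
    rw [h3]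
    have h6 : ((a R + K * D R) / q) ^ m =
        ‖R‖ ^ (2 * m) * ((a (‖R‖⁻¹ • R) + K * D (‖R‖⁻¹ • R)) / q) ^ m := by
      rw [h4, h5, pow_mul, ← mul_pow]
      congr 1
      ring
    rw [h6]
    exact mul_lt_mul_of_pos_left h1 (by positivity)
  have hS : IsCompact (B ∩ Metric.sphere (0 : E4 k ℝ) 1) :=
    (isCompact_sphere _ _).inter_left hB
  have hC : IsCompact ((B ∩ Metric.sphere (0 : E4 k ℝ) 1) ∩ {R | (a R / q) ^ m ≤ φ R}) :=
    hS.inter_right (isClosed_le (by fun_prop) hφ)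
  by_cases hne : ((B ∩ Metric.sphere (0 : E4 k ℝ) 1) ∩ {R | (a R / q) ^ m ≤ φ R}).Nonempty
  · obtain ⟨R₁, hR₁, hmin⟩ := hC.exists_isMinOn hne hD.continuousOn
    obtain ⟨R₂, hR₂, hmax⟩ := hC.exists_isMaxOn hne hφ.continuousOn
    have hne1 : R₁ ≠ 0 := by
      rintro rfl
      have := hR₁.1.2
      simp at this
    have hd : 0 < D R₁ := by
      refine lt_of_le_of_ne (hD0 _) fun h => ?_
      exact absurd (hz R₁ hR₁.1.1 hne1 h.symm) (not_lt.mpr hR₁.2)
    have hφ2 : 0 ≤ φ R₂ := by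
      have h1 : R₂ ≠ 0 := by
        rintro rfl
        have := hR₂.1.2
        simp at this
      have h2 := ha0 R₂ h1
      exact le_trans (by positivity) hR₂.2
    refine ⟨q * (φ R₂ + 1) / D R₁, by positivity, fun R hR hn => ?_⟩
    have hR0 : R ≠ 0 := by
      rintro rfl
      simp at hn
    by_cases hc : (a R / q) ^ m ≤ φ R
    · have hmem : R ∈ ((B ∩ Metric.sphere (0 : E4 k ℝ) 1) ∩ {R | (a R / q) ^ m ≤ φ R}) :=
        ⟨⟨hR, by simpa using hn⟩, hc⟩
      have h1 : D R₁ ≤ D R := hmin hmem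
      have h2 : φ R ≤ φ R₂ := hmax hmem
      have h3 : φ R₂ + 1 ≤ (a R + q * (φ R₂ + 1) / D R₁ * D R) / q := by
        rw [le_div_iff₀ hq]
        have h4 : q * (φ R₂ + 1) ≤ q * (φ R₂ + 1) / D R₁ * D R := by
          rw [div_mul_eq_mul_div, le_div_iff₀ hd]
          exact mul_le_mul_of_nonneg_left h1 (by positivity)
        have := ha0 R hR0
        linarith
      have h5 : φ R₂ + 1 ≤ (φ R₂ + 1) ^ m := by
        calc φ R₂ + 1 = (φ R₂ + 1) ^ 1 := (pow_one _).symm
          _ ≤ (φ R₂ + 1) ^ m := pow_le_pow_right₀ (by linarith) hm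
      have h6 : (φ R₂ + 1) ^ m ≤ ((a R + q * (φ R₂ + 1) / D R₁ * D R) / q) ^ m :=
        pow_le_pow_left₀ (by linarith) h3 m
      linarith
    · push Not at hc
      refine lt_of_lt_of_le hc (pow_le_pow_left₀ ?_ ?_ m)
      · have := ha0 R hR0
        positivity
      · have := hD0 R
        rw [div_le_div_iff_of_pos_right hq]
        have : 0 ≤ q * (φ R₂ + 1) / D R₁ * D R := by positivity
        linarith
  · refine ⟨1, one_pos, fun R hR hn => ?_⟩
    have hR0 : R ≠ 0 := by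
      rintro rfl
      simp at hn
    have hc : φ R < (a R / q) ^ m := by
      by_contra hc
      exact hne ⟨R, ⟨hR, by simpa using hn⟩, not_lt.mp hc⟩
    refine lt_of_lt_of_le hc (pow_le_pow_left₀ ?_ ?_ m)
    · have := ha0 R hR0
      positivity
    · have := hD0 R
      rw [div_le_div_iff_of_pos_right hq]
      linarith

/-! ### the choice of the constants -/

theorem prod_bound (n : ℕ) {x g t : ℝ} (hx : 0 < x) (hg1 : (1 - 2 * t) * x ≤ g)
    (hg2 : g ≤ (1 - t) * x) (ht : 0 < t) (ht1 : t ≤ 1 / 4)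
    (ht2 : t * (8 * (4 * ((n : ℝ) + 1 + 1)) ^ (n + 1)) = 1) :
    0 < ∏ i ∈ Finset.range (n + 1), (x - GG (n + 1) x g (i + 1)) ∧
      2 * ∏ i ∈ Finset.range (n + 1), (x - GG (n + 1) x g (i + 1)) <
        (g / (2 * ((n + 1 : ℕ) + 1))) ^ (n + 1) := by
  have hg : 0 < g := lt_of_lt_of_le (mul_pos (by linarith) hx) hg1
  have hgx : g < x := by nlinarith
  have hn2 : (0 : ℝ) < (n : ℝ) + 1 + 1 := by positivity
  have hfac : ∀ i ∈ Finset.range (n + 1), 0 < x - GG (n + 1) x g (i + 1) := fun i hi => by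
    have hi' : (i : ℝ) + 1 ≤ n + 1 := by
      have := Finset.mem_range.mp hi
      exact_mod_cast this
    unfold GG
    rw [sub_pos, div_lt_iff₀ (by push_cast; positivity)]
    push_cast
    nlinarith [mul_le_mul_of_nonneg_right hi' hg.le]
  refine ⟨Finset.prod_pos hfac, ?_⟩
  have h1 : ∏ i ∈ Finset.range n, (x - GG (n + 1) x g (i + 1)) ≤ x ^ n := by
    have := Finset.prod_le_prod (s := Finset.range n)
      (f := fun i : ℕ => (x - GG (n + 1) x g (i + 1))) (g := fun _ => x)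
      (fun i hi => (hfac i (Finset.mem_range.mpr (by
        have := Finset.mem_range.mp hi; omega))).le)
      (fun i _ => by
        have := GG_pos (n + 1) hx.le hg (a := (i : ℝ) + 1) (by positivity)
        linarith)
    simpa using this
  have h2 : x - GG (n + 1) x g ((n : ℝ) + 1) ≤ 2 * t * x := by
    unfold GG
    have : x - (x + ((n : ℝ) + 1) * g) / ((n + 1 : ℕ) + 1) =
        ((n : ℝ) + 1) / ((n : ℝ) + 1 + 1) * (x - g) := by
      push_cast
      field_simp
      ring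
    rw [this]
    have h3 : ((n : ℝ) + 1) / ((n : ℝ) + 1 + 1) ≤ 1 := by
      rw [div_le_one hn2]; linarith
    calc ((n : ℝ) + 1) / ((n : ℝ) + 1 + 1) * (x - g) ≤ 1 * (x - g) :=
          mul_le_mul_of_nonneg_right h3 (by linarith)
      _ ≤ 2 * t * x := by linarith
  have h3 : ∏ i ∈ Finset.range (n + 1), (x - GG (n + 1) x g (i + 1)) ≤ x ^ n * (2 * t * x) := by
    rw [Finset.prod_range_succ]
    exact mul_le_mul h1 h2 (hfac n (Finset.mem_range.mpr (by omega))).le (by positivity)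
  have h4 : x ^ (n + 1) * (8 * t) ≤ (g / (2 * ((n + 1 : ℕ) + 1))) ^ (n + 1) := by
    have h5 : x / (4 * ((n : ℝ) + 1 + 1)) ≤ g / (2 * ((n + 1 : ℕ) + 1)) := by
      push_cast
      rw [div_le_div_iff₀ (by positivity) (by positivity)]
      have : x / 2 ≤ g := by nlinarith
      nlinarith
    have h6 := pow_le_pow_left₀ (by positivity) h5 (n + 1)
    refine le_trans (le_of_eq ?_) h6
    rw [div_pow]
    rw [eq_div_iff (by positivity)]
    calc x ^ (n + 1) * (8 * t) * (4 * ((n : ℝ) + 1 + 1)) ^ (n + 1)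
        = x ^ (n + 1) * (t * (8 * (4 * ((n : ℝ) + 1 + 1)) ^ (n + 1))) := by ring
      _ = x ^ (n + 1) := by rw [ht2, mul_one]
  have h7 : 0 < x ^ (n + 1) * t := by positivity
  have h8 : x ^ n * (2 * t * x) = 2 * (x ^ (n + 1) * t) := by ring
  nlinarith

/-! ### the form `Q` -/

/-- The quadratic form `g`. -/
noncomputable def gP (t θ K : ℝ) (l : E4 k ℝ →ₗ[ℝ] ℝ) (π : E4 k ℝ →ₗ[ℝ] E4 k ℝ) :
    MvPolynomial (Option (Idx4 k)) ℝ :=
  C (1 - 2 * t) * linP l ^ 2 + C (t * θ) * nsP k + C K * distP π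

/-- The form `Q`. -/
noncomputable def QP (m : ℕ) (c t θ K : ℝ) (l : E4 k ℝ →ₗ[ℝ] ℝ) (π : E4 k ℝ →ₗ[ℝ] E4 k ℝ)
    (h : MvPolynomial (Idx4 k) ℝ) : MvPolynomial (Option (Idx4 k)) ℝ :=
  (∏ i ∈ Finset.range m, (X none ^ 2 - C (1 / ((m : ℝ) + 1)) *
    (linP l ^ 2 + C ((i : ℝ) + 1) * gP t θ K l π))) - C c * rename some h

/-- The value of `g`. -/
noncomputable def gv (t θ K : ℝ) (l : E4 k ℝ →ₗ[ℝ] ℝ) (π : E4 k ℝ →ₗ[ℝ] E4 k ℝ) (R : E4 k ℝ) : ℝ :=
  ((1 - 2 * t) * l R ^ 2 + t * θ * normSq R) + K * normSq (π R)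

theorem isHom_C_mul {σ : Type*} {f : MvPolynomial σ ℝ} {n : ℕ} (hf : f.IsHomogeneous n) (c : ℝ) :
    (C c * f).IsHomogeneous n := by
  have := (isHomogeneous_C σ c).mul hf
  simpa using this

theorem gP_hom (t θ K : ℝ) (l : E4 k ℝ →ₗ[ℝ] ℝ) (π : E4 k ℝ →ₗ[ℝ] E4 k ℝ) :
    (gP t θ K l π).IsHomogeneous 2 := by
  unfold gP
  refine ((isHom_C_mul ?_ _).add (isHom_C_mul nsP_hom _)).add (isHom_C_mul (distP_hom _) _)
  simpa using (linP_hom l).pow 2

theorem QP_hom (m : ℕ) (c t θ K : ℝ) (l : E4 k ℝ →ₗ[ℝ] ℝ) (π : E4 k ℝ →ₗ[ℝ] E4 k ℝ)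
    {h : MvPolynomial (Idx4 k) ℝ} (hh : h.IsHomogeneous (2 * m)) :
    (QP m c t θ K l π h).IsHomogeneous (2 * m) := by
  unfold QP
  refine IsHomogeneous.sub ?_ (isHom_C_mul (hh.rename_isHomogeneous) _)
  have h1 : (∏ i ∈ Finset.range m, (X none ^ 2 - C (1 / ((m : ℝ) + 1)) *
    (linP l ^ 2 + C ((i : ℝ) + 1) * gP t θ K l π))).IsHomogeneous
      (∑ i ∈ Finset.range m, 2) := by
    refine IsHomogeneous.prod _ _ _ fun i _ => ?_
    have h2 : (linP l ^ 2).IsHomogeneous 2 := by simpa using (linP_hom l).pow 2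
    have h3 : ((X none : MvPolynomial (Option (Idx4 k)) ℝ) ^ 2).IsHomogeneous 2 := by
      simpa using (isHomogeneous_X ℝ (none : Option (Idx4 k))).pow 2
    exact h3.sub (isHom_C_mul (h2.add (isHom_C_mul (gP_hom _ _ _ _ _) _)) _)
  simpa [mul_comm] using h1

theorem Qev_gP (t θ K : ℝ) (l : E4 k ℝ →ₗ[ℝ] ℝ) (π : E4 k ℝ →ₗ[ℝ] E4 k ℝ) (σ : ℝ) (R : E4 k ℝ) :
    Qev (gP t θ K l π) σ R = gv t θ K l π R := by
  have h1 := Qev_linP l σ R
  have h2 := Qev_nsP σ R
  have h3 := Qev_distP π σ R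
  unfold Qev at *
  simp only [gP, gv, map_add, map_mul, map_pow, aeval_C, h1, h2, h3, Algebra.algebraMap_self,
    RingHom.id_apply]

theorem Qev_QP (m : ℕ) (c t θ K : ℝ) (l : E4 k ℝ →ₗ[ℝ] ℝ) (π : E4 k ℝ →ₗ[ℝ] E4 k ℝ)
    (h : MvPolynomial (Idx4 k) ℝ) (σ : ℝ) (R : E4 k ℝ) :
    Qev (QP m c t θ K l π h) σ R =
      (∏ i ∈ Finset.range m, (σ ^ 2 - GG m (l R ^ 2) (gv t θ K l π R) (i + 1))) -
        c * hev h R := by
  have h1 := Qev_linP l σ R
  have h2 := Qev_gP t θ K l π σ R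
  have h3 := Qev_rename h σ R
  unfold Qev at *
  simp only [QP, GG, map_add, map_mul, map_pow, map_sub, map_prod, aeval_C, aeval_X, h1, h2, h3,
    Algebra.algebraMap_self, RingHom.id_apply, Option.elim_none]
  congr 1
  refine Finset.prod_congr rfl fun i _ => ?_
  ring

/-- The separating functions. -/
noncomputable def sepμ (m : ℕ) (t θ K : ℝ) (l : E4 k ℝ →ₗ[ℝ] ℝ) (π : E4 k ℝ →ₗ[ℝ] E4 k ℝ) (i : ℕ)
    (R : E4 k ℝ) : ℝ :=
  if i < m then -√(GG m (l R ^ 2) (gv t θ K l π R) (((m - i : ℕ) : ℝ) + 1 / 2))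
  else if i = m then 0
  else √(GG m (l R ^ 2) (gv t θ K l π R) (((i - m : ℕ) : ℝ) + 1 / 2))

theorem continuous_gv (t θ K : ℝ) (l : E4 k ℝ →ₗ[ℝ] ℝ) (π : E4 k ℝ →ₗ[ℝ] E4 k ℝ) :
    Continuous (gv t θ K l π) := by
  have h1 : Continuous l := l.continuous_of_finiteDimensional
  have h2 : Continuous π := π.continuous_of_finiteDimensional
  have h3 := continuous_normSq (k := k)
  have h4 : Continuous fun R => normSq (π R) := h3.comp h2
  unfold gv
  fun_prop

theorem main : StmtA1 := by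
  intro k m B W l R₀ h θ hBcl hBc hm hh hR₀W hl hθ hθR hhR hzero
  -- the projection
  obtain ⟨W', hW'⟩ := W.exists_isCompl
  set π : E4 k ℝ →ₗ[ℝ] E4 k ℝ := W'.subtype ∘ₗ W'.projectionOnto W hW'.symm with hπ
  have hπ0 : ∀ R, π R = 0 ↔ R ∈ W := fun R => by
    rw [hπ, LinearMap.comp_apply, Submodule.subtype_apply, Submodule.coe_eq_zero,
      Submodule.projectionOnto_apply_eq_zero_iff]
  -- the constants
  set t : ℝ := 1 / (8 * (4 * ((m : ℝ) + 1)) ^ m) with ht
  have hbase : (1 : ℝ) ≤ 4 * ((m : ℝ) + 1) := by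
    have : (0 : ℝ) ≤ m := Nat.cast_nonneg m
    linarith
  have htpos : 0 < t := by positivity
  have ht4 : t ≤ 1 / 4 := by
    rw [ht]
    have : (1 : ℝ) ≤ (4 * ((m : ℝ) + 1)) ^ m := one_le_pow₀ hbase
    exact one_div_le_one_div_of_le (by norm_num) (by linarith)
  set x : ℝ := l R₀ ^ 2 with hx
  have hxpos : 0 < x := by positivity
  set g₀ : ℝ := (1 - 2 * t) * l R₀ ^ 2 + t * θ * normSq R₀ with hg₀
  have hg1 : (1 - 2 * t) * x ≤ g₀ := by
    have := normSq_nonneg R₀
    have : 0 ≤ t * θ * normSq R₀ := by positivity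
    rw [hg₀]; linarith
  have hg2 : g₀ ≤ (1 - t) * x := by
    rw [hg₀]
    nlinarith
  obtain ⟨hP0, hP1⟩ : 0 < ∏ i ∈ Finset.range m, (x - GG m x g₀ (i + 1)) ∧
      2 * ∏ i ∈ Finset.range m, (x - GG m x g₀ (i + 1)) < (g₀ / (2 * (m + 1))) ^ m := by
    obtain ⟨n, rfl⟩ : ∃ n, m = n + 1 := ⟨m - 1, by omega⟩
    refine prod_bound n hxpos hg1 hg2 htpos ht4 ?_
    rw [ht]
    push_cast
    field_simp
  set P₀ : ℝ := ∏ i ∈ Finset.range m, (x - GG m x g₀ (i + 1)) with hP₀
  set c : ℝ := 2 * P₀ / hev h R₀ with hc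
  have hcpos : 0 < c := by positivity
  have hch : c * hev h R₀ = 2 * P₀ := by rw [hc]; field_simp
  -- the constant `K`
  obtain ⟨K, hK, hKb⟩ := exists_K m B hBcl hBc (fun R => |c * hev h R|)
    (fun R => (1 - 2 * t) * l R ^ 2 + t * θ * normSq R) (fun R => normSq (π R)) hm
    ((continuous_const.mul (continuous_hev h)).abs)
    (by
      have h1 : Continuous l := l.continuous_of_finiteDimensional
      have h3 := continuous_normSq (k := k)
      fun_prop)
    (continuous_normSq.comp π.continuous_of_finiteDimensional)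
    (fun R hR => by
      have := normSq_pos hR
      have : 0 ≤ (1 - 2 * t) * l R ^ 2 := mul_nonneg (by linarith) (sq_nonneg _)
      positivity)
    (fun R => normSq_nonneg _)
    (fun a R => by
      simp only [hev_smul hh, abs_mul, abs_pow]
      rw [pow_mul |a|, sq_abs, ← pow_mul]
      ring)
    (fun a R => by simp only [map_smul, normSq_smul, smul_eq_mul]; ring)
    (fun a R => by simp only [map_smul, normSq_smul])
    (2 * (m + 1)) (by positivity)
    (fun R hR hR0 hD => by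
      have hRW : R ∈ W := (hπ0 R).mp (normSq_eq_zero hD)
      by_cases hmul : ∀ a : ℝ, R ≠ a • R₀
      · simp only [hzero R hR hRW hmul, mul_zero, abs_zero]
        have := normSq_pos hR0
        have : 0 ≤ (1 - 2 * t) * l R ^ 2 := mul_nonneg (by linarith) (sq_nonneg _)
        positivity
      · push Not at hmul
        obtain ⟨a, rfl⟩ := hmul
        have ha : a ≠ 0 := by
          rintro rfl
          simp at hR0
        have h1 : |c * hev h (a • R₀)| = a ^ (2 * m) * (2 * P₀) := by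
          rw [hev_smul hh, mul_left_comm, hch, abs_of_nonneg]
          have : 0 ≤ a ^ (2 * m) := by rw [pow_mul]; positivity
          positivity
        have h2 : ((1 - 2 * t) * l (a • R₀) ^ 2 + t * θ * normSq (a • R₀)) = a ^ 2 * g₀ := by
          rw [map_smul, normSq_smul, smul_eq_mul, hg₀]
          ring
        simp only [h1, h2]
        rw [mul_div_assoc, mul_pow, ← pow_mul]
        have : 0 < a ^ (2 * m) := by rw [pow_mul]; positivity
        exact mul_lt_mul_of_pos_left hP1 this)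
  -- the key estimate
  have hkey : ∀ R ∈ B, R ≠ 0 → 0 < gv t θ K l π R ∧
      |c * hev h R| < (gv t θ K l π R / (2 * (m + 1))) ^ m := fun R hR hR0 => by
    refine ⟨?_, hKb R hR hR0⟩
    have h1 := normSq_pos hR0
    have h2 : 0 ≤ (1 - 2 * t) * l R ^ 2 := mul_nonneg (by linarith) (sq_nonneg _)
    have h3 := normSq_nonneg (π R)
    unfold gv
    positivity
  have hgv0 : gv t θ K l π 0 = 0 := by
    simp [gv, normSq]
  refine ⟨QP m c t θ K l π h, ⟨hm, QP_hom m c t θ K l π hh, ?_, sepμ m t θ K l π, ?_, ?_, ?_⟩,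
    ?_, ?_⟩
  · -- leading coefficient
    rw [Qev_QP, hgv0]
    have h0 : hev h 0 = 0 := by
      have := hev_smul hh 0 (0 : E4 k ℝ)
      rw [zero_smul, zero_pow (by omega), zero_mul] at this
      exact this
    simp [h0, GG]
  · -- continuity
    intro i
    have h1 : Continuous l := l.continuous_of_finiteDimensional
    have h2 := continuous_gv t θ K l π
    unfold sepμ
    split_ifs
    · unfold GG
      fun_prop
    · exact continuous_const
    · unfold GG
      fun_prop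
  · intro i
    unfold sepμ
    simp [hgv0, GG]
  · -- signs
    intro R hR hR0 i hi1 hi2
    obtain ⟨hg, he⟩ := hkey R hR hR0
    have hL : 0 ≤ l R ^ 2 := sq_nonneg _
    refine ⟨?_, fun hi3 => ?_⟩
    · rw [Qev_QP]
      unfold sepμ
      split_ifs with h1 h2
      · rw [neg_sq, Real.sq_sqrt (GG_pos m hL hg (by positivity)).le]
        have := sign_sep m (L := l R ^ 2) hg he (j := m - i) (by omega)
        rwa [show m - (m - i) = i by omega] at this
      · have := sign_zero m hL hg he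
        rw [h2]
        simpa using this
      · rw [Real.sq_sqrt (GG_pos m hL hg (by positivity)).le]
        have := sign_sep m (L := l R ^ 2) hg he (j := i - m) (by omega)
        have h3 : (-1 : ℝ) ^ (m - (i - m)) = (-1 : ℝ) ^ i := by
          have h4 : i = (m - (i - m)) + 2 * (i - m) := by omega
          conv_rhs => rw [h4, pow_add, pow_mul]
          simp
        rwa [h3] at this
    · unfold sepμ
      split_ifs with h1 h2 h3 h4 h5 h6
      · rw [neg_lt_neg_iff]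
        refine Real.sqrt_lt_sqrt (GG_pos m hL hg (by positivity)).le (GG_mono m hg ?_)
        have : m - (i + 1) < m - i := by omega
        have : ((m - (i + 1) : ℕ) : ℝ) < ((m - i : ℕ) : ℝ) := by exact_mod_cast this
        linarith
      · rw [neg_lt_zero]
        exact Real.sqrt_pos.mpr (GG_pos m hL hg (by positivity))
      · omega
      · omega
      · omega
      · exact Real.sqrt_pos.mpr (GG_pos m hL hg (by positivity))
      · omega
      · omega
      · refine Real.sqrt_lt_sqrt (GG_pos m hL hg (by positivity)).le (GG_mono m hg ?_)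
        have : i - m < i + 1 - m := by omega
        have : ((i - m : ℕ) : ℝ) < ((i + 1 - m : ℕ) : ℝ) := by exact_mod_cast this
        linarith
  · -- negativity at `R₀`
    rw [Qev_QP, hch]
    have h1 : gv t θ K l π R₀ = g₀ := by
      have : π R₀ = 0 := (hπ0 R₀).mpr hR₀W
      simp [gv, this, hg₀, normSq]
    rw [h1, ← hx, ← hP₀]
    linarith
  · -- positivity
    intro R hR hRW hmul hθR' σ hσ
    have hR0 : R ≠ 0 := by
      have := hmul 0
      simpa using this
    obtain ⟨hg, he⟩ := hkey R hR hR0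
    rw [Qev_QP, hzero R hR hRW hmul, mul_zero, sub_zero]
    refine Finset.prod_pos fun i hi => ?_
    have hns := normSq_pos hR0
    have hl2 : 0 < l R ^ 2 := lt_of_lt_of_le (by positivity) hθR'
    have hπR : π R = 0 := (hπ0 R).mpr hRW
    have hgv : gv t θ K l π R ≤ (1 - t) * l R ^ 2 := by
      have : normSq (0 : E4 k ℝ) = 0 := by simp [normSq]
      simp only [gv, hπR, this]
      nlinarith
    have hgl : gv t θ K l π R < l R ^ 2 := by nlinarith
    have hσ2 : l R ^ 2 ≤ σ ^ 2 := sq_le_sq.mpr hσ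
    have hi' : (i : ℝ) + 1 ≤ m := by
      have := Finset.mem_range.mp hi
      exact_mod_cast this
    unfold GG
    rw [sub_pos, div_lt_iff₀ (by positivity)]
    have h1 : ((i : ℝ) + 1) * gv t θ K l π R < m * l R ^ 2 := by
      have h2 : ((i : ℝ) + 1) * gv t θ K l π R ≤ m * gv t θ K l π R :=
        mul_le_mul_of_nonneg_right hi' hg.le
      have hm0 : (0 : ℝ) < m := by exact_mod_cast hm
      have h3 : (m : ℝ) * gv t θ K l π R < m * l R ^ 2 := mul_lt_mul_of_pos_left hgl hm0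
      linarith
    have hm0 : (0 : ℝ) < m := by exact_mod_cast hm
    nlinarith

end A1

theorem stmtA1 : StmtA1 := A1.main

end Vale.Agent.P256.PL
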