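import Vale.Agent.P256.PL.Stmts

/-!
# P256, module A2: construction of `N`
-/

namespace Vale.Agent.P256.PL

open MvPolynomial Matrix

/-- Homogeneity of evaluations. -/
theorem aeval_mul_of_isHomogeneous {ι A : Type*} [CommRing A] [Algebra ℝ A]
    {Q : MvPolynomial ι ℝ} {d : ℕ} (hQ : Q.IsHomogeneous d) (c : A) (f : ι → A) :
    aeval (fun i => c * f i) Q = c ^ d * aeval f Q := by
  classical
  rw [aeval_def, aeval_def, eval₂_eq, eval₂_eq, Finset.mul_sum]
  refine Finset.sum_congr rfl fun e he => ?_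
  have h1 : e.degree = d := by
    have := hQ (mem_support_iff.1 he)
    rw [Finsupp.degree_eq_weight_one]
    exact this
  have h2 : ∏ i ∈ e.support, (c * f i) ^ e i = c ^ d * ∏ i ∈ e.support, f i ^ e i := by
    simp_rw [mul_pow]
    rw [Finset.prod_mul_distrib, Finset.prod_pow_eq_pow_sum, ← h1]
    rfl
  rw [h2]; ring

theorem Qev_mul {k d : ℕ} {Q : MvPolynomial (Option (Idx4 k)) ℝ} (hQ : Q.IsHomogeneous d)
    (c σ : ℝ) (R : E4 k ℝ) : Qev Q (c * σ) (c • R) = c ^ d * Qev Q σ R := by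
  unfold Qev
  rw [← aeval_mul_of_isHomogeneous hQ c]
  congr 2
  funext o
  rcases o with _ | q <;> rfl

theorem continuous_Qev {k : ℕ} (Q : MvPolynomial (Option (Idx4 k)) ℝ) {X : Type*}
    [TopologicalSpace X] {f : X → ℝ} {g : X → E4 k ℝ} (hf : Continuous f) (hg : Continuous g) :
    Continuous fun x => Qev Q (f x) (g x) := by
  have h : ∀ x, Qev Q (f x) (g x) = eval (fun o : Option (Idx4 k) => o.elim (f x)
      fun q => g x q.1 q.2.1 q.2.2.1 q.2.2.2) Q := fun x => by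
    unfold Qev; rw [aeval_def]; rfl
  simp only [h]
  refine (MvPolynomial.continuous_eval Q).comp (continuous_pi fun o => ?_)
  rcases o with _ | q
  · exact hf
  · simp only [Option.elim_some]
    exact (continuous_apply _).comp ((continuous_apply _).comp ((continuous_apply _).comp
      ((continuous_apply _).comp hg)))

theorem exists_ball_pos {X : Type*} [NormedAddCommGroup X] {f : X → ℝ} (hf : Continuous f)
    (h : 0 < f 0) : ∃ ε > 0, ∀ x, ‖x‖ < ε → 0 < f x := by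
  obtain ⟨ε, hε, hball⟩ := Metric.eventually_nhds_iff.1
    (hf.continuousAt.eventually (lt_mem_nhds h))
  exact ⟨ε, hε, fun x hx => hball (by rwa [dist_zero_right])⟩

/-- Away from a bounded set of `σ`, `Q(σ, R)` is positive. -/
theorem Qev_pos_of_large {k m : ℕ} {Q : MvPolynomial (Option (Idx4 k)) ℝ}
    (hQ : Q.IsHomogeneous (2 * m)) (h1 : Qev Q (1 : ℝ) 0 = 1) (C : ℝ) :
    ∃ M : ℝ, ∀ (σ : ℝ) (R : E4 k ℝ), ‖R‖ ≤ C → M ≤ |σ| → 0 < Qev Q σ R := by
  have hc : Continuous fun R : E4 k ℝ => Qev Q (1 : ℝ) R :=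
    continuous_Qev Q continuous_const continuous_id
  have hpos : 0 < Qev Q (1 : ℝ) (0 : E4 k ℝ) := by rw [h1]; norm_num
  obtain ⟨ε, hε, hball⟩ := exists_ball_pos hc hpos
  refine ⟨(|C| + 1) / ε, fun σ R hR hσ => ?_⟩
  have hσ0 : 0 < |σ| := lt_of_lt_of_le (by positivity) hσ
  have hσ1 : σ ≠ 0 := abs_pos.1 hσ0
  have h2 : 0 < Qev Q (1 : ℝ) (σ⁻¹ • R) := by
    apply hball
    rw [norm_smul, norm_inv, Real.norm_eq_abs]
    rw [div_le_iff₀ hε] at hσ
    rw [inv_mul_lt_iff₀ hσ0]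
    calc ‖R‖ ≤ C := hR
      _ ≤ |C| := le_abs_self C
      _ < |C| + 1 := by linarith
      _ ≤ |σ| * ε := hσ
  have h3 := Qev_mul hQ σ 1 (σ⁻¹ • R)
  rw [mul_one, smul_smul, mul_inv_cancel₀ hσ1, one_smul] at h3
  rw [h3]
  have : 0 < σ ^ (2 * m) := by
    rw [pow_mul]; positivity
  positivity

/-- Compactness: a penalty dominates. -/
theorem exists_penalty {X : Type*} [TopologicalSpace X] {s : Set X} (hs : IsCompact s)
    {d g : X → ℝ} (hd : Continuous d) (hg : Continuous g) (hd0 : ∀ x, 0 ≤ d x)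
    (h : ∀ x ∈ s, d x = 0 → 0 < g x) :
    ∃ κ : ℝ, ∀ κ' : ℝ, κ ≤ κ' → ∀ x ∈ s, 0 < κ' * d x + g x := by
  have hs' : IsCompact (s ∩ {x | g x ≤ 0}) := hs.inter_right (isClosed_le hg continuous_const)
  rcases (s ∩ {x | g x ≤ 0}).eq_empty_or_nonempty with he | hne
  · refine ⟨0, fun κ' hκ x hx => ?_⟩
    have : 0 < g x := by
      by_contra hlt
      have : x ∈ s ∩ {x | g x ≤ 0} := ⟨hx, not_lt.1 hlt⟩
      rw [he] at this; exact this
    have := mul_nonneg hκ (hd0 x)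
    linarith
  · obtain ⟨x0, hx0, hmin⟩ := hs'.exists_isMinOn hne hd.continuousOn
    obtain ⟨x1, hx1, hmin1⟩ := hs'.exists_isMinOn hne hg.continuousOn
    have hd1 : 0 < d x0 := by
      rcases (hd0 x0).lt_or_eq with h1 | h1
      · exact h1
      · exact absurd (h x0 hx0.1 h1.symm) (not_lt.2 hx0.2)
    refine ⟨(|g x1| + 1) / d x0, fun κ' hκ x hx => ?_⟩
    have hκ0 : 0 < κ' := lt_of_lt_of_le (by positivity) hκ
    by_cases hgx : g x ≤ 0
    · have h1 : d x0 ≤ d x := hmin ⟨hx, hgx⟩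
      have h2 : g x1 ≤ g x := hmin1 ⟨hx, hgx⟩
      rw [div_le_iff₀ hd1] at hκ
      have h3 : κ' * d x0 ≤ κ' * d x := mul_le_mul_of_nonneg_left h1 hκ0.le
      have h4 : -|g x1| ≤ g x1 := neg_abs_le _
      linarith
    · have := mul_nonneg hκ0.le (hd0 x)
      linarith [not_le.1 hgx]

/-- The abstract form of the construction of `N`. -/
theorem exists_kappa {X : Type*} [NormedAddCommGroup X] [NormedSpace ℝ X] [ProperSpace X]
    {d q : X → ℝ} {F : ℝ → X → ℝ} {e : ℕ} (hd : Continuous d) (hq : Continuous q)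
    (hF : Continuous fun x : X × ℝ => F x.2 x.1) (hd0 : ∀ x, 0 ≤ d x)
    (hdh : ∀ (r : ℝ) x, d (r • x) = r ^ 2 * d x) (hqh : ∀ (r : ℝ) x, q (r • x) = r ^ 2 * q x)
    (hFh : ∀ (r : ℝ) σ x, F (r ^ 2 * σ) (r • x) = (r ^ 2) ^ e * F σ x)
    (hM : ∃ M : ℝ, ∀ x, ‖x‖ = 1 → ∀ σ, M ≤ |σ| → 0 < F σ x)
    (h : ∀ x, x ≠ 0 → d x = 0 → 0 < q x ∧ ∀ σ, q x ≤ |σ| → 0 < F σ x) :
    ∃ κ : ℝ, ∀ x, x ≠ 0 → 0 < κ * d x + q x ∧ ∀ σ, κ * d x + q x ≤ |σ| → 0 < F σ x := by
  obtain ⟨M, hM⟩ := hM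
  have hS : IsCompact (Metric.sphere (0 : X) 1) := isCompact_sphere _ _
  have hne : ∀ x ∈ Metric.sphere (0 : X) 1, x ≠ 0 := by
    rintro x hx rfl
    simp at hx
  have hC1 : IsCompact ((Metric.sphere (0 : X) 1 ×ˢ Set.Icc (-M) M) ∩ {x | F x.2 x.1 ≤ 0}) :=
    (hS.prod isCompact_Icc).inter_right (isClosed_le hF continuous_const)
  obtain ⟨κ1, hκ1⟩ := exists_penalty hC1 (d := fun x => d x.1)
    (g := fun x => q x.1 - |x.2|) (hd.comp continuous_fst)
    ((hq.comp continuous_fst).sub continuous_snd.abs) (fun x => hd0 _) (by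
      rintro ⟨x, σ⟩ ⟨⟨hx, hσ⟩, hQ0⟩ hdx
      by_contra hlt
      have := (h x (hne x hx) hdx).2 σ (by simpa using hlt)
      exact absurd this (not_lt.2 hQ0))
  obtain ⟨κ2, hκ2⟩ := exists_penalty hS hd hq hd0 (fun x hx hdx => (h x (hne x hx) hdx).1)
  have key : ∀ x, ‖x‖ = 1 → 0 < max κ1 κ2 * d x + q x ∧
      ∀ σ, max κ1 κ2 * d x + q x ≤ |σ| → 0 < F σ x := by
    intro x hx
    have hxS : x ∈ Metric.sphere (0 : X) 1 := by simpa using hx
    refine ⟨hκ2 _ (le_max_right _ _) x hxS, fun σ hσ => ?_⟩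
    by_contra hneg
    have hσM : |σ| ≤ M := by
      by_contra hlt
      exact hneg (hM x hx σ (not_le.1 hlt).le)
    have := hκ1 (max κ1 κ2) (le_max_left _ _) (x, σ) ⟨⟨hxS, abs_le.1 hσM⟩, not_lt.1 hneg⟩
    simp only at this
    linarith
  refine ⟨max κ1 κ2, fun x hx => ?_⟩
  have hr : 0 < ‖x‖ := norm_pos_iff.2 hx
  have hx1 : ‖‖x‖⁻¹ • x‖ = 1 := by
    rw [norm_smul, norm_inv, norm_norm, inv_mul_cancel₀ hr.ne']
  have hxx : ‖x‖ • ‖x‖⁻¹ • x = x := by rw [smul_smul, mul_inv_cancel₀ hr.ne', one_smul]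
  obtain ⟨h1, h2⟩ := key _ hx1
  have e1 := hdh ‖x‖ (‖x‖⁻¹ • x)
  have e2 := hqh ‖x‖ (‖x‖⁻¹ • x)
  rw [hxx] at e1 e2
  have hr2 : (0 : ℝ) < ‖x‖ ^ 2 := by positivity
  have e3 : max κ1 κ2 * d x + q x =
      ‖x‖ ^ 2 * (max κ1 κ2 * d (‖x‖⁻¹ • x) + q (‖x‖⁻¹ • x)) := by rw [e1, e2]; ring
  refine ⟨by rw [e3]; positivity, fun σ hσ => ?_⟩
  have e4 := hFh ‖x‖ ((‖x‖ ^ 2)⁻¹ * σ) (‖x‖⁻¹ • x)
  rw [hxx, ← mul_assoc, mul_inv_cancel₀ hr2.ne', one_mul] at e4
  rw [e4]
  have h3 : 0 < F ((‖x‖ ^ 2)⁻¹ * σ) (‖x‖⁻¹ • x) := by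
    apply h2
    rw [abs_mul, abs_inv, abs_of_pos hr2, le_inv_mul_iff₀ hr2, ← e3]
    exact hσ
  positivity

/-- A bilinear form on matrices as a four-index array. -/
theorem quadN_bilin {k : ℕ}
    (b : Matrix (Fin k) (Fin k) ℝ →ₗ[ℝ] Matrix (Fin k) (Fin k) ℝ →ₗ[ℝ] ℝ)
    (U : Matrix (Fin k) (Fin k) ℝ) :
    quadN (fun i j l m => b (Matrix.single i j 1) (Matrix.single l m 1)) U = b U U := by
  have hU : U = ∑ i, ∑ j, U i j • Matrix.single i j (1 : ℝ) := by
    conv_lhs => rw [Matrix.matrix_eq_sum_single U]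
    simp only [Matrix.smul_single, smul_eq_mul, mul_one]
  have h1 : b U = ∑ i, ∑ j, U i j • b (Matrix.single i j 1) := by
    conv_lhs => rw [hU]
    simp only [map_sum, map_smul]
  have h2 : ∀ V, b V U = ∑ l, ∑ m, U l m * b V (Matrix.single l m 1) := by
    intro V
    conv_lhs => rw [hU]
    simp only [map_sum, map_smul, smul_eq_mul]
  rw [h1]
  simp only [LinearMap.sum_apply, LinearMap.smul_apply, smul_eq_mul, h2, Finset.mul_sum]
  unfold quadN pairing tens2
  refine Finset.sum_congr rfl fun i _ => Finset.sum_congr rfl fun j _ => ?_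
  refine Finset.sum_congr rfl fun l _ => Finset.sum_congr rfl fun m _ => ?_
  ring

/-- The bilinear map `(U, V) ↦ -alt (U ⊗ V)`. -/
def wedgeB (k : ℕ) :
    Matrix (Fin k) (Fin k) ℝ →ₗ[ℝ] Matrix (Fin k) (Fin k) ℝ →ₗ[ℝ] E4 k ℝ :=
  LinearMap.mk₂ ℝ (fun U V => -alt (tens2 U V))
    (by intro U U' V; funext i j l m; simp [alt, tens2]; ring)
    (by intro c U V; funext i j l m; simp [alt, tens2]; ring)
    (by intro U V V'; funext i j l m; simp [alt, tens2]; ring)
    (by intro c U V; funext i j l m; simp [alt, tens2]; ring)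

/-- `-wedge` on the function space. -/
theorem continuous_wedge {k : ℕ} :
    Continuous fun U : Fin k → Fin k → ℝ => -wedge (Matrix.of U) := by
  refine continuous_pi fun i => continuous_pi fun j => continuous_pi fun l =>
    continuous_pi fun m => ?_
  have h : ∀ a b, Continuous fun U : Fin k → Fin k → ℝ => U a b := fun a b =>
    (continuous_apply b).comp (continuous_apply a)
  simp only [wedge, alt, tens2, Pi.neg_apply, Matrix.of_apply]
  exact (((h _ _).mul (h _ _)).sub ((h _ _).mul (h _ _))).neg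

theorem wedge_smul {k : ℕ} (r : ℝ) (U : Matrix (Fin k) (Fin k) ℝ) :
    -wedge (r • U) = r ^ 2 • -wedge U := by
  funext i j l m
  simp [wedge, alt, tens2]; ring

/-- The defect of a subspace. -/
theorem exists_defect {k : ℕ} (K : Submodule ℝ (Matrix (Fin k) (Fin k) ℝ)) :
    ∃ b : Matrix (Fin k) (Fin k) ℝ →ₗ[ℝ] Matrix (Fin k) (Fin k) ℝ →ₗ[ℝ] ℝ,
      (∀ U, 0 ≤ b U U) ∧ (∀ U, b U U = 0 ↔ U ∈ K) := by
  classical
  let e := Module.finBasis ℝ (Matrix (Fin k) (Fin k) ℝ ⧸ K)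
  let f : Fin _ → (Matrix (Fin k) (Fin k) ℝ →ₗ[ℝ] ℝ) := fun i => (e.coord i).comp K.mkQ
  refine ⟨∑ i, LinearMap.smulRight (f i) (f i), ?_, ?_⟩
  · intro U
    simp only [LinearMap.sum_apply, LinearMap.smulRight_apply, LinearMap.smul_apply, smul_eq_mul]
    exact Finset.sum_nonneg fun i _ => mul_self_nonneg _
  · intro U
    simp only [LinearMap.sum_apply, LinearMap.smulRight_apply, LinearMap.smul_apply, smul_eq_mul]
    rw [Finset.sum_eq_zero_iff_of_nonneg fun i _ => mul_self_nonneg _]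
    constructor
    · intro h
      rw [← Submodule.Quotient.mk_eq_zero, ← Submodule.mkQ_apply]
      refine e.ext_elem fun i => ?_
      have := h i (Finset.mem_univ _)
      simpa [f] using this
    · intro h i _
      have : K.mkQ U = 0 := by simpa using h
      simp [f, this]

theorem stmtA2 : StmtA2 := by
  classical
  intro k m Q K l hm hQ h1 hK
  obtain ⟨b, hb0, hbK⟩ := exists_defect K
  have hl : Continuous l := l.continuous_of_finiteDimensional
  have hbc : Continuous fun U : Fin k → Fin k → ℝ => b (Matrix.of U) (Matrix.of U) := by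
    have : (fun U : Fin k → Fin k → ℝ => b (Matrix.of U) (Matrix.of U)) =
        fun U => quadN (fun i j l m => b (Matrix.single i j 1) (Matrix.single l m 1))
          (Matrix.of U) := by
      funext U; rw [quadN_bilin]
    rw [this]
    have h : ∀ a b, Continuous fun U : Fin k → Fin k → ℝ => U a b := fun a b =>
      (continuous_apply b).comp (continuous_apply a)
    unfold quadN pairing tens2
    exact continuous_finsetSum _ fun i _ => continuous_finsetSum _ fun j _ =>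
      continuous_finsetSum _ fun l _ => continuous_finsetSum _ fun m _ =>
        continuous_const.mul ((h _ _).mul (h _ _))
  have hS : IsCompact (Metric.sphere (0 : Fin k → Fin k → ℝ) 1) := isCompact_sphere _ _
  obtain ⟨C, hC⟩ := hS.exists_bound_of_continuousOn
    (f := fun U => -wedge (Matrix.of U)) continuous_wedge.continuousOn
  obtain ⟨M, hM⟩ := Qev_pos_of_large hQ h1 C
  obtain ⟨κ, hκ⟩ := exists_kappa (X := Fin k → Fin k → ℝ)
    (d := fun U => b (Matrix.of U) (Matrix.of U))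
    (q := fun U => l (-wedge (Matrix.of U)))
    (F := fun σ U => Qev Q σ (-wedge (Matrix.of U))) (e := 2 * m) hbc
    (hl.comp continuous_wedge)
    (continuous_Qev Q continuous_snd (continuous_wedge.comp continuous_fst))
    (fun U => hb0 _)
    (fun r U => by
      change b (r • Matrix.of U) (r • Matrix.of U) = _
      simp only [map_smul, LinearMap.smul_apply, smul_eq_mul]; ring)
    (fun r U => by
      change l (-wedge (r • Matrix.of U)) = _
      rw [wedge_smul, map_smul, smul_eq_mul])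
    (fun r σ U => by
      change Qev Q (r ^ 2 * σ) (-wedge (r • Matrix.of U)) = _
      rw [wedge_smul, Qev_mul hQ])
    ⟨M, fun U hU σ hσ => hM σ _ (hC U (by simpa using hU)) hσ⟩
    (fun U hU hd => hK _ ((hbK _).1 hd) (fun h => hU h))
  let B : Matrix (Fin k) (Fin k) ℝ →ₗ[ℝ] Matrix (Fin k) (Fin k) ℝ →ₗ[ℝ] ℝ :=
    κ • b + (wedgeB k).compr₂ l
  have hB : ∀ U, B U U = κ * b U U + l (-wedge U) := by
    intro U
    simp only [B, LinearMap.add_apply, LinearMap.smul_apply, smul_eq_mul,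
      LinearMap.compr₂_apply]
    rfl
  refine ⟨fun i j l m => B (Matrix.single i j 1) (Matrix.single l m 1), ?_, ?_⟩
  · intro U hU
    rw [quadN_bilin, hB, (hbK U).2 hU, mul_zero, zero_add]
  · intro U hsymm hU
    rw [quadN_bilin, hB]
    exact hκ U hU

end Vale.Agent.P256.PL
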