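import Vale.Agent.P256.PL.Stmts

/-!
# P256: the projected Lax conjecture is false. Module A3: `BB` is a closed cone.
-/

namespace Vale.Agent.P256.PL

namespace A3

theorem continuous_Bi {k : ℕ} (a b c d e : Fin k) :
    Continuous fun p : E4 k ℝ × (Fin k → Fin k → Fin k → ℝ) => Bi p.1 p.2 a b c d e := by
  unfold Bi
  fun_prop

theorem Bi_smul_left {k : ℕ} (r : ℝ) (R : E4 k ℝ) (G : Fin k → Fin k → Fin k → ℝ)
    (a b c d e : Fin k) : Bi (r • R) G a b c d e = r * Bi R G a b c d e := by
  simp only [Bi, Pi.smul_apply, smul_eq_mul, mul_add, Finset.mul_sum]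
  congr 1
  · congr 1
    · exact Finset.sum_congr rfl fun g _ => by ring
    · exact Finset.sum_congr rfl fun g _ => by ring
  · exact Finset.sum_congr rfl fun g _ => by ring

theorem Bi_smul_right {k : ℕ} (r : ℝ) (R : E4 k ℝ) (G : Fin k → Fin k → Fin k → ℝ)
    (a b c d e : Fin k) : Bi R (r • G) a b c d e = r * Bi R G a b c d e := by
  simp only [Bi, Pi.smul_apply, smul_eq_mul, mul_add, Finset.mul_sum]
  congr 1
  · congr 1
    · exact Finset.sum_congr rfl fun g _ => by ring
    · exact Finset.sum_congr rfl fun g _ => by ring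
  · exact Finset.sum_congr rfl fun g _ => by ring

theorem isG_smul {k : ℕ} (r : ℝ) {G : Fin k → Fin k → Fin k → ℝ} (h : IsG G) :
    IsG (r • G) := by
  refine ⟨fun a e g => ?_, fun a => ?_⟩
  · simp only [Pi.smul_apply, smul_eq_mul]
    rw [h.1]
  · simp only [Pi.smul_apply, smul_eq_mul]
    rw [← Finset.mul_sum, h.2, mul_zero]

theorem isClosed_isG (k : ℕ) : IsClosed {G : Fin k → Fin k → Fin k → ℝ | IsG G} := by
  simp only [IsG, Set.ofPred_and, Set.ofPred_forall]
  refine IsClosed.inter ?_ ?_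
  · refine isClosed_iInter fun a => isClosed_iInter fun e => isClosed_iInter fun g => ?_
    exact isClosed_eq (by fun_prop) (by fun_prop)
  · refine isClosed_iInter fun a => ?_
    exact isClosed_eq (by fun_prop) (by fun_prop)

theorem isClosed_BB (k : ℕ) : IsClosed (BB k) := by
  let S : Set (E4 k ℝ × Metric.sphere (0 : Fin k → Fin k → Fin k → ℝ) 1) :=
    {p | IsG (p.2 : Fin k → Fin k → Fin k → ℝ) ∧
      ∀ a b c d e, Bi p.1 (p.2 : Fin k → Fin k → Fin k → ℝ) a b c d e = 0}
  have hS : IsClosed S := by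
    refine IsClosed.inter ?_ ?_
    · exact (isClosed_isG k).preimage (continuous_subtype_val.comp continuous_snd)
    · change IsClosed {p : E4 k ℝ × Metric.sphere (0 : Fin k → Fin k → Fin k → ℝ) 1 |
        ∀ a b c d e, Bi p.1 (p.2 : Fin k → Fin k → Fin k → ℝ) a b c d e = 0}
      simp only [Set.ofPred_forall]
      refine isClosed_iInter fun a => isClosed_iInter fun b => isClosed_iInter fun c =>
        isClosed_iInter fun d => isClosed_iInter fun e => ?_
      refine isClosed_eq ?_ continuous_const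
      exact (continuous_Bi a b c d e).comp
        (continuous_fst.prodMk (continuous_subtype_val.comp continuous_snd))
  have himg : BB k = Prod.fst '' S := by
    ext R
    constructor
    · rintro ⟨G, hG0, hG, hB⟩
      have hn : ‖G‖ ≠ 0 := norm_ne_zero_iff.2 hG0
      refine ⟨(R, ⟨‖G‖⁻¹ • G, ?_⟩), ⟨isG_smul _ hG, fun a b c d e => ?_⟩, rfl⟩
      · rw [mem_sphere_zero_iff_norm, norm_smul, norm_inv, norm_norm, inv_mul_cancel₀ hn]
      · change Bi R (‖G‖⁻¹ • G) a b c d e = 0
        rw [Bi_smul_right, hB, mul_zero]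
    · rintro ⟨⟨R', G, hG1⟩, ⟨hG, hB⟩, rfl⟩
      refine ⟨G, ?_, hG, hB⟩
      rintro rfl
      rw [mem_sphere_zero_iff_norm, norm_zero] at hG1
      exact zero_ne_one hG1
  rw [himg]
  exact isClosedMap_fst_of_compactSpace _ hS

theorem smul_mem_BB {k : ℕ} (c : ℝ) {R : E4 k ℝ} (h : R ∈ BB k) : c • R ∈ BB k := by
  obtain ⟨G, hG0, hG, hB⟩ := h
  exact ⟨G, hG0, hG, fun a b c' d e => by rw [Bi_smul_left, hB, mul_zero]⟩

end A3

/-- Module A3: `BB` is a closed cone. -/
theorem stmtA3 : StmtA3 := fun k => ⟨A3.isClosed_BB k, fun c _ h => A3.smul_mem_BB c h⟩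

end Vale.Agent.P256.PL
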