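import Mathlib.Topology.Algebra.Module.Cardinality
import Vale.Agent.P256.PL.A3

/-!
# P256: the projected Lax conjecture is false. Module A4: all `alt (Xt τ)` and all `± U ∧ U` are
in `BB`.
-/

namespace Vale.Agent.P256.PL

namespace A4

open Matrix

section ring

variable {k : ℕ} {A : Type*} [CommRing A]

/-- The solution `G` belonging to `τ`, before removing its trace. -/
def Gt (τ : Tens k A) : Fin k → Fin k → Fin k → A := fun a e g =>
  ∑ b, τ a.succ e.succ b * (yM τ).adjugate b g.succ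

/-- The trace free part, times `k + 1`. -/
def tf (G : Fin k → Fin k → Fin k → A) : Fin k → Fin k → Fin k → A := fun a e g =>
  (k + 1 : A) * G a e g - (∑ h, G a h h) * (if e = g then 1 else 0) -
    (∑ h, G e h h) * (if a = g then 1 else 0)

/-- The matrix `τ_a`. -/
def TM (τ : Tens k A) (a : Fin (k + 1)) : Matrix (Fin (k + 1)) (Fin (k + 1)) A :=
  fun b c => τ a b c

/-- The bracket of `τ_b` and `τ_c`. -/
def RM (τ : Tens k A) (b c : Fin (k + 1)) : Matrix (Fin (k + 1)) (Fin (k + 1)) A :=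
  TM τ b * (yM τ).adjugate * TM τ c - TM τ c * (yM τ).adjugate * TM τ b

omit [CommRing A] in
theorem TM_transpose {τ : Tens k A} (h : IsSymT τ) (a : Fin (k + 1)) :
    (TM τ a)ᵀ = TM τ a := by
  ext b c
  exact h.2 a c b

omit [CommRing A] in
theorem yM_transpose {τ : Tens k A} (h : IsSymT τ) : (yM τ)ᵀ = yM τ := by
  ext b c
  exact h.2 0 c b

theorem adj_transpose {τ : Tens k A} (h : IsSymT τ) :
    ((yM τ).adjugate)ᵀ = (yM τ).adjugate := by
  rw [adjugate_transpose, yM_transpose h]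

theorem adj_symm {τ : Tens k A} (h : IsSymT τ) (a b : Fin (k + 1)) :
    (yM τ).adjugate a b = (yM τ).adjugate b a := by
  have := congrFun (congrFun (adj_transpose h) b) a
  simpa [transpose_apply] using this

theorem Xt_symm_left {τ : Tens k A} (h : IsSymT τ) (i j l m : Fin k) :
    Xt τ i j l m = Xt τ j i l m := by
  unfold Xt
  refine Finset.sum_congr rfl fun a _ => Finset.sum_congr rfl fun b _ => ?_
  rw [h.1 i.succ j.succ a]

theorem Xt_symm_pair {τ : Tens k A} (h : IsSymT τ) (i j l m : Fin k) :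
    Xt τ i j l m = Xt τ l m i j := by
  unfold Xt
  rw [Finset.sum_comm]
  refine Finset.sum_congr rfl fun a _ => Finset.sum_congr rfl fun b _ => ?_
  rw [adj_symm h b a]
  ring

/-- `(τ_b P τ_c)_{dg}` as a double sum. -/
theorem TPT_apply {τ : Tens k A} (h : IsSymT τ) (b c d g : Fin (k + 1)) :
    (TM τ b * (yM τ).adjugate * TM τ c) d g =
      ∑ x, ∑ y, τ b d x * (yM τ).adjugate x y * τ c g y := by
  simp only [mul_apply, Finset.sum_mul]
  rw [Finset.sum_comm]
  refine Finset.sum_congr rfl fun x _ => Finset.sum_congr rfl fun y _ => ?_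
  rw [show TM τ c y g = τ c g y from h.2 c y g]
  rfl

theorem TPT_symm {τ : Tens k A} (h : IsSymT τ) (b c d g : Fin (k + 1)) :
    (TM τ c * (yM τ).adjugate * TM τ b) d g = (TM τ b * (yM τ).adjugate * TM τ c) g d := by
  have : (TM τ c * (yM τ).adjugate * TM τ b)ᵀ = TM τ b * (yM τ).adjugate * TM τ c := by
    rw [transpose_mul, transpose_mul, TM_transpose h, TM_transpose h, adj_transpose h,
      Matrix.mul_assoc]
  rw [← this]
  rfl

theorem alt_Xt_eq {τ : Tens k A} (h : IsSymT τ) (b c d g : Fin k) :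
    alt (Xt τ) b c d g = RM τ b.succ c.succ d.succ g.succ := by
  unfold RM
  rw [Matrix.sub_apply, TPT_symm h b.succ c.succ, TPT_apply h, TPT_apply h]
  rfl

theorem RM_right_zero {τ : Tens k A} (h : IsSymT τ) (b c d : Fin (k + 1)) :
    RM τ b c d 0 = 0 := by
  have key : ∀ b c : Fin (k + 1), (TM τ b * (yM τ).adjugate * TM τ c) d 0 =
      (yM τ).det * τ b d c := by
    intro b c
    have h1 : (TM τ b * (yM τ).adjugate * TM τ c) d 0 =
        (TM τ b * (yM τ).adjugate * yM τ) d c := by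
      rw [mul_apply, mul_apply]
      refine Finset.sum_congr rfl fun x _ => ?_
      congr 1
      change τ c x 0 = τ 0 x c
      rw [h.2 c x 0, h.1 c 0 x, h.2 0 c x]
    rw [h1, Matrix.mul_assoc, adjugate_mul, Matrix.mul_smul, Matrix.mul_one]
    rfl
  unfold RM
  rw [Matrix.sub_apply, key, key, h.2 b d c, h.1 b c d, h.2 c b d, sub_self]

theorem RM_left_zero {τ : Tens k A} (h : IsSymT τ) (b c e : Fin (k + 1)) :
    RM τ b c 0 e = 0 := by
  have h0 := RM_right_zero h b c e
  have e1 := TPT_symm h b c 0 e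
  have e2 := TPT_symm h c b 0 e
  unfold RM at h0 ⊢
  rw [Matrix.sub_apply, sub_eq_zero] at h0
  rw [Matrix.sub_apply, e1, e2, h0, sub_self]

theorem Gt_eq (τ : Tens k A) (a e g : Fin k) :
    Gt τ a e g = (TM τ a.succ * (yM τ).adjugate) e.succ g.succ := by
  rw [mul_apply]
  rfl

theorem Gt_symm {τ : Tens k A} (h : IsSymT τ) (a e g : Fin k) : Gt τ a e g = Gt τ e a g := by
  unfold Gt
  refine Finset.sum_congr rfl fun b _ => ?_
  rw [h.1 a.succ e.succ b]

theorem sum1 {τ : Tens k A} (h : IsSymT τ) (a b c d e : Fin k) :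
    ∑ g, alt (Xt τ) b c d g * Gt τ a e g =
      (RM τ b.succ c.succ * (yM τ).adjugate * TM τ a.succ) d.succ e.succ := by
  have h1 : ∀ g : Fin (k + 1), (TM τ a.succ * (yM τ).adjugate) e.succ g =
      ((yM τ).adjugate * TM τ a.succ) g e.succ := by
    intro g
    have : (TM τ a.succ * (yM τ).adjugate)ᵀ = (yM τ).adjugate * TM τ a.succ := by
      rw [transpose_mul, TM_transpose h, adj_transpose h]
    rw [← this]
    rfl
  rw [Matrix.mul_assoc, mul_apply, Fin.sum_univ_succ, RM_right_zero h, zero_mul, zero_add]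
  refine Finset.sum_congr rfl fun g _ => ?_
  rw [alt_Xt_eq h, Gt_eq, h1]

theorem sum2 {τ : Tens k A} (h : IsSymT τ) (a b c d e : Fin k) :
    ∑ g, Gt τ a d g * alt (Xt τ) b c g e =
      (TM τ a.succ * (yM τ).adjugate * RM τ b.succ c.succ) d.succ e.succ := by
  rw [mul_apply, Fin.sum_univ_succ, RM_left_zero h, mul_zero, zero_add]
  refine Finset.sum_congr rfl fun g _ => ?_
  rw [alt_Xt_eq h, Gt_eq]

end ring

theorem Bi_Gt {k : ℕ} {τ : Tens k ℝ} (h : IsSymT τ) (a b c d e : Fin k) :
    Bi (alt (Xt τ)) (Gt τ) a b c d e = 0 := by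
  unfold Bi
  simp only [Finset.sum_sub_distrib, sum1 h, sum2 h]
  simp only [← Matrix.sub_apply, ← Matrix.add_apply]
  have key : RM τ b.succ c.succ * (yM τ).adjugate * TM τ a.succ -
      TM τ a.succ * (yM τ).adjugate * RM τ b.succ c.succ +
      (RM τ c.succ a.succ * (yM τ).adjugate * TM τ b.succ -
      TM τ b.succ * (yM τ).adjugate * RM τ c.succ a.succ) +
      (RM τ a.succ b.succ * (yM τ).adjugate * TM τ c.succ -
      TM τ c.succ * (yM τ).adjugate * RM τ a.succ b.succ) = 0 := by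
    unfold RM
    noncomm_ring
  rw [key]
  rfl

/-- The algebraic symmetries of `Xt τ` and of `U ⊗ U`. -/
def IsX {k : ℕ} (X : E4 k ℝ) : Prop :=
  (∀ i j l m, X i j l m = X j i l m) ∧ ∀ i j l m, X i j l m = X l m i j

theorem sum_tf {k : ℕ} (R : E4 k ℝ) (G : Fin k → Fin k → Fin k → ℝ) (a b c d e : Fin k) :
    ∑ g, (R b c d g * tf G a e g - tf G a d g * R b c g e) =
      (k + 1 : ℝ) * ∑ g, (R b c d g * G a e g - G a d g * R b c g e) -
      (∑ h, G e h h) * R b c d a + (∑ h, G d h h) * R b c a e := by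
  have h1 : ∀ g, R b c d g * tf G a e g - tf G a d g * R b c g e =
      (k + 1 : ℝ) * (R b c d g * G a e g - G a d g * R b c g e) -
      (if e = g then (∑ h, G a h h) * R b c d g else 0) -
      (if a = g then (∑ h, G e h h) * R b c d g else 0) +
      (if d = g then (∑ h, G a h h) * R b c g e else 0) +
      (if a = g then (∑ h, G d h h) * R b c g e else 0) := by
    intro g
    unfold tf
    split_ifs <;> ring
  rw [Finset.sum_congr rfl fun g _ => h1 g]
  rw [Finset.sum_add_distrib, Finset.sum_add_distrib, Finset.sum_sub_distrib,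
    Finset.sum_sub_distrib, ← Finset.mul_sum, Finset.sum_ite_eq, Finset.sum_ite_eq,
    Finset.sum_ite_eq, Finset.sum_ite_eq]
  simp only [Finset.mem_univ, if_true]
  ring

theorem mem_BB_of {k : ℕ} {X : E4 k ℝ} (hX : IsX X) {G : Fin k → Fin k → Fin k → ℝ}
    (hG : ∀ a e g, G a e g = G e a g) (hB : ∀ a b c d e, Bi (alt X) G a b c d e = 0)
    (h0 : tf G ≠ 0) : alt X ∈ BB k := by
  refine ⟨tf G, h0, ⟨fun a e g => ?_, fun a => ?_⟩, fun a b c d e => ?_⟩
  · unfold tf
    rw [hG a e g]
    ring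
  · unfold tf
    simp only [if_true, mul_one, Finset.sum_sub_distrib, ← Finset.mul_sum, Finset.sum_const,
      Finset.card_univ, Fintype.card_fin, nsmul_eq_mul, mul_ite, mul_zero, Finset.sum_ite_eq,
      Finset.mem_univ]
    ring
  · have hB' := hB a b c d e
    unfold Bi at hB' ⊢
    rw [sum_tf, sum_tf, sum_tf]
    have e1 : alt X b c d a + alt X c a d b + alt X a b d c = 0 := by
      unfold alt
      have p1 : X b d c a = X a c b d := by rw [hX.2 b d c a, hX.1 c a b d]
      have p2 : X c d a b = X b a c d := by rw [hX.2 c d a b, hX.1 a b c d]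
      have p3 : X a d b c = X c b a d := by rw [hX.2 a d b c, hX.1 b c a d]
      rw [p1, p2, p3]
      ring
    have e2 : alt X b c a e + alt X c a b e + alt X a b c e = 0 := by
      unfold alt
      have p1 : X b a c e = X c e a b := by rw [hX.2 c e a b, hX.1 a b c e]
      have p2 : X b e c a = X a c b e := by rw [hX.2 b e c a, hX.1 c a b e]
      have p3 : X c b a e = X a e b c := by rw [hX.2 a e b c, hX.1 b c a e]
      rw [p1, p2, p3]
      ring
    linear_combination (k + 1 : ℝ) * hB' - (∑ h, G e h h) * e1 + (∑ h, G d h h) * e2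

/-- Density argument on a polynomial arc. -/
theorem arc {k : ℕ} (p : Polynomial ℝ) (f : ℝ → E4 k ℝ) (hf : Continuous f)
    (h1 : p.eval 1 ≠ 0) (h : ∀ ε : ℝ, p.eval ε ≠ 0 → f ε ∈ BB k) : f 0 ∈ BB k := by
  have hp : p ≠ 0 := by
    rintro rfl
    exact h1 (by simp)
  have hfin : {ε : ℝ | p.eval ε = 0}.Finite := by
    refine (p.roots.toFinset.finite_toSet).subset fun ε hε => ?_
    simp only [Finset.mem_coe, Multiset.mem_toFinset]
    exact (Polynomial.mem_roots hp).2 hε
  have hd : Dense ({ε : ℝ | p.eval ε = 0}ᶜ) := hfin.countable.dense_compl ℝ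
  have hc : IsClosed (f ⁻¹' BB k) := (A3.isClosed_BB k).preimage hf
  have hsub : {ε : ℝ | p.eval ε = 0}ᶜ ⊆ f ⁻¹' BB k := fun ε hε => h ε hε
  have huniv : f ⁻¹' BB k = Set.univ := by
    rw [← hc.closure_eq]
    exact (hd.mono hsub).closure_eq
  have : (0 : ℝ) ∈ f ⁻¹' BB k := by
    rw [huniv]
    trivial
  exact this

/-- The arc from `τ` to `τ'` over the polynomial ring. -/
noncomputable def arcT {k : ℕ} (τ τ' : Tens k ℝ) : Tens k (Polynomial ℝ) := fun a b c =>
  (1 - Polynomial.X) * Polynomial.C (τ a b c) + Polynomial.X * Polynomial.C (τ' a b c)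

/-- The arc from `τ` to `τ'`. -/
def arcR {k : ℕ} (τ τ' : Tens k ℝ) (ε : ℝ) : Tens k ℝ := fun a b c =>
  (1 - ε) * τ a b c + ε * τ' a b c

theorem arcT_eval {k : ℕ} (τ τ' : Tens k ℝ) (ε : ℝ) :
    (fun a b c => Polynomial.evalRingHom ε (arcT τ τ' a b c)) = arcR τ τ' ε := by
  funext a b c
  simp only [arcT, arcR, map_add, map_mul, map_sub, map_one, Polynomial.coe_evalRingHom,
    Polynomial.eval_X, Polynomial.eval_C]

theorem arcR_sym {k : ℕ} {τ τ' : Tens k ℝ} (h : IsSymT τ) (h' : IsSymT τ') (ε : ℝ) :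
    IsSymT (arcR τ τ' ε) := by
  refine ⟨fun a b c => ?_, fun a b c => ?_⟩
  · simp only [arcR]
    rw [h.1 a b c, h'.1 a b c]
  · simp only [arcR]
    rw [h.2 a b c, h'.2 a b c]

section map

variable {k : ℕ} {A B : Type*} [CommRing A] [CommRing B] (φ : A →+* B)

theorem map_adj (τ : Tens k A) (a b : Fin (k + 1)) :
    φ ((yM τ).adjugate a b) = (yM fun a b c => φ (τ a b c)).adjugate a b := by
  have h := φ.map_adjugate (yM τ)
  have h2 : φ.mapMatrix (yM τ) = yM fun a b c => φ (τ a b c) := rfl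
  rw [h2] at h
  exact congrFun (congrFun h a) b

theorem map_Gt (τ : Tens k A) (a e g : Fin k) :
    φ (Gt τ a e g) = Gt (fun a b c => φ (τ a b c)) a e g := by
  simp only [Gt, map_sum, map_mul, map_adj]

theorem map_Xt (τ : Tens k A) (i j l m : Fin k) :
    φ (Xt τ i j l m) = Xt (fun a b c => φ (τ a b c)) i j l m := by
  simp only [Xt, map_sum, map_mul, map_adj]

theorem map_tf (G : Fin k → Fin k → Fin k → A) (a e g : Fin k) :
    φ (tf G a e g) = tf (fun a e g => φ (G a e g)) a e g := by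
  simp only [tf, map_sum, map_mul, map_sub, map_add, map_one, map_natCast, apply_ite φ, map_zero]

end map

/-- The base tensor: `y = 1`, pure cubic part the cube of a basis vector. -/
def base {k : ℕ} (i0 : Fin k) : Tens k ℝ := fun a b c =>
  if (a = 0 ∧ b = c) ∨ (b = 0 ∧ a = c) ∨ (c = 0 ∧ a = b) ∨
    (a = i0.succ ∧ b = i0.succ ∧ c = i0.succ) then 1 else 0

theorem base_sym {k : ℕ} (i0 : Fin k) : IsSymT (base i0) := by
  refine ⟨fun a b c => ?_, fun a b c => ?_⟩
  · unfold base
    refine if_congr ?_ rfl rfl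
    constructor
    · rintro (⟨h1, h2⟩ | ⟨h1, h2⟩ | ⟨h1, h2⟩ | ⟨h1, h2, h3⟩)
      · exact Or.inr (Or.inl ⟨h1, h2⟩)
      · exact Or.inl ⟨h1, h2⟩
      · exact Or.inr (Or.inr (Or.inl ⟨h1, h2.symm⟩))
      · exact Or.inr (Or.inr (Or.inr ⟨h2, h1, h3⟩))
    · rintro (⟨h1, h2⟩ | ⟨h1, h2⟩ | ⟨h1, h2⟩ | ⟨h1, h2, h3⟩)
      · exact Or.inr (Or.inl ⟨h1, h2⟩)
      · exact Or.inl ⟨h1, h2⟩
      · exact Or.inr (Or.inr (Or.inl ⟨h1, h2.symm⟩))
      · exact Or.inr (Or.inr (Or.inr ⟨h2, h1, h3⟩))
  · unfold base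
    refine if_congr ?_ rfl rfl
    constructor
    · rintro (⟨h1, h2⟩ | ⟨h1, h2⟩ | ⟨h1, h2⟩ | ⟨h1, h2, h3⟩)
      · exact Or.inl ⟨h1, h2.symm⟩
      · exact Or.inr (Or.inr (Or.inl ⟨h1, h2⟩))
      · exact Or.inr (Or.inl ⟨h1, h2⟩)
      · exact Or.inr (Or.inr (Or.inr ⟨h1, h3, h2⟩))
    · rintro (⟨h1, h2⟩ | ⟨h1, h2⟩ | ⟨h1, h2⟩ | ⟨h1, h2, h3⟩)
      · exact Or.inl ⟨h1, h2.symm⟩
      · exact Or.inr (Or.inr (Or.inl ⟨h1, h2⟩))
      · exact Or.inr (Or.inl ⟨h1, h2⟩)
      · exact Or.inr (Or.inr (Or.inr ⟨h1, h3, h2⟩))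

theorem base_zero {k : ℕ} (i0 : Fin k) (b c : Fin (k + 1)) :
    base i0 0 b c = if b = c then 1 else 0 := by
  unfold base
  refine if_congr ?_ rfl rfl
  constructor
  · rintro (⟨h1, h2⟩ | ⟨h1, h2⟩ | ⟨h1, h2⟩ | ⟨h1, h2, h3⟩)
    · exact h2
    · exact h1.trans h2
    · exact h2.symm.trans h1.symm
    · exact absurd h1.symm (Fin.succ_ne_zero i0)
  · intro h
    exact Or.inl ⟨rfl, h⟩

theorem base_succ {k : ℕ} (i0 a b c : Fin k) :
    base i0 a.succ b.succ c.succ =
      (if a = i0 then 1 else 0) * (if b = i0 then 1 else 0) * (if c = i0 then 1 else 0) := by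
  unfold base
  have h1 : ∀ x : Fin k, ¬ x.succ = 0 := fun x => Fin.succ_ne_zero x
  simp only [h1, false_and, false_or, Fin.succ_inj]
  by_cases ha : a = i0 <;> by_cases hb : b = i0 <;> by_cases hc : c = i0 <;> simp [ha, hb, hc]

theorem yM_base {k : ℕ} (i0 : Fin k) : yM (base i0) = 1 := by
  ext b c
  unfold yM
  rw [base_zero, Matrix.one_apply]

theorem Gt_base {k : ℕ} (i0 a e g : Fin k) : Gt (base i0) a e g =
    (if a = i0 then 1 else 0) * (if e = i0 then 1 else 0) * (if g = i0 then 1 else 0) := by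
  unfold Gt
  rw [yM_base, adjugate_one]
  simp only [Matrix.one_apply, mul_ite, mul_one, mul_zero, Finset.sum_ite_eq', Finset.mem_univ,
    if_true]
  rw [base_succ]
  simp only [mul_ite, mul_one, mul_zero]

/-- The trace free part of `w_a w_e v_g` for a basis vector `w`. -/
theorem tf_prod {k : ℕ} (i0 : Fin k) (v : Fin k → ℝ) :
    tf (fun a e g => (if a = i0 then 1 else 0) * (if e = i0 then 1 else 0) * v g) i0 i0 i0 =
      ((k : ℝ) - 1) * v i0 := by
  unfold tf
  simp only [if_true, one_mul, ite_mul, zero_mul, Finset.sum_ite_eq', Finset.mem_univ]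
  ring

theorem tf_base {k : ℕ} (i0 : Fin k) : tf (Gt (base i0)) i0 i0 i0 = (k : ℝ) - 1 := by
  have h : Gt (base i0) = fun a e g =>
      (if a = i0 then 1 else 0) * (if e = i0 then 1 else 0) * (if g = i0 then (1 : ℝ) else 0) := by
    funext a e g
    exact Gt_base i0 a e g
  rw [h]
  have h2 := tf_prod i0 fun g => if g = i0 then (1 : ℝ) else 0
  rw [h2, if_pos rfl, mul_one]

theorem isX_Xt {k : ℕ} {τ : Tens k ℝ} (h : IsSymT τ) : IsX (Xt τ) :=
  ⟨Xt_symm_left h, Xt_symm_pair h⟩

theorem alt_Xt_mem {k : ℕ} (hk : 2 ≤ k) {τ : Tens k ℝ} (h : IsSymT τ) : alt (Xt τ) ∈ BB k := by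
  let i0 : Fin k := ⟨0, by omega⟩
  have hk1 : (k : ℝ) - 1 ≠ 0 := by
    have : (2 : ℝ) ≤ k := by exact_mod_cast hk
    intro h
    linarith
  let p : Polynomial ℝ := tf (Gt (arcT τ (base i0))) i0 i0 i0
  have hp : ∀ ε : ℝ, p.eval ε = tf (Gt (arcR τ (base i0) ε)) i0 i0 i0 := by
    intro ε
    have h1 := map_tf (Polynomial.evalRingHom ε) (Gt (arcT τ (base i0))) i0 i0 i0
    rw [Polynomial.coe_evalRingHom] at h1
    rw [show p.eval ε = _ from h1]
    congr 1
    funext a e g
    have h2 := map_Gt (Polynomial.evalRingHom ε) (arcT τ (base i0)) a e g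
    rw [arcT_eval, Polynomial.coe_evalRingHom] at h2
    exact h2
  have h1 : arcR τ (base i0) 1 = base i0 := by
    funext a b c
    simp only [arcR]
    ring
  have h0 : arcR τ (base i0) 0 = τ := by
    funext a b c
    simp only [arcR]
    ring
  have hX : ∀ ε i j l m, Xt (arcR τ (base i0) ε) i j l m =
      (Xt (arcT τ (base i0)) i j l m).eval ε := by
    intro ε i j l m
    have h2 := map_Xt (Polynomial.evalRingHom ε) (arcT τ (base i0)) i j l m
    rw [arcT_eval, Polynomial.coe_evalRingHom] at h2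
    exact h2.symm
  have hcont : Continuous fun ε : ℝ => alt (Xt (arcR τ (base i0) ε)) := by
    refine continuous_pi fun i => continuous_pi fun j => continuous_pi fun l =>
      continuous_pi fun m => ?_
    unfold alt
    simp only [hX]
    exact (Polynomial.continuous _).sub (Polynomial.continuous _)
  have hres := arc p (fun ε : ℝ => alt (Xt (arcR τ (base i0) ε))) hcont
    (by rw [hp, h1, tf_base]; exact hk1) (by
      intro ε hε
      have hs := arcR_sym h (base_sym i0) ε
      refine mem_BB_of (isX_Xt hs) (Gt_symm hs) (Bi_Gt hs) ?_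
      intro h3
      apply hε
      rw [hp, h3]
      rfl)
  rw [h0] at hres
  exact hres

theorem Bi_wedge {k : ℕ} (U : Matrix (Fin k) (Fin k) ℝ) (w v : Fin k → ℝ) (δ : ℝ)
    (hv : ∀ c, ∑ g, U c g * v g = δ * w c) (a b c d e : Fin k) :
    Bi (wedge U) (fun a e g => w a * w e * v g) a b c d e = 0 := by
  have key : ∀ a b c : Fin k, ∑ g, (wedge U b c d g * (w a * w e * v g) -
      w a * w d * v g * wedge U b c g e) =
      w a * w e * (U b d * (δ * w c) - U c d * (δ * w b)) -
        w a * w d * (U c e * (δ * w b) - U b e * (δ * w c)) := by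
    intro a b c
    rw [← hv c, ← hv b]
    simp only [Finset.mul_sum, ← Finset.sum_sub_distrib]
    refine Finset.sum_congr rfl fun g _ => ?_
    simp only [wedge, alt, tens2]
    ring
  unfold Bi
  rw [key, key, key]
  ring

theorem isX_tens2 {k : ℕ} {U : Matrix (Fin k) (Fin k) ℝ} (hU : U.IsSymm) : IsX (tens2 U U) := by
  refine ⟨fun i j l m => ?_, fun i j l m => ?_⟩
  · simp only [tens2]
    rw [hU.apply j i]
  · simp only [tens2]
    ring

theorem wedge_mem {k : ℕ} (hk : 2 ≤ k) {U : Matrix (Fin k) (Fin k) ℝ} (hU : U.IsSymm) :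
    wedge U ∈ BB k := by
  let i0 : Fin k := ⟨0, by omega⟩
  have hk1 : (k : ℝ) - 1 ≠ 0 := by
    have : (2 : ℝ) ≤ k := by exact_mod_cast hk
    intro h
    linarith
  let UX : Matrix (Fin k) (Fin k) (Polynomial ℝ) := fun i j =>
    (1 - Polynomial.X) * Polynomial.C (U i j) + Polynomial.X * (if i = j then 1 else 0)
  let UR : ℝ → Matrix (Fin k) (Fin k) ℝ := fun ε i j =>
    (1 - ε) * U i j + ε * (if i = j then 1 else 0)
  have hmap : ∀ ε : ℝ, (Polynomial.evalRingHom ε).mapMatrix UX = UR ε := by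
    intro ε
    funext i j
    change Polynomial.evalRingHom ε ((1 - Polynomial.X) * Polynomial.C (U i j) +
      Polynomial.X * (if i = j then 1 else 0)) = (1 - ε) * U i j + ε * (if i = j then 1 else 0)
    simp only [map_add, map_mul, map_sub, map_one, Polynomial.coe_evalRingHom, Polynomial.eval_X,
      Polynomial.eval_C]
    split_ifs <;> simp
  have h1 : UR 1 = 1 := by
    ext i j
    simp only [UR, Matrix.one_apply]
    ring
  have h0 : UR 0 = U := by
    ext i j
    simp only [UR]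
    ring
  have hsymm : ∀ ε, (UR ε).IsSymm := by
    intro ε
    refine Matrix.IsSymm.ext fun i j => ?_
    change (1 - ε) * U j i + ε * (if j = i then 1 else 0) =
      (1 - ε) * U i j + ε * (if i = j then 1 else 0)
    rw [hU.apply i j]
    congr 2
    exact if_congr eq_comm rfl rfl
  let p : Polynomial ℝ := UX.adjugate i0 i0
  have hp : ∀ ε : ℝ, p.eval ε = (UR ε).adjugate i0 i0 := by
    intro ε
    have h := (Polynomial.evalRingHom ε).map_adjugate UX
    rw [hmap] at h
    exact congrFun (congrFun h i0) i0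
  have hcont : Continuous fun ε : ℝ => wedge (UR ε) := by
    refine continuous_pi fun i => continuous_pi fun j => continuous_pi fun l =>
      continuous_pi fun m => ?_
    simp only [wedge, alt, tens2, UR]
    fun_prop
  have hres := arc p (fun ε : ℝ => wedge (UR ε)) hcont
    (by rw [hp, h1, adjugate_one, Matrix.one_apply_eq]; exact one_ne_zero) (by
      intro ε hε
      rw [hp] at hε
      have hv : ∀ c, ∑ g, (UR ε) c g * (UR ε).adjugate g i0 =
          (UR ε).det * (if c = i0 then 1 else 0) := by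
        intro c
        have h := congrFun (congrFun (mul_adjugate (UR ε)) c) i0
        rw [Matrix.mul_apply] at h
        rw [h, Matrix.smul_apply, Matrix.one_apply, smul_eq_mul]
      refine mem_BB_of (isX_tens2 (hsymm ε))
        (G := fun a e g => (if a = i0 then 1 else 0) * (if e = i0 then 1 else 0) *
          (UR ε).adjugate g i0) ?_ ?_ ?_
      · intro a e g
        ring
      · intro a b c d e
        exact Bi_wedge (UR ε) (fun a => if a = i0 then 1 else 0)
          (fun g => (UR ε).adjugate g i0) (UR ε).det hv a b c d e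
      · intro h3
        have h4 := tf_prod i0 fun g => (UR ε).adjugate g i0
        rw [h3] at h4
        exact mul_ne_zero hk1 hε h4.symm)
  rw [h0] at hres
  exact hres

end A4

/-- Module A4: all `alt (Xt τ)` and all `± U ∧ U` are in `BB`. -/
theorem stmtA4 : StmtA4 := by
  intro k hk
  refine ⟨fun τ h => A4.alt_Xt_mem hk h, fun U hU => ⟨A4.wedge_mem hk hU, ?_⟩⟩
  have h := A3.smul_mem_BB (-1) (A4.wedge_mem hk hU)
  rwa [neg_one_smul] at h

end Vale.Agent.P256.PL
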