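import Vale.Agent.P256.PL.Stmts

/-!
# P256, module A5: separating form `h` from the data condition (C).
-/

namespace Vale.Agent.P256.PL.A5

open MvPolynomial Matrix

variable {k n : ℕ}

/-- Three-index arrays. -/
abbrev G3 (k : ℕ) := Fin k → Fin k → Fin k → ℝ

/-- Five-index arrays. -/
abbrev F5 (k : ℕ) := Fin k → Fin k → Fin k → Fin k → Fin k → ℝ

theorem Bi_add_left (R R' : E4 k ℝ) (G : G3 k) (a b c d e : Fin k) :
    Bi (R + R') G a b c d e = Bi R G a b c d e + Bi R' G a b c d e := by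
  simp only [Bi, Pi.add_apply, add_mul, mul_add, Finset.sum_add_distrib, Finset.sum_sub_distrib]
  ring

theorem Bi_smul_left (t : ℝ) (R : E4 k ℝ) (G : G3 k) (a b c d e : Fin k) :
    Bi (t • R) G a b c d e = t * Bi R G a b c d e := by
  simp only [Bi, Pi.smul_apply, smul_eq_mul, mul_add, Finset.mul_sum]
  congr 1
  · congr 1
    all_goals exact Finset.sum_congr rfl fun g _ => by ring
  · exact Finset.sum_congr rfl fun g _ => by ring

theorem Bi_add_right (R : E4 k ℝ) (G G' : G3 k) (a b c d e : Fin k) :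
    Bi R (G + G') a b c d e = Bi R G a b c d e + Bi R G' a b c d e := by
  simp only [Bi, Pi.add_apply, add_mul, mul_add, Finset.sum_add_distrib, Finset.sum_sub_distrib]
  ring

theorem Bi_smul_right (t : ℝ) (R : E4 k ℝ) (G : G3 k) (a b c d e : Fin k) :
    Bi R (t • G) a b c d e = t * Bi R G a b c d e := by
  simp only [Bi, Pi.smul_apply, smul_eq_mul, mul_add, Finset.mul_sum]
  congr 1
  · congr 1
    all_goals exact Finset.sum_congr rfl fun g _ => by ring
  · exact Finset.sum_congr rfl fun g _ => by ring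

/-- `Bi` as a bilinear map. -/
def BiL : E4 k ℝ →ₗ[ℝ] G3 k →ₗ[ℝ] F5 k :=
  LinearMap.mk₂ ℝ (fun R G => fun a b c d e => Bi R G a b c d e)
    (fun R R' G => by funext a b c d e; exact Bi_add_left R R' G a b c d e)
    (fun t R G => by funext a b c d e; exact Bi_smul_left t R G a b c d e)
    (fun R G G' => by funext a b c d e; exact Bi_add_right R G G' a b c d e)
    (fun t R G => by funext a b c d e; exact Bi_smul_right t R G a b c d e)

@[simp] theorem BiL_apply (R : E4 k ℝ) (G : G3 k) (a b c d e : Fin k) :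
    BiL R G a b c d e = Bi R G a b c d e := rfl

/-- `Rs` as a linear map. -/
def RsL (U : Fin n → Matrix (Fin k) (Fin k) ℝ) : Matrix (Fin n) (Fin n) ℝ →ₗ[ℝ] E4 k ℝ where
  toFun := Rs U
  map_add' s t := by
    funext i j l m
    simp only [Rs, alt, Matrix.add_apply, Pi.add_apply, add_mul, Finset.sum_add_distrib]
    ring
  map_smul' c s := by
    funext i j l m
    simp only [Rs, alt, Matrix.smul_apply, Pi.smul_apply, smul_eq_mul, RingHom.id_apply, mul_sub,
      Finset.mul_sum, mul_assoc]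

@[simp] theorem RsL_apply (U : Fin n → Matrix (Fin k) (Fin k) ℝ) (s : Matrix (Fin n) (Fin n) ℝ) :
    RsL U s = Rs U s := rfl

/-- The submodule of the admissible `G`. -/
def GS (k : ℕ) : Submodule ℝ (G3 k) where
  carrier := {G | IsG G}
  zero_mem' := ⟨fun _ _ _ => rfl, fun _ => by simp⟩
  add_mem' := by
    rintro G G' ⟨h1, h2⟩ ⟨h1', h2'⟩
    refine ⟨fun a e g => ?_, fun a => ?_⟩
    · simp only [Pi.add_apply, h1 a e g, h1' a e g]
    · simp only [Pi.add_apply, Finset.sum_add_distrib, h2 a, h2' a, add_zero]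
  smul_mem' := by
    rintro c G ⟨h1, h2⟩
    refine ⟨fun a e g => ?_, fun a => ?_⟩
    · simp only [Pi.smul_apply, h1 a e g]
    · simp only [Pi.smul_apply, smul_eq_mul, ← Finset.mul_sum, h2 a, mul_zero]

theorem mem_GS {G : G3 k} : G ∈ GS k ↔ IsG G := Iff.rfl

/-- Symmetric matrices. -/
def SS (n : ℕ) : Submodule ℝ (Matrix (Fin n) (Fin n) ℝ) where
  carrier := {s | s.IsSymm}
  zero_mem' := Matrix.isSymm_zero
  add_mem' := fun h h' => Matrix.IsSymm.add h h'
  smul_mem' := fun c _ h => Matrix.IsSymm.smul h c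

theorem mem_SS {s : Matrix (Fin n) (Fin n) ℝ} : s ∈ SS n ↔ s.IsSymm := Iff.rfl

/-- An elementary element of `GS`. -/
def elG (u v : Fin k) : G3 k := fun a e g => if a = u ∧ e = u ∧ g = v then 1 else 0

theorem elG_mem {u v : Fin k} (h : u ≠ v) : IsG (elG u v) := by
  refine ⟨fun a e g => ?_, fun a => ?_⟩
  · simp only [elG]
    congr 1
    apply propext
    tauto
  · apply Finset.sum_eq_zero
    intro g _
    simp only [elG]
    rw [if_neg]
    rintro ⟨-, h1, h2⟩
    exact h (h1.symm.trans h2)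

theorem elG_self (u v : Fin k) : elG u v u u v = 1 := by simp [elG]

theorem elG_other {u v : Fin k} (h : u ≠ v) : elG v u u u v = 0 := by
  simp [elG, h]

/-- Not all admissible `G` are multiples of `G₀`. -/
theorem exists_not_smul (hk : 2 ≤ k) (G₀ : G3 k) : ∃ G : G3 k, IsG G ∧ ∀ c : ℝ, G ≠ c • G₀ := by
  by_contra hcon
  push Not at hcon
  set u : Fin k := ⟨0, by omega⟩
  set v : Fin k := ⟨1, by omega⟩
  have huv : u ≠ v := by simp [u, v]
  obtain ⟨c, hc⟩ := hcon (elG u v) (elG_mem huv)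
  obtain ⟨c', hc'⟩ := hcon (elG v u) (elG_mem huv.symm)
  have h1 : (1 : ℝ) = c * G₀ u u v := by
    have := congrFun (congrFun (congrFun hc u) u) v
    rwa [elG_self] at this
  have h2 : (0 : ℝ) = c' * G₀ u u v := by
    have := congrFun (congrFun (congrFun hc' u) u) v
    rwa [elG_other huv] at this
  have h3 : (1 : ℝ) = c' * G₀ v v u := by
    have := congrFun (congrFun (congrFun hc' v) v) u
    rwa [elG_self] at this
  have h4 : G₀ u u v ≠ 0 := by
    intro h; rw [h, mul_zero] at h1; exact one_ne_zero h1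
  have h5 : c' = 0 := by
    rcases mul_eq_zero.1 h2.symm with h | h
    · exact h
    · exact absurd h h4
  rw [h5, zero_mul] at h3
  exact one_ne_zero h3

/-- A linear form as a homogeneous polynomial. -/
theorem exists_linPoly (lam : E4 k ℝ →ₗ[ℝ] ℝ) :
    ∃ q : MvPolynomial (Idx4 k) ℝ, q.IsHomogeneous 1 ∧ ∀ R, hev q R = lam R := by
  let e : (Idx4 k → ℝ) →ₗ[ℝ] E4 k ℝ :=
    { toFun := fun f i j l m => f (i, j, l, m)
      map_add' := fun f g => rfl
      map_smul' := fun c f => rfl }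
  refine ⟨∑ i : Idx4 k, C ((lam ∘ₗ e) fun j => if i = j then 1 else 0) * X i, ?_, fun R => ?_⟩
  · refine IsHomogeneous.sum _ _ _ fun i _ => ?_
    have := (isHomogeneous_C (Idx4 k) ((lam ∘ₗ e) fun j => if i = j then 1 else 0)).mul
      (isHomogeneous_X ℝ i)
    simpa using this
  · have h1 : lam R = (lam ∘ₗ e) fun q => R q.1 q.2.1 q.2.2.1 q.2.2.2 := rfl
    rw [h1, LinearMap.pi_apply_eq_sum_univ (lam ∘ₗ e)]
    simp only [hev, map_sum, map_mul, eval_C, eval_X, smul_eq_mul]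
    exact Finset.sum_congr rfl fun i _ => by ring

/-- The determinant of a matrix of polynomials, homogeneous of degree one in the first columns and
of degree zero in the others. -/
theorem det_homog {σ ι₁ ι₂ : Type*} [Fintype ι₁] [Fintype ι₂] [DecidableEq ι₁] [DecidableEq ι₂]
    (M : Matrix (ι₁ ⊕ ι₂) (ι₁ ⊕ ι₂) (MvPolynomial σ ℝ))
    (h1 : ∀ i a, (M i (Sum.inl a)).IsHomogeneous 1)
    (h2 : ∀ i b, (M i (Sum.inr b)).IsHomogeneous 0) :
    M.det.IsHomogeneous (Fintype.card ι₁) := by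
  rw [Matrix.det_apply]
  refine IsHomogeneous.sum _ _ _ fun π _ => ?_
  have h3 : (∏ i, M (π i) i).IsHomogeneous (∑ i : ι₁ ⊕ ι₂, Sum.elim (fun _ => 1) (fun _ => 0) i) := by
    refine IsHomogeneous.prod _ _ _ fun i _ => ?_
    rcases i with a | b
    · exact h1 _ a
    · exact h2 _ b
  have h4 : (∑ i : ι₁ ⊕ ι₂, Sum.elim (fun _ => 1) (fun _ => 0) i) = Fintype.card ι₁ := by
    simp
  rw [h4] at h3
  rcases Int.units_eq_one_or (Equiv.Perm.sign π) with h | h
  · rw [h, one_smul]; exact h3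
  · rw [h]
    have : ((-1 : ℤˣ) • ∏ i, M (π i) i) = -∏ i, M (π i) i := by
      simp [Units.smul_def]
    rw [this]
    exact h3.neg

/-- Left inverses. -/
theorem exists_left {V F : Type*} [AddCommGroup V] [Module ℝ V] [AddCommGroup F] [Module ℝ F]
    (N : V →ₗ[ℝ] F) (h : ∀ x, N x = 0 → x = 0) : ∃ P : F →ₗ[ℝ] V, P ∘ₗ N = LinearMap.id :=
  LinearMap.exists_leftInverse_of_injective N (LinearMap.ker_eq_bot'.2 h)

theorem det_eq_zero {V : Type*} [AddCommGroup V] [Module ℝ V] [FiniteDimensional ℝ V]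
    (T : V →ₗ[ℝ] V) {x : V} (hx : x ≠ 0) (h : T x = 0) : LinearMap.det T = 0 := by
  by_contra hne
  have hu : IsUnit (LinearMap.det T) := isUnit_iff_ne_zero.2 hne
  have h2 := ((Module.End.isUnit_iff _).1 ((LinearMap.isUnit_iff_isUnit_det T).2 hu)).1
  exact hx (h2 (h.trans T.map_zero.symm))

/-- Abstract separating form. -/
theorem exists_sep {V₁ V₂ F : Type*} [AddCommGroup V₁] [Module ℝ V₁] [AddCommGroup V₂]
    [Module ℝ V₂] [AddCommGroup F] [Module ℝ F] [FiniteDimensional ℝ V₁] [FiniteDimensional ℝ V₂]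
    (β : E4 k ℝ →ₗ[ℝ] V₁ →ₗ[ℝ] F) (γ : V₂ →ₗ[ℝ] F) (g₀ : V₁) (d₀ : V₂) (R₀ : E4 k ℝ)
    (hrig : ∀ g s, β R₀ g + γ s = 0 → (∃ c : ℝ, s = c • d₀) ∧ ∃ c : ℝ, g = c • g₀)
    (hne : ∃ g : V₁, ∀ c : ℝ, g ≠ c • g₀) (hγ : γ d₀ = 0) :
    ∃ (m : ℕ) (h : MvPolynomial (Idx4 k) ℝ), 0 < m ∧ h.IsHomogeneous (2 * m) ∧ 0 < hev h R₀ ∧
      ∀ (R : E4 k ℝ) (g : V₁) (s : V₂), g ≠ 0 → β R g = 0 → β R g₀ = γ s →
        (∀ c : ℝ, s ≠ c • d₀) → hev h R = 0 := by
  classical
  obtain ⟨q, hq⟩ := Submodule.exists_isCompl (Submodule.span ℝ {g₀})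
  obtain ⟨q', hq'⟩ := Submodule.exists_isCompl (Submodule.span ℝ {d₀})
  -- the maps
  let N : E4 k ℝ → (q × q') →ₗ[ℝ] F := fun R =>
    (β R ∘ₗ q.subtype).coprod (γ ∘ₗ q'.subtype)
  have hN : ∀ R (x : q × q'), N R x = β R (x.1 : V₁) + γ (x.2 : V₂) := fun R x => rfl
  have hinj : ∀ x, N R₀ x = 0 → x = 0 := by
    rintro ⟨g, s⟩ hx
    rw [hN] at hx
    obtain ⟨⟨c, hc⟩, c', hc'⟩ := hrig _ _ hx
    have hg0 : (g : V₁) = 0 := (Submodule.disjoint_def.1 hq.disjoint) _
      (by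
        have : (g : V₁) = c' • g₀ := hc'
        rw [this]; exact Submodule.smul_mem _ _ (Submodule.mem_span_singleton_self _)) g.2
    have hs0 : (s : V₂) = 0 := (Submodule.disjoint_def.1 hq'.disjoint) _
      (by
        have : (s : V₂) = c • d₀ := hc
        rw [this]; exact Submodule.smul_mem _ _ (Submodule.mem_span_singleton_self _)) s.2
    exact Prod.ext (Subtype.ext hg0) (Subtype.ext hs0)
  obtain ⟨P, hP⟩ := exists_left (N R₀) hinj
  let b₁ := Module.finBasis ℝ q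
  let b₂ := Module.finBasis ℝ q'
  let b := b₁.prod b₂
  let T : E4 k ℝ → Matrix _ _ ℝ := fun R => LinearMap.toMatrix b b (P ∘ₗ N R)
  have hdet : ∀ R, (T R).det = LinearMap.det (P ∘ₗ N R) := fun R => LinearMap.det_toMatrix b _
  -- the polynomial entries
  have hlin : ∀ (i : Fin (Module.finrank ℝ q) ⊕ Fin (Module.finrank ℝ q'))
      (a : Fin (Module.finrank ℝ q)), ∃ f : MvPolynomial (Idx4 k) ℝ, f.IsHomogeneous 1 ∧
        ∀ R, hev f R = b.repr (P (β R (b₁ a : V₁))) i := fun i a =>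
    exists_linPoly (b.coord i ∘ₗ P ∘ₗ β.flip (b₁ a : V₁))
  choose f hf1 hf2 using hlin
  let M : Matrix (Fin (Module.finrank ℝ q) ⊕ Fin (Module.finrank ℝ q'))
      (Fin (Module.finrank ℝ q) ⊕ Fin (Module.finrank ℝ q')) (MvPolynomial (Idx4 k) ℝ) :=
    fun i j => Sum.elim (fun a => f i a) (fun c => C (b.repr (P (γ (b₂ c : V₂))) i)) j
  have hM : ∀ R, hev M.det R = (T R).det := by
    intro R
    have h1 : hev M.det R = (eval (fun q : Idx4 k => R q.1 q.2.1 q.2.2.1 q.2.2.2)) M.det := rfl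
    rw [h1, RingHom.map_det]
    congr 1
    ext i j
    rw [RingHom.mapMatrix_apply, Matrix.map_apply]
    rcases j with a | c
    · have h2 : M i (Sum.inl a) = f i a := rfl
      rw [h2]
      have h3 : T R i (Sum.inl a) = b.repr (P (N R (b (Sum.inl a)))) i := by
        simp only [T, LinearMap.toMatrix_apply, LinearMap.comp_apply]
      rw [h3, hN]
      have h4 : b (Sum.inl a) = (b₁ a, 0) := by simp [b]
      rw [h4]
      simp only [ZeroMemClass.coe_zero, map_zero, add_zero]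
      exact hf2 i a R
    · have h2 : M i (Sum.inr c) = C (b.repr (P (γ (b₂ c : V₂))) i) := rfl
      rw [h2, eval_C]
      have h3 : T R i (Sum.inr c) = b.repr (P (N R (b (Sum.inr c)))) i := by
        simp only [T, LinearMap.toMatrix_apply, LinearMap.comp_apply]
      rw [h3, hN]
      have h4 : b (Sum.inr c) = (0, b₂ c) := by simp [b]
      rw [h4]
      simp only [ZeroMemClass.coe_zero, map_zero, zero_add]
  have hhom : M.det.IsHomogeneous (Module.finrank ℝ q) := by
    have := det_homog M (fun i a => hf1 i a) (fun i c => isHomogeneous_C _ _)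
    rwa [Fintype.card_fin] at this
  have hmpos : 0 < Module.finrank ℝ q := by
    obtain ⟨G, hG'⟩ := hne
    have hmem : G ∈ Submodule.span ℝ {g₀} ⊔ q := by
      rw [hq.sup_eq_top]; exact Submodule.mem_top
    obtain ⟨y, hy, g, hg, hyg⟩ := Submodule.mem_sup.1 hmem
    obtain ⟨c, rfl⟩ := Submodule.mem_span_singleton.1 hy
    have hg0 : g ≠ 0 := by
      intro h0
      rw [h0, add_zero] at hyg
      exact hG' c hyg.symm
    have : Nontrivial q := ⟨⟨g, hg⟩, 0, fun h => hg0 (congrArg Subtype.val h)⟩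
    exact Module.finrank_pos
  refine ⟨Module.finrank ℝ q, M.det ^ 2, hmpos, ?_, ?_, ?_⟩
  · have := hhom.pow 2
    rwa [mul_comm] at this
  · have h1 : hev (M.det ^ 2) R₀ = (hev M.det R₀) ^ 2 := by
      simp only [hev, map_pow]
    rw [h1, hM, hdet, hP, LinearMap.det_id]
    norm_num
  · intro R G s hGne hGB hGs hs
    have h1 : hev (M.det ^ 2) R = (hev M.det R) ^ 2 := by
      simp only [hev, map_pow]
    rw [h1, hM, hdet]
    have hmem : G ∈ Submodule.span ℝ {g₀} ⊔ q := by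
      rw [hq.sup_eq_top]; exact Submodule.mem_top
    obtain ⟨y, hy, g, hg, hyg⟩ := Submodule.mem_sup.1 hmem
    obtain ⟨c, rfl⟩ := Submodule.mem_span_singleton.1 hy
    have hmem' : s ∈ Submodule.span ℝ {d₀} ⊔ q' := by
      rw [hq'.sup_eq_top]; exact Submodule.mem_top
    obtain ⟨y', hy', z, hz, hyz⟩ := Submodule.mem_sup.1 hmem'
    obtain ⟨a, rfl⟩ := Submodule.mem_span_singleton.1 hy'
    have hzne : z ≠ 0 := by
      intro h0
      rw [h0, add_zero] at hyz
      exact hs a hyz.symm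
    let x : q × q' := (⟨g, hg⟩, c • ⟨z, hz⟩)
    have hx : x ≠ 0 := by
      intro h0
      have h1 : (⟨g, hg⟩ : q) = 0 := congrArg Prod.fst h0
      have h2 : c • (⟨z, hz⟩ : q') = 0 := congrArg Prod.snd h0
      have hg0 : g = 0 := congrArg Subtype.val h1
      rcases smul_eq_zero.1 h2 with h3 | h3
      · apply hGne
        rw [← hyg, h3, hg0, zero_smul, zero_add]
      · exact hzne (congrArg Subtype.val h3)
    have hNx : N R x = 0 := by
      rw [hN]
      have e0 : γ s = γ z := by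
        rw [← hyz, map_add, map_smul, hγ, smul_zero, zero_add]
      rw [← hyg, map_add, map_smul, hGs, e0] at hGB
      have e4 : ((x.2 : q') : V₂) = c • z := rfl
      have e5 : ((x.1 : q) : V₁) = g := rfl
      rw [e4, e5, map_smul, add_comm]
      exact hGB
    have hdet0 : LinearMap.det (P ∘ₗ N R) = 0 :=
      det_eq_zero _ hx (by rw [LinearMap.comp_apply, hNx, map_zero])
    rw [hdet0]
    norm_num

section data

variable {U : Fin n → Matrix (Fin k) (Fin k) ℝ} {w : Fin n → ℝ} {G₀ : G3 k}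

theorem Rs_zero : Rs U 0 = 0 := (RsL U).map_zero

theorem Rs_smul (c : ℝ) (s : Matrix (Fin n) (Fin n) ℝ) : Rs U (c • s) = c • Rs U s :=
  (RsL U).map_smul c s

theorem Rs_neg (s : Matrix (Fin n) (Fin n) ℝ) : Rs U (-s) = -Rs U s := (RsL U).map_neg s

theorem Rs_add (s t : Matrix (Fin n) (Fin n) ℝ) : Rs U (s + t) = Rs U s + Rs U t :=
  (RsL U).map_add s t

theorem Bi_zero_left (G : G3 k) (a b c d e : Fin k) : Bi 0 G a b c d e = 0 := by
  simp [Bi]

theorem Bi_zero_right (R : E4 k ℝ) (a b c d e : Fin k) : Bi R 0 a b c d e = 0 := by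
  simp [Bi]

theorem R0_ne (hk : 2 ≤ k) (hD : DataC U w G₀) : Rs U (-diagonal w) ≠ 0 := by
  intro h0
  obtain ⟨G, hG, hG'⟩ := exists_not_smul hk G₀
  obtain ⟨-, c, hc⟩ := hD.rigid G 0 hG Matrix.isSymm_zero fun a b c d e => by
    rw [h0, Rs_zero, Bi_zero_left, Bi_zero_left, add_zero]
  exact hG' c hc

theorem Rs_inj (hk : 2 ≤ k) (hD : DataC U w G₀) {s : Matrix (Fin n) (Fin n) ℝ} (hs : s.IsSymm)
    (h : Rs U s = 0) : s = 0 := by
  obtain ⟨⟨c, hc⟩, -⟩ := hD.rigid 0 s (GS k).zero_mem hs fun a b c d e => by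
    rw [h, Bi_zero_left, Bi_zero_right, add_zero]
  have h1 : (-c) • Rs U (-diagonal w) = 0 := by
    rw [← Rs_smul, smul_neg, neg_smul, neg_neg, ← hc, h]
  rcases smul_eq_zero.1 h1 with h2 | h2
  · rw [hc, neg_eq_zero.1 h2, zero_smul]
  · exact absurd h2 (R0_ne hk hD)

/-- The separating form. -/
theorem exists_h (hk : 2 ≤ k) (hD : DataC U w G₀) :
    ∃ (m : ℕ) (h : MvPolynomial (Idx4 k) ℝ), 0 < m ∧ h.IsHomogeneous (2 * m) ∧
      0 < hev h (Rs U (-diagonal w)) ∧
      ∀ R ∈ BB k, R ∈ (SS n).map (RsL U) → (∀ c : ℝ, R ≠ c • Rs U (-diagonal w)) →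
        hev h R = 0 := by
  have hγ : BiL (Rs U (diagonal w)) G₀ = 0 := by
    funext a b c d e
    have h1 := hD.sol a b c d e
    rw [Rs_neg] at h1
    have h2 : Bi (-Rs U (diagonal w)) G₀ a b c d e = -Bi (Rs U (diagonal w)) G₀ a b c d e := by
      have := Bi_smul_left (-1) (Rs U (diagonal w)) G₀ a b c d e
      rwa [neg_one_smul, neg_one_mul] at this
    rw [h2, neg_eq_zero] at h1
    exact h1
  obtain ⟨m, h, hm, h1, h2, h3⟩ := exists_sep (V₁ := GS k) (V₂ := SS n) (F := F5 k)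
    (BiL.compl₂ (GS k).subtype) (BiL.flip G₀ ∘ₗ RsL U ∘ₗ (SS n).subtype) ⟨G₀, hD.isG⟩
    ⟨diagonal w, Matrix.isSymm_diagonal w⟩ (Rs U (-diagonal w))
    (by
      intro g s hgs
      obtain ⟨⟨c, hc⟩, c', hc'⟩ := hD.rigid (g : G3 k) (s : Matrix (Fin n) (Fin n) ℝ) g.2 s.2
        fun a b c d e => congrFun (congrFun (congrFun (congrFun (congrFun hgs a) b) c) d) e
      exact ⟨⟨c, Subtype.ext hc⟩, c', Subtype.ext hc'⟩)
    (by
      obtain ⟨G, hG, hG'⟩ := exists_not_smul hk G₀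
      exact ⟨⟨G, hG⟩, fun c hc => hG' c (congrArg Subtype.val hc)⟩)
    hγ
  refine ⟨m, h, hm, h1, h2, ?_⟩
  rintro R ⟨G, hGne, hG, hGB⟩ ⟨s, hs, hsR⟩ hRc
  refine h3 R ⟨G, hG⟩ ⟨s, hs⟩ (fun h0 => hGne (congrArg Subtype.val h0)) ?_ ?_ ?_
  · funext a b c d e
    exact hGB a b c d e
  · rw [← hsR]; rfl
  · intro c hc
    have hc' : s = c • diagonal w := congrArg Subtype.val hc
    apply hRc (-c)
    rw [← hsR, RsL_apply, hc', Rs_smul, Rs_neg, smul_neg, neg_smul, neg_neg]

/-- The linear form. -/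
theorem exists_l (hk : 2 ≤ k) (hD : DataC U w G₀) :
    ∃ l : E4 k ℝ →ₗ[ℝ] ℝ, ∀ s : Matrix (Fin n) (Fin n) ℝ, s.IsSymm → l (Rs U s) = -s.trace := by
  obtain ⟨P, hP⟩ := exists_left (V := SS n) (RsL U ∘ₗ (SS n).subtype)
    (fun x hx => Subtype.ext (Rs_inj hk hD x.2 hx))
  refine ⟨-(Matrix.traceLinearMap (Fin n) ℝ ℝ ∘ₗ (SS n).subtype ∘ₗ P), fun s hs => ?_⟩
  have h1 : P (Rs U s) = ⟨s, hs⟩ := LinearMap.congr_fun hP ⟨s, hs⟩
  simp only [LinearMap.neg_apply, LinearMap.comp_apply, h1]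
  rfl

theorem neg_wedge_eq (c : Fin n → ℝ) :
    -wedge (∑ p, c p • U p) = Rs U (-Matrix.vecMulVec c c) := by
  funext i j l m
  have hX : ∀ i l j m, (∑ p, c p • U p) i l * (∑ p, c p • U p) j m =
      ∑ p, ∑ q, (c p * c q) * (U p i l * U q j m) := by
    intro i l j m
    simp only [Matrix.sum_apply, Matrix.smul_apply, smul_eq_mul, Finset.sum_mul_sum]
    exact Finset.sum_congr rfl fun p _ => Finset.sum_congr rfl fun q _ => by ring
  simp only [wedge, alt, tens2, Rs, Pi.neg_apply, Matrix.neg_apply, Matrix.vecMulVec_apply, hX,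
    neg_mul, Finset.sum_neg_distrib]
  ring

theorem trace_vec (c : Fin n → ℝ) : -(-Matrix.vecMulVec c c).trace = ∑ p, c p ^ 2 := by
  simp only [Matrix.trace, Matrix.diag_apply, Matrix.neg_apply, Matrix.vecMulVec_apply,
    Finset.sum_neg_distrib, neg_neg]
  exact Finset.sum_congr rfl fun p _ => by ring

theorem vec_symm (c : Fin n → ℝ) : (-Matrix.vecMulVec c c).IsSymm := by
  ext i j
  simp only [Matrix.transpose_apply, Matrix.neg_apply, Matrix.vecMulVec_apply]
  ring

theorem normSq_nonneg (R : E4 k ℝ) : 0 ≤ normSq R := by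
  unfold normSq; positivity

/-- Bound of `‖V ∧ V‖`. -/
theorem exists_bound (U : Fin n → Matrix (Fin k) (Fin k) ℝ) :
    ∃ D : ℝ, 0 ≤ D ∧ ∀ c : Fin n → ℝ, normSq (-wedge (∑ p, c p • U p)) ≤
      D * (∑ p, c p ^ 2) ^ 2 := by
  set A : ℝ := ∑ i, ∑ j, ∑ p, (U p i j) ^ 2 with hA
  have hA0 : 0 ≤ A := by positivity
  refine ⟨(k : ℝ) ^ 4 * (4 * A ^ 2), by positivity, fun c => ?_⟩
  set S : ℝ := ∑ p, c p ^ 2 with hS
  have hS0 : 0 ≤ S := by positivity
  set V := ∑ p, c p • U p with hV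
  have hV2 : ∀ i j, (V i j) ^ 2 ≤ S * A := by
    intro i j
    have h1 : V i j = ∑ p, c p * U p i j := by
      simp only [hV, Matrix.sum_apply, Matrix.smul_apply, smul_eq_mul]
    rw [h1]
    refine (Finset.sum_mul_sq_le_sq_mul_sq _ _ _).trans ?_
    apply mul_le_mul_of_nonneg_left _ hS0
    have h2 : (∑ p, (U p i j) ^ 2) ≤ ∑ j, ∑ p, (U p i j) ^ 2 :=
      Finset.single_le_sum (f := fun j => ∑ p, (U p i j) ^ 2) (fun _ _ => by positivity)
        (Finset.mem_univ j)
    have h3 : (∑ j, ∑ p, (U p i j) ^ 2) ≤ A :=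
      Finset.single_le_sum (f := fun i => ∑ j, ∑ p, (U p i j) ^ 2) (fun _ _ => by positivity)
        (Finset.mem_univ i)
    exact h2.trans h3
  have hent : ∀ i j l m, ((-wedge V) i j l m) ^ 2 ≤ 4 * A ^ 2 * S ^ 2 := by
    intro i j l m
    have h1 : (-wedge V) i j l m = V i m * V j l - V i l * V j m := by
      simp only [wedge, alt, tens2, Pi.neg_apply]; ring
    rw [h1]
    have a1 := hV2 i m
    have a2 := hV2 j l
    have a3 := hV2 i l
    have a4 := hV2 j m
    have hSA : 0 ≤ S * A := mul_nonneg hS0 hA0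
    have b1 : (V i m * V j l) ^ 2 ≤ (S * A) ^ 2 := by
      rw [mul_pow, pow_two (S * A)]
      exact mul_le_mul a1 a2 (sq_nonneg _) hSA
    have b2 : (V i l * V j m) ^ 2 ≤ (S * A) ^ 2 := by
      rw [mul_pow, pow_two (S * A)]
      exact mul_le_mul a3 a4 (sq_nonneg _) hSA
    nlinarith [sq_nonneg (V i m * V j l + V i l * V j m)]
  have hsum : normSq (-wedge V) ≤ ∑ _i : Fin k, ∑ _j : Fin k, ∑ _l : Fin k, ∑ _m : Fin k,
      4 * A ^ 2 * S ^ 2 :=
    Finset.sum_le_sum fun i _ => Finset.sum_le_sum fun j _ => Finset.sum_le_sum fun l _ =>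
      Finset.sum_le_sum fun m _ => hent i j l m
  refine hsum.trans (le_of_eq ?_)
  simp only [Finset.sum_const, Finset.card_univ, Fintype.card_fin, nsmul_eq_mul]
  ring

end data

end Vale.Agent.P256.PL.A5

namespace Vale.Agent.P256.PL

open MvPolynomial Matrix A5

theorem stmtA5 : StmtA5 := by
  intro k n U w G₀ hk hD
  obtain ⟨m, h, hm, hh, hpos, hvan⟩ := exists_h hk hD
  obtain ⟨l, hl⟩ := exists_l hk hD
  obtain ⟨D, hD0, hDb⟩ := exists_bound U
  have hn : 0 < n := by have := hD.two; omega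
  have hlR : l (Rs U (-diagonal w)) = ∑ p, w p := by
    rw [hl _ (Matrix.isSymm_diagonal w).neg]
    simp [Matrix.trace]
  have hlpos : 0 < l (Rs U (-diagonal w)) := by
    rw [hlR]
    exact Finset.sum_pos (fun p _ => hD.wpos p) ⟨⟨0, hn⟩, Finset.mem_univ _⟩
  have hN0 : 0 ≤ normSq (Rs U (-diagonal w)) := normSq_nonneg _
  set L := l (Rs U (-diagonal w)) with hL
  set NR := normSq (Rs U (-diagonal w)) with hNR
  have key : ∀ NV S : ℝ, 0 ≤ NV → NV ≤ D * S ^ 2 →
      min (1 / (D + 1)) (L ^ 2 / (NR + 1)) * NV ≤ S ^ 2 := by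
    intro NV S h1 h2
    have hS2 : 0 ≤ S ^ 2 := sq_nonneg _
    have hD1 : 0 < D + 1 := by linarith
    calc min (1 / (D + 1)) (L ^ 2 / (NR + 1)) * NV ≤ (1 / (D + 1)) * NV :=
          mul_le_mul_of_nonneg_right (min_le_left _ _) h1
      _ ≤ (1 / (D + 1)) * (D * S ^ 2) := mul_le_mul_of_nonneg_left h2 (by positivity)
      _ = S ^ 2 * (D / (D + 1)) := by ring
      _ ≤ S ^ 2 * 1 := by
          apply mul_le_mul_of_nonneg_left _ hS2
          rw [div_le_one hD1]; linarith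
      _ = S ^ 2 := mul_one _
  refine ⟨(SS n).map (RsL U), l, min (1 / (D + 1)) (L ^ 2 / (NR + 1)), m, h, ?_, hm, hh, ?_, hlpos,
    ?_, hpos, hvan, ?_⟩
  · exact lt_min (by positivity) (by positivity)
  · exact ⟨_, (Matrix.isSymm_diagonal w).neg, rfl⟩
  · calc min (1 / (D + 1)) (L ^ 2 / (NR + 1)) * NR ≤ (L ^ 2 / (NR + 1)) * NR :=
          mul_le_mul_of_nonneg_right (min_le_right _ _) hN0
      _ = L ^ 2 * (NR / (NR + 1)) := by ring
      _ ≤ L ^ 2 * 1 := by
          apply mul_le_mul_of_nonneg_left _ (sq_nonneg _)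
          rw [div_le_one (by positivity)]; linarith
      _ = L ^ 2 := mul_one _
  · intro V hV hV0
    obtain ⟨c, rfl⟩ := (Submodule.mem_span_range_iff_exists_fun ℝ).1 hV
    rw [neg_wedge_eq]
    have hlV : l (Rs U (-Matrix.vecMulVec c c)) = ∑ p, c p ^ 2 := by
      rw [hl _ (vec_symm c), trace_vec]
    have hc : ∃ p, c p ≠ 0 := by
      by_contra hcon
      push Not at hcon
      apply hV0
      simp [hcon]
    obtain ⟨p₀, hp₀⟩ := hc
    have hS : 0 < ∑ p, c p ^ 2 :=
      Finset.sum_pos' (fun p _ => sq_nonneg _) ⟨p₀, Finset.mem_univ _, by positivity⟩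
    refine ⟨⟨_, vec_symm c, rfl⟩, ?_, by rw [hlV]; exact hS, ?_⟩
    · intro t ht
      have h1 : Rs U (-Matrix.vecMulVec c c + t • diagonal w) = 0 := by
        rw [Rs_add, ht, Rs_smul, Rs_neg, smul_neg, neg_add_cancel]
      have h2 := Rs_inj hk hD ((vec_symm c).add ((Matrix.isSymm_diagonal w).smul t)) h1
      have h3 : ∀ p q, p ≠ q → c p * c q = 0 := by
        intro p q hpq
        have := congrFun (congrFun h2 p) q
        simp only [Matrix.add_apply, Matrix.neg_apply, Matrix.vecMulVec_apply, Matrix.smul_apply,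
          Matrix.diagonal_apply_ne _ hpq, smul_zero, add_zero, Matrix.zero_apply,
          neg_eq_zero] at this
        exact this
      have h4 : ∀ p, c p ^ 2 = t * w p := by
        intro p
        have := congrFun (congrFun h2 p) p
        simp only [Matrix.add_apply, Matrix.neg_apply, Matrix.vecMulVec_apply, Matrix.smul_apply,
          Matrix.diagonal_apply_eq, smul_eq_mul, Matrix.zero_apply] at this
        nlinarith
      have ht0 : 0 < t := by
        have h5 : 0 < t * w p₀ := by rw [← h4]; positivity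
        exact (pos_iff_pos_of_mul_pos h5).2 (hD.wpos p₀)
      obtain ⟨q₀, hq₀⟩ : ∃ q : Fin n, q ≠ p₀ := by
        have := hD.two
        by_contra hcon
        push Not at hcon
        have h6 := hcon ⟨0, by omega⟩
        have h7 := hcon ⟨1, by omega⟩
        have := h6.trans h7.symm
        simp at this
      have h8 : c q₀ ≠ 0 := by
        intro h0
        have := h4 q₀
        rw [h0] at this
        have h9 : 0 < t * w q₀ := mul_pos ht0 (hD.wpos q₀)
        nlinarith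
      exact (mul_ne_zero h8 hp₀) (h3 q₀ p₀ hq₀)
    · rw [hlV, ← neg_wedge_eq]
      exact key _ _ (normSq_nonneg _) (hDb c)

end Vale.Agent.P256.PL
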