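import Vale.Agent.P256.PL.Stmts

/-!
# P256, row PL-B1: root counting.
-/

namespace Vale.Agent.P256.PL

open MvPolynomial

namespace B1

variable {k : ℕ}

/-- Evaluation of a polynomial array. -/
def evR (R : E4 k (Polynomial ℝ)) (t : ℝ) : E4 k ℝ := fun i j l m => (R i j l m).eval t

lemma eval_Qev (Q : MvPolynomial (Option (Idx4 k)) ℝ) (S : Polynomial ℝ)
    (R : E4 k (Polynomial ℝ)) (t : ℝ) :
    (Qev Q S R).eval t = Qev Q (S.eval t) (evR R t) := by
  unfold Qev
  have h := MvPolynomial.comp_aeval_apply (R := ℝ) (Polynomial.aeval t)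
    (f := fun o : Option (Idx4 k) => o.elim S fun q => R q.1 q.2.1 q.2.2.1 q.2.2.2) Q
  rw [Polynomial.coe_aeval_eq_eval] at h
  rw [h]
  congr 2
  funext o
  cases o <;> rfl

/-- Homogeneity of `aeval`. -/
lemma aeval_mul_of_hom {σ A : Type*} [CommRing A] [Algebra ℝ A] (Q : MvPolynomial σ ℝ) (n : ℕ)
    (hQ : Q.IsHomogeneous n) (c : A) (g : σ → A) :
    aeval (fun o => c * g o) Q = c ^ n * aeval g Q := by
  rw [aeval_def, aeval_def, eval₂_eq, eval₂_eq, Finset.mul_sum]
  refine Finset.sum_congr rfl fun d hd => ?_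
  have hdeg : ∑ i ∈ d.support, d i = n := by
    have := hQ (MvPolynomial.mem_support_iff.mp hd)
    rw [Finsupp.weight_apply] at this
    simpa [Finsupp.sum] using this
  have : (∏ i ∈ d.support, (c * g i) ^ d i) = c ^ n * ∏ i ∈ d.support, g i ^ d i := by
    simp_rw [mul_pow]
    rw [Finset.prod_mul_distrib, Finset.prod_pow_eq_pow_sum, hdeg]
  rw [this]
  ring

lemma Qev_smul {A : Type*} [CommRing A] [Algebra ℝ A] (Q : MvPolynomial (Option (Idx4 k)) ℝ)
    (n : ℕ) (hQ : Q.IsHomogeneous n) (c : A) (s : A) (R : E4 k A) :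
    Qev Q (c * s) (fun i j l m => c * R i j l m) = c ^ n * Qev Q s R := by
  unfold Qev
  rw [← aeval_mul_of_hom Q n hQ]
  congr 2
  funext o
  cases o <;> rfl

/-- Number of roots (with multiplicity) in an open interval. -/
noncomputable def cnt (f : Polynomial ℝ) (a b : ℝ) : ℕ :=
  Multiset.card (f.roots.filter fun r => a < r ∧ r < b)

lemma cnt_add (f : Polynomial ℝ) {a b c : ℝ} (hab : a ≤ b) (hbc : b ≤ c) :
    cnt f a b + cnt f b c ≤ cnt f a c := by
  classical
  unfold cnt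
  rw [← Multiset.card_add, Multiset.filter_add_filter]
  have h0 : (f.roots.filter fun r => (a < r ∧ r < b) ∧ (b < r ∧ r < c)) = 0 := by
    rw [Multiset.filter_eq_nil]
    rintro r - ⟨⟨_, h1⟩, ⟨h2, _⟩⟩
    exact absurd h1 (not_lt.mpr h2.le)
  rw [h0, add_zero]
  refine Multiset.card_le_card (Multiset.monotone_filter_right _ ?_)
  rintro r (⟨h1, h2⟩ | ⟨h1, h2⟩)
  · exact ⟨h1, h2.trans_le hbc⟩
  · exact ⟨hab.trans_lt h1, h2⟩

lemma cnt_le (f : Polynomial ℝ) (a b : ℝ) : cnt f a b ≤ Multiset.card f.roots :=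
  Multiset.card_le_card (Multiset.filter_le _ _)

lemma one_le_cnt (f : Polynomial ℝ) (hf : f ≠ 0) {a b r : ℝ} (ha : a < r) (hb : r < b)
    (hr : f.eval r = 0) : 1 ≤ cnt f a b := by
  unfold cnt
  rw [Nat.one_le_iff_ne_zero, Ne, Multiset.card_eq_zero]
  intro h
  have : r ∈ f.roots.filter fun r => a < r ∧ r < b := by
    rw [Multiset.mem_filter, Polynomial.mem_roots hf]
    exact ⟨hr, ha, hb⟩
  rw [h] at this
  exact absurd this (Multiset.notMem_zero _)

/-- A sign change gives a root. -/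
lemma one_le_cnt_of_sign (f : Polynomial ℝ) (hf : f ≠ 0) {a b : ℝ} (hab : a < b)
    (h : f.eval a * f.eval b < 0) : 1 ≤ cnt f a b := by
  have hc : ContinuousOn (fun x => f.eval x) (Set.Icc a b) := f.continuous.continuousOn
  have hmem : (0 : ℝ) ∈ Set.uIcc (f.eval a) (f.eval b) := by
    rw [Set.mem_uIcc]
    rcases mul_neg_iff.mp h with ⟨h1, h2⟩ | ⟨h1, h2⟩
    · right; exact ⟨h2.le, h1.le⟩
    · left; exact ⟨h1.le, h2.le⟩
  have := intermediate_value_uIcc (f := fun x => f.eval x)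
    (by rw [Set.uIcc_of_le hab.le]; exact hc) hmem
  obtain ⟨r, hr, hr0⟩ := this
  rw [Set.uIcc_of_le hab.le] at hr
  have hr0' : f.eval r = 0 := hr0
  have ha : a ≠ r := by
    rintro rfl
    rw [hr0', zero_mul] at h
    exact lt_irrefl _ h
  have hb : r ≠ b := by
    rintro rfl
    rw [hr0', mul_zero] at h
    exact lt_irrefl _ h
  exact one_le_cnt f hf (lt_of_le_of_ne hr.1 ha) (lt_of_le_of_ne hr.2 hb) hr0'

/-- Continuous increasing crossing. -/
lemma exists_crossing {g : ℝ → ℝ} (hg : Continuous g) {a b : ℝ} (hab : a < b) (ha : g a < 0)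
    (hb : 0 < g b) : ∃ x, a < x ∧ x < b ∧ g x = 0 := by
  have := intermediate_value_Ioo hab.le hg.continuousOn (show (0 : ℝ) ∈ Set.Ioo (g a) (g b) from
    ⟨ha, hb⟩)
  obtain ⟨x, hx, hx0⟩ := this
  exact ⟨x, hx.1, hx.2, hx0⟩

lemma cont_evR (R : E4 k (Polynomial ℝ)) : Continuous (evR R) := by
  unfold evR
  refine continuous_pi fun i => continuous_pi fun j => continuous_pi fun l =>
    continuous_pi fun m => ?_
  exact (R i j l m).continuous

/-- Domination at a point: all separators are small. -/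
lemma sep_lt {m : ℕ} {B : Set (E4 k ℝ)} {Q : MvPolynomial (Option (Idx4 k)) ℝ}
    {μ : ℕ → E4 k ℝ → ℝ} (hμ0 : ∀ i, μ i 0 = 0)
    (hμ : ∀ R ∈ B, R ≠ 0 → ∀ i, 1 ≤ i → i < 2 * m →
      0 < (-1 : ℝ) ^ i * Qev Q (μ i R) R ∧ (i + 1 < 2 * m → μ i R < μ (i + 1) R))
    {R : E4 k ℝ} (hR : R ∈ B) {s : ℝ} (hs : s ≠ 0)
    (hdom : ∀ σ : ℝ, |s| ≤ |σ| → 0 < Qev Q σ R) {i : ℕ} (hi1 : 1 ≤ i) (hi2 : i < 2 * m) :
    |μ i R| < |s| := by
  by_cases hR0 : R = 0
  · rw [hR0, hμ0, abs_zero]
    exact abs_pos.mpr hs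
  have hodd : ∀ j, 1 ≤ j → j < 2 * m → Odd j → |μ j R| < |s| := by
    intro j h1 h2 hj
    by_contra hcon
    rw [not_lt] at hcon
    have h3 := (hμ R hR hR0 j h1 h2).1
    have h4 := hdom _ hcon
    rw [hj.neg_one_pow] at h3
    linarith
  rcases Nat.even_or_odd i with he | ho
  · have h2 : 2 ≤ i := by
      rcases he with ⟨r, hr⟩
      omega
    have hlt1 : μ (i - 1) R < μ i R := by
      have := (hμ R hR hR0 (i - 1) (by omega) (by omega)).2 (by omega)
      rwa [Nat.sub_add_cancel hi1] at this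
    have hi3 : i + 1 < 2 * m := by
      rcases he with ⟨r, hr⟩
      omega
    have hlt2 : μ i R < μ (i + 1) R := (hμ R hR hR0 i hi1 hi2).2 hi3
    have ho1 : Odd (i - 1) := by
      rcases he with ⟨r, hr⟩
      exact ⟨r - 1, by omega⟩
    have ho2 : Odd (i + 1) := he.add_one
    have hA := hodd (i - 1) (by omega) (by omega) ho1
    have hB := hodd (i + 1) (by omega) hi3 ho2
    rw [abs_lt] at hA hB ⊢
    exact ⟨hA.1.trans hlt1, hlt2.trans hB.2⟩
  · exact hodd i hi1 hi2 ho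

/-- Increasing crossing of all separators on one interval, without common zero. -/
lemma cnt_up {m : ℕ} {B : Set (E4 k ℝ)} {Q : MvPolynomial (Option (Idx4 k)) ℝ}
    {μ : ℕ → E4 k ℝ → ℝ} (hm : 0 < m) (hμc : ∀ i, Continuous (μ i)) (hμ0 : ∀ i, μ i 0 = 0)
    (hμ : ∀ R ∈ B, R ≠ 0 → ∀ i, 1 ≤ i → i < 2 * m →
      0 < (-1 : ℝ) ^ i * Qev Q (μ i R) R ∧ (i + 1 < 2 * m → μ i R < μ (i + 1) R))
    {S : Polynomial ℝ} {R : E4 k (Polynomial ℝ)} (hB : ∀ t, evR R t ∈ B) {a b : ℝ} (hab : a < b)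
    (hSa : S.eval a < 0) (hSb : 0 < S.eval b)
    (hda : ∀ σ : ℝ, |S.eval a| ≤ |σ| → 0 < Qev Q σ (evR R a))
    (hdb : ∀ σ : ℝ, |S.eval b| ≤ |σ| → 0 < Qev Q σ (evR R b))
    (hf : Qev Q S R ≠ 0)
    (hno : ∀ t, a < t → t < b → S.eval t = 0 → evR R t ≠ 0) :
    2 * m ≤ cnt (Qev Q S R) a b := by
  set f := Qev Q S R with hfdef
  have hfev : ∀ t, f.eval t = Qev Q (S.eval t) (evR R t) := fun t => eval_Qev Q S R t
  have hfa : 0 < f.eval a := by rw [hfev]; exact hda _ le_rfl
  have hfb : 0 < f.eval b := by rw [hfev]; exact hdb _ le_rfl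
  have hcont : ∀ i, Continuous fun t => S.eval t - μ i (evR R t) := fun i =>
    S.continuous.sub ((hμc i).comp (cont_evR R))
  have hb : ∀ i, 1 ≤ i → i < 2 * m → 0 < S.eval b - μ i (evR R b) := by
    intro i h1 h2
    have := sep_lt hμ0 hμ (hB b) hSb.ne' hdb h1 h2
    rw [abs_of_pos hSb] at this
    linarith [(abs_lt.mp this).2]
  have ha : ∀ i, 1 ≤ i → i < 2 * m → S.eval a - μ i (evR R a) < 0 := by
    intro i h1 h2
    have := sep_lt hμ0 hμ (hB a) hSa.ne hda h1 h2
    rw [abs_of_neg hSa] at this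
    linarith [(abs_lt.mp this).1]
  -- the induction
  have key : ∀ j, j + 1 < 2 * m → ∃ x, a < x ∧ x < b ∧ S.eval x = μ (j + 1) (evR R x) ∧
      j + 1 ≤ cnt f a x := by
    intro j
    induction j with
    | zero =>
      intro hj
      obtain ⟨x, hx1, hx2, hx3⟩ := exists_crossing (hcont 1) hab (ha 1 le_rfl hj) (hb 1 le_rfl hj)
      have hx4 : S.eval x = μ 1 (evR R x) := sub_eq_zero.mp hx3
      refine ⟨x, hx1, hx2, hx4, ?_⟩
      have hRx : evR R x ≠ 0 := by
        intro h0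
        refine hno x hx1 hx2 ?_ h0
        rw [hx4, h0, hμ0]
      have hs := (hμ _ (hB x) hRx 1 le_rfl hj).1
      rw [← hx4, ← hfev] at hs
      refine one_le_cnt_of_sign f hf hx1 ?_
      have : f.eval x < 0 := by
        rw [pow_one] at hs
        linarith
      exact mul_neg_of_pos_of_neg hfa this
    | succ j ih =>
      intro hj
      obtain ⟨x, hx1, hx2, hx4, hxc⟩ := ih (by omega)
      have hRx : evR R x ≠ 0 := by
        intro h0
        refine hno x hx1 hx2 ?_ h0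
        rw [hx4, h0, hμ0]
      have hsx := hμ _ (hB x) hRx (j + 1) (by omega) (by omega)
      have hlt : S.eval x - μ (j + 2) (evR R x) < 0 := by
        have := hsx.2 (by omega)
        rw [← hx4] at this
        have h' : μ (j + 1 + 1) (evR R x) = μ (j + 2) (evR R x) := rfl
        linarith
      obtain ⟨y, hy1, hy2, hy3⟩ := exists_crossing (hcont (j + 2)) hx2 hlt
        (hb (j + 2) (by omega) (by omega))
      have hy4 : S.eval y = μ (j + 2) (evR R y) := sub_eq_zero.mp hy3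
      have hRy : evR R y ≠ 0 := by
        intro h0
        refine hno y (hx1.trans hy1) hy2 ?_ h0
        rw [hy4, h0, hμ0]
      have hsy := (hμ _ (hB y) hRy (j + 2) (by omega) (by omega)).1
      have hsx' := hsx.1
      rw [← hx4, ← hfev] at hsx'
      rw [← hy4, ← hfev] at hsy
      refine ⟨y, hx1.trans hy1, hy2, hy4, ?_⟩
      have h1 : 1 ≤ cnt f x y := by
        refine one_le_cnt_of_sign f hf hy1 ?_
        have hmul := mul_pos hsx' hsy
        have e : (-1 : ℝ) ^ (j + 1) * f.eval x * ((-1) ^ (j + 2) * f.eval y) =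
            -(f.eval x * f.eval y) * ((-1 : ℝ) ^ (j + 1) * (-1) ^ (j + 1)) := by
          rw [pow_succ _ (j + 1)]; ring
        rw [e, ← mul_pow] at hmul
        norm_num at hmul
        linarith
      have h2 := cnt_add f (a := a) (b := x) (c := y) hx1.le hy1.le
      omega
  obtain ⟨x, hx1, hx2, hx4, hxc⟩ := key (2 * m - 2) (by omega)
  have e1 : 2 * m - 2 + 1 = 2 * m - 1 := by omega
  rw [e1] at hx4 hxc
  have hRx : evR R x ≠ 0 := by
    intro h0
    refine hno x hx1 hx2 ?_ h0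
    rw [hx4, h0, hμ0]
  have hsx := (hμ _ (hB x) hRx (2 * m - 1) (by omega) (by omega)).1
  rw [← hx4, ← hfev] at hsx
  have hodd : Odd (2 * m - 1) := ⟨m - 1, by omega⟩
  rw [hodd.neg_one_pow] at hsx
  have h1 : 1 ≤ cnt f x b := by
    refine one_le_cnt_of_sign f hf hx2 ?_
    exact mul_neg_of_neg_of_pos (by linarith) hfb
  have h2 := cnt_add f (a := a) (b := x) (c := b) hx1.le hx2.le
  omega

/-- A common zero gives a root of multiplicity `2m`. -/
lemma cnt_common {m : ℕ} {Q : MvPolynomial (Option (Idx4 k)) ℝ} (hQ : Q.IsHomogeneous (2 * m))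
    {S : Polynomial ℝ} {R : E4 k (Polynomial ℝ)} {a b t : ℝ} (ha : a < t) (hb : t < b)
    (hS : S.eval t = 0) (hR : evR R t = 0) (hf : Qev Q S R ≠ 0) :
    2 * m ≤ cnt (Qev Q S R) a b := by
  classical
  obtain ⟨S', hS'⟩ := Polynomial.dvd_iff_isRoot.mpr (show S.IsRoot t from hS)
  have hR' : ∀ i j l m', ∃ P : Polynomial ℝ, R i j l m' = (Polynomial.X - Polynomial.C t) * P := by
    intro i j l m'
    have h0 : (R i j l m').eval t = 0 := by
      have := congrFun (congrFun (congrFun (congrFun hR i) j) l) m'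
      exact this
    exact Polynomial.dvd_iff_isRoot.mpr h0
  choose P hP using hR'
  have hfac : Qev Q S R = (Polynomial.X - Polynomial.C t) ^ (2 * m) * Qev Q S' P := by
    rw [← Qev_smul Q (2 * m) hQ]
    congr 1
    funext i j l m'
    exact hP i j l m'
  have hle : 2 * m ≤ (Qev Q S R).rootMultiplicity t := by
    rw [Polynomial.le_rootMultiplicity_iff hf]
    exact ⟨_, hfac⟩
  rw [← Polynomial.count_roots] at hle
  refine hle.trans ?_
  unfold cnt
  rw [← Multiset.count_filter_of_pos (p := fun r => a < r ∧ r < b) (s := (Qev Q S R).roots)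
    (a := t) ⟨ha, hb⟩]
  exact Multiset.count_le_card _ _

/-- The count on one interval. -/
lemma cnt_interval {m : ℕ} {B : Set (E4 k ℝ)} {Q : MvPolynomial (Option (Idx4 k)) ℝ}
    (hQ : GoodQ B m Q) (hcone : ∀ (c : ℝ) (R), R ∈ B → c • R ∈ B)
    {S : Polynomial ℝ} {R : E4 k (Polynomial ℝ)} (hB : ∀ t, evR R t ∈ B) {a b : ℝ} (hab : a < b)
    (hSab : S.eval a * S.eval b < 0)
    (hda : ∀ σ : ℝ, |S.eval a| ≤ |σ| → 0 < Qev Q σ (evR R a))
    (hdb : ∀ σ : ℝ, |S.eval b| ≤ |σ| → 0 < Qev Q σ (evR R b))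
    (hf : Qev Q S R ≠ 0) :
    2 * m ≤ cnt (Qev Q S R) a b := by
  obtain ⟨hm, hhom, -, μ, hμc, hμ0, hμ⟩ := hQ
  by_cases hcom : ∃ t, a < t ∧ t < b ∧ S.eval t = 0 ∧ evR R t = 0
  · obtain ⟨t, h1, h2, h3, h4⟩ := hcom
    exact cnt_common hhom h1 h2 h3 h4 hf
  push Not at hcom
  rcases mul_neg_iff.mp hSab with ⟨h1, h2⟩ | ⟨h1, h2⟩
  · -- decreasing: pass to `-S`, `-R`
    have hneg : Qev Q (-S) (fun i j l m' => -R i j l m') = Qev Q S R := by
      have := Qev_smul Q (2 * m) hhom (-1 : Polynomial ℝ) S R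
      rw [(even_two_mul m).neg_one_pow, one_mul] at this
      rw [← this]
      congr 1
      · ring
      · funext i j l m'; ring
    have hev : ∀ t, evR (fun i j l m' => -R i j l m') t = (-1 : ℝ) • evR R t := by
      intro t
      funext i j l m'
      simp [evR]
    have hnegR : ∀ (σ : ℝ) (t : ℝ), Qev Q σ (evR (fun i j l m' => -R i j l m') t) =
        Qev Q (-σ) (evR R t) := by
      intro σ t
      have := Qev_smul Q (2 * m) hhom (-1 : ℝ) (-σ) (evR R t)
      rw [(even_two_mul m).neg_one_pow, one_mul] at this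
      rw [← this]
      congr 1
      · ring
      · rw [hev]
        funext i j l m'
        simp
    rw [← hneg] at hf ⊢
    refine cnt_up (B := B) hm hμc hμ0 hμ (S := -S) ?_ hab ?_ ?_ ?_ ?_ hf ?_
    · intro t
      rw [hev]
      exact hcone _ _ (hB t)
    · rw [Polynomial.eval_neg]; linarith
    · rw [Polynomial.eval_neg]; linarith
    · intro σ hσ
      rw [hnegR]
      refine hda _ ?_
      rwa [Polynomial.eval_neg, abs_neg, ← abs_neg σ] at hσ
    · intro σ hσ
      rw [hnegR]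
      refine hdb _ ?_
      rwa [Polynomial.eval_neg, abs_neg, ← abs_neg σ] at hσ
    · intro t ht1 ht2 ht3 ht4
      rw [Polynomial.eval_neg, neg_eq_zero] at ht3
      refine hcom t ht1 ht2 ht3 ?_
      rw [hev] at ht4
      simpa using ht4
  · exact cnt_up (B := B) hm hμc hμ0 hμ hB hab h1 h2 hda hdb hf
      (fun t ht1 ht2 ht3 => hcom t ht1 ht2 ht3)

end B1

/-- Row PL-B1. -/
theorem stmtB1 : StmtB1 := by
  intro k m B Q n T S R hQ hcone hB hT hdom hsign hf
  have main : ∀ i, i ≤ n → T 0 ≤ T i ∧ 2 * m * i ≤ B1.cnt (Qev Q S R) (T 0) (T i) := by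
    intro i
    induction i with
    | zero => intro _; exact ⟨le_rfl, by simp⟩
    | succ i ih =>
      intro hi
      obtain ⟨h0, h1⟩ := ih (by omega)
      have hlt := hT i (by omega)
      refine ⟨h0.trans hlt.le, ?_⟩
      have h2 := B1.cnt_interval hQ hcone (S := S) (R := R) hB hlt
        (hsign i (by omega)) (hdom i (by omega)).2 (hdom (i + 1) hi).2 hf
      have h3 := B1.cnt_add (Qev Q S R) h0 hlt.le
      have h4 : 2 * m * (i + 1) = 2 * m * i + 2 * m := by ring
      omega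
  exact (main n le_rfl).2.trans (B1.cnt_le _ _ _)

end Vale.Agent.P256.PL
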