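import Vale.Agent.P256.PL.B2Defs

/-!
# P256, module B2a: the structure of a generic pencil `t E - τ`
-/

namespace Vale.Agent.P256.PL.B2a

open Polynomial Matrix

variable {k : ℕ}

/-- the pencil `t E - τ` -/
noncomputable def lineT (E τ : Tens k ℝ) : Tens k ℝ[X] :=
  fun a b c => X * C (E a b c) - C (τ a b c)

/-- `t s_E - s` -/
noncomputable def lineS (sE s : ℝ) : ℝ[X] := X * C sE - C s

/-- `(t s_E - s) det y(t) - ⟨N, Xt(t)⟩` -/
noncomputable def Spol (N : E4 k ℝ) (E : Tens k ℝ) (sE : ℝ) (τ : Tens k ℝ) (s : ℝ) : ℝ[X] :=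
  lineS sE s * (yM (lineT E τ)).det -
    pairing (fun i j l m => algebraMap ℝ ℝ[X] (N i j l m)) (Xt (lineT E τ))

/-- generic pencils -/
def GenP (E τ : Tens k ℝ) : Prop :=
  ∃ (G : Matrix (Fin (k + 1)) (Fin (k + 1)) ℝ) (T : Fin (k + 1) → ℝ), StrictMono T ∧
    Gᵀ * yM E * G = 1 ∧ Gᵀ * yM τ * G = diagonal T ∧
    ∀ p, ∃ i j : Fin k, ∑ a, (T p * E i.succ j.succ a - τ i.succ j.succ a) * G a p ≠ 0

/-! ### general lemmas -/

theorem Qev_hom {A : Type*} [CommRing A] [Algebra ℝ A] {Q : MvPolynomial (Option (Idx4 k)) ℝ}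
    {n : ℕ} (hQ : Q.IsHomogeneous n) (c σ : A) (R : E4 k A) :
    Qev Q (c * σ) (fun i j l m => c * R i j l m) = c ^ n * Qev Q σ R := by
  unfold Qev
  rw [MvPolynomial.aeval_def, MvPolynomial.aeval_def, MvPolynomial.eval₂_eq',
    MvPolynomial.eval₂_eq', Finset.mul_sum]
  refine Finset.sum_congr rfl fun d hd => ?_
  have h1 : n = ∑ i, d i := by
    rw [hQ.degree_eq_sum_deg_support hd]
    exact Finset.sum_subset (Finset.subset_univ _) fun i _ hi => by simpa using hi
  rw [h1, ← Finset.prod_pow_eq_pow_sum]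
  rw [mul_left_comm, ← Finset.prod_mul_distrib]
  congr 1
  refine Finset.prod_congr rfl fun o _ => ?_
  rcases o with _ | q
  · simp [mul_pow]
  · simp [mul_pow]

theorem map_Xt {A B : Type*} [CommRing A] [CommRing B] (f : A →+* B) (τ : Tens k A)
    (i j l m : Fin k) : f (Xt τ i j l m) = Xt (fun a b c => f (τ a b c)) i j l m := by
  have h : (yM fun a b c => f (τ a b c)) = f.mapMatrix (yM τ) := by
    ext a b; rfl
  unfold Xt
  rw [h, ← RingHom.map_adjugate]
  simp [map_sum, map_mul]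

theorem map_alt {A B : Type*} [CommRing A] [CommRing B] (f : A →+* B) (X : E4 k A)
    (i j l m : Fin k) : f (alt X i j l m) = alt (fun a b c d => f (X a b c d)) i j l m := by
  simp [alt]

theorem map_pairing {A B : Type*} [CommRing A] [CommRing B] (f : A →+* B) (N X : E4 k A) :
    f (pairing N X) = pairing (fun a b c d => f (N a b c d)) (fun a b c d => f (X a b c d)) := by
  simp [pairing, map_sum, map_mul]

theorem map_det_yM {A B : Type*} [CommRing A] [CommRing B] (f : A →+* B) (τ : Tens k A) :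
    f (yM τ).det = (yM fun a b c => f (τ a b c)).det := by
  rw [RingHom.map_det]; rfl

/-- the value of the pencil -/
def lineV (E τ : Tens k ℝ) (t : ℝ) : Tens k ℝ := fun a b c => t * E a b c - τ a b c

theorem eval_lineT (E τ : Tens k ℝ) (t : ℝ) :
    (fun a b c => (lineT E τ a b c).eval t) = lineV E τ t := by
  funext a b c
  rw [lineT, lineV, eval_sub, eval_mul, eval_X, eval_C, eval_C]

theorem eval_Xt (E τ : Tens k ℝ) (t : ℝ) (i j l m : Fin k) :
    (Xt (lineT E τ) i j l m).eval t = Xt (lineV E τ t) i j l m := by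
  have := map_Xt (Polynomial.evalRingHom t) (lineT E τ) i j l m
  simp only [Polynomial.coe_evalRingHom] at this
  rw [this, eval_lineT]

theorem eval_alt (E τ : Tens k ℝ) (t : ℝ) (i j l m : Fin k) :
    (alt (Xt (lineT E τ)) i j l m).eval t = alt (Xt (lineV E τ t)) i j l m := by
  simp only [alt, eval_sub, eval_Xt]

/-- the value of `Spol` -/
noncomputable def Sval (N : E4 k ℝ) (τ : Tens k ℝ) (s : ℝ) : ℝ :=
  s * (yM τ).det - pairing N (Xt τ)

theorem eval_Spol (N : E4 k ℝ) (E : Tens k ℝ) (sE : ℝ) (τ : Tens k ℝ) (s t : ℝ) :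
    (Spol N E sE τ s).eval t = Sval N (lineV E τ t) (t * sE - s) := by
  unfold Spol Sval
  rw [eval_sub, eval_mul]
  have h1 : (yM (lineT E τ)).det.eval t = (yM (lineV E τ t)).det := by
    have := map_det_yM (Polynomial.evalRingHom t) (lineT E τ)
    simp only [Polynomial.coe_evalRingHom] at this
    rw [this, eval_lineT]
  have h2 : (pairing (fun i j l m => algebraMap ℝ ℝ[X] (N i j l m)) (Xt (lineT E τ))).eval t =
      pairing N (Xt (lineV E τ t)) := by
    have := map_pairing (Polynomial.evalRingHom t)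
      (fun i j l m => algebraMap ℝ ℝ[X] (N i j l m)) (Xt (lineT E τ))
    simp only [Polynomial.coe_evalRingHom] at this
    rw [this]
    simp only [eval_Xt]
    simp [pairing]
  rw [h1, h2, lineS, eval_sub, eval_mul, eval_X, eval_C, eval_C]

/-! ### homogeneity -/

theorem yM_smul (c : ℝ) (τ : Tens k ℝ) : (yM fun a b d => c * τ a b d) = c • yM τ := by
  ext a b; simp [yM]

theorem Xt_smul (c : ℝ) (τ : Tens k ℝ) (i j l m : Fin k) :
    Xt (fun a b d => c * τ a b d) i j l m = c ^ (k + 2) * Xt τ i j l m := by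
  unfold Xt
  rw [yM_smul, adjugate_smul]
  simp only [Fintype.card_fin, Nat.add_sub_cancel, Matrix.smul_apply, smul_eq_mul, Finset.mul_sum]
  refine Finset.sum_congr rfl fun a _ => Finset.sum_congr rfl fun b _ => ?_
  ring

theorem Sval_smul (N : E4 k ℝ) (c : ℝ) (τ : Tens k ℝ) (s : ℝ) :
    Sval N (fun a b d => c * τ a b d) (c * s) = c ^ (k + 2) * Sval N τ s := by
  unfold Sval pairing
  rw [yM_smul, det_smul]
  simp only [Xt_smul, Fintype.card_fin]
  rw [mul_sub, Finset.mul_sum]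
  congr 1
  · ring
  · refine Finset.sum_congr rfl fun a _ => ?_
    rw [Finset.mul_sum]
    refine Finset.sum_congr rfl fun b _ => ?_
    rw [Finset.mul_sum]
    refine Finset.sum_congr rfl fun d _ => ?_
    rw [Finset.mul_sum]
    refine Finset.sum_congr rfl fun e _ => ?_
    ring

theorem alt_Xt_smul (c : ℝ) (τ : Tens k ℝ) (i j l m : Fin k) :
    alt (Xt (fun a b d => c * τ a b d)) i j l m = c ^ (k + 2) * alt (Xt τ) i j l m := by
  simp only [alt, Xt_smul, mul_sub]

/-! ### large parameters -/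

theorem continuous_Qev_one (Q : MvPolynomial (Option (Idx4 k)) ℝ) :
    Continuous fun R : E4 k ℝ => Qev Q (1 : ℝ) R := by
  have h : (fun R : E4 k ℝ => Qev Q (1 : ℝ) R) = fun R : E4 k ℝ => MvPolynomial.eval
      (fun o : Option (Idx4 k) => o.elim 1 fun q => R q.1 q.2.1 q.2.2.1 q.2.2.2) Q := by
    funext R
    rw [Qev, MvPolynomial.aeval_def]
    rfl
  rw [h]
  refine (MvPolynomial.continuous_eval Q).comp (continuous_pi fun o => ?_)
  rcases o with _ | q
  · exact continuous_const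
  · simp only [Option.elim]
    fun_prop

open Topology Filter

theorem near {Q : MvPolynomial (Option (Idx4 k)) ℝ} {m : ℕ} (hQ : Q.IsHomogeneous (2 * m))
    (hl : Qev Q (1 : ℝ) 0 = 1) {f : ℝ → ℝ} {F : ℝ → E4 k ℝ} (hf : ContinuousAt f 0)
    (hF : ContinuousAt F 0) (hf0 : 0 < f 0) (hF0 : F 0 = 0) :
    ∀ᶠ u in 𝓝 (0 : ℝ), 0 < f u ∧ ∀ σ : ℝ, |f u| ≤ |σ| → 0 < Qev Q σ (F u) := by
  have hV : {R : E4 k ℝ | 0 < Qev Q (1 : ℝ) R} ∈ 𝓝 (0 : E4 k ℝ) :=
    (isOpen_lt continuous_const (continuous_Qev_one Q)).mem_nhds (by simp [hl])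
  obtain ⟨δ, hδ, hball⟩ := Metric.mem_nhds_iff.mp hV
  have e1 : ∀ᶠ u in 𝓝 (0 : ℝ), f 0 / 2 < f u :=
    hf.eventually (lt_mem_nhds (by linarith))
  have e2 : ∀ᶠ u in 𝓝 (0 : ℝ), ‖F u‖ < δ * (f 0 / 2) := by
    have h0 : ‖F 0‖ < δ * (f 0 / 2) := by
      rw [hF0, norm_zero]; positivity
    exact hF.norm.eventually (gt_mem_nhds h0)
  filter_upwards [e1, e2] with u h1 h2
  refine ⟨by linarith, fun σ hσ => ?_⟩
  have h3 : f 0 / 2 < |σ| := lt_of_lt_of_le h1 ((le_abs_self _).trans hσ)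
  have h4 : 0 < |σ| := by linarith
  have hσ0 : σ ≠ 0 := abs_pos.mp h4
  have h5 : Qev Q σ (F u) = σ ^ (2 * m) * Qev Q 1 (σ⁻¹ • F u) := by
    rw [← Qev_hom hQ σ 1 (σ⁻¹ • F u), mul_one]
    congr 1
    funext i j l n
    simp [hσ0]
  rw [h5]
  refine mul_pos ?_ ?_
  · rw [pow_mul]
    positivity
  · refine hball (Metric.mem_ball.mpr ?_)
    rw [dist_zero_right, norm_smul, norm_inv, Real.norm_eq_abs, inv_mul_lt_iff₀ h4]
    calc ‖F u‖ < δ * (f 0 / 2) := h2
      _ ≤ |σ| * δ := by nlinarith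

/-- the reversed pencil -/
def revV (E τ : Tens k ℝ) (u : ℝ) : Tens k ℝ := fun a b c => E a b c - u * τ a b c

theorem lineV_eq (E τ : Tens k ℝ) {t : ℝ} (ht : t ≠ 0) :
    lineV E τ t = fun a b c => t * revV E τ t⁻¹ a b c := by
  funext a b c
  simp only [lineV, revV]
  field_simp

theorem continuous_yM_revV (E τ : Tens k ℝ) : Continuous fun u => yM (revV E τ u) := by
  refine continuous_matrix fun a b => ?_
  simp only [yM, revV]
  fun_prop

theorem continuous_Xt_revV (E τ : Tens k ℝ) (i j l m : Fin k) :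
    Continuous fun u => Xt (revV E τ u) i j l m := by
  unfold Xt
  refine continuous_finsetSum _ fun a _ => continuous_finsetSum _ fun b _ => ?_
  have h : Continuous fun u => (yM (revV E τ u)).adjugate a b :=
    ((continuous_yM_revV E τ).matrix_adjugate).matrix_elem a b
  have h1 : Continuous fun u => revV E τ u i.succ j.succ a := by
    simp only [revV]; fun_prop
  have h2 : Continuous fun u => revV E τ u l.succ m.succ b := by
    simp only [revV]; fun_prop
  exact (h1.mul h).mul h2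

theorem continuous_Sval_revV (N : E4 k ℝ) (E τ : Tens k ℝ) (sE s : ℝ) :
    Continuous fun u => Sval N (revV E τ u) (sE - u * s) := by
  unfold Sval pairing
  refine Continuous.sub ?_ ?_
  · exact Continuous.mul (by fun_prop) (continuous_yM_revV E τ).matrix_det
  · refine continuous_finsetSum _ fun a _ => continuous_finsetSum _ fun b _ =>
      continuous_finsetSum _ fun c _ => continuous_finsetSum _ fun d _ => ?_
    exact continuous_const.mul (continuous_Xt_revV E τ a b c d)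

theorem revV_zero (E τ : Tens k ℝ) : revV E τ 0 = E := by
  funext a b c; simp [revV]

/-- behaviour of the pencil for large `|t|` -/
theorem large {Q : MvPolynomial (Option (Idx4 k)) ℝ} {m : ℕ} (hQ : Q.IsHomogeneous (2 * m))
    (hl : Qev Q (1 : ℝ) 0 = 1) (N : E4 k ℝ) {E : Tens k ℝ} {sE : ℝ}
    (hE0 : alt (Xt E) = 0) (hE : pairing N (Xt E) < sE * (yM E).det) (τ : Tens k ℝ) (s : ℝ) :
    ∃ M : ℝ, 0 < M ∧ ∀ t : ℝ, M < |t| →
      (∃ c : ℝ, 0 < c ∧ Sval N (lineV E τ t) (t * sE - s) = t ^ (k + 2) * c) ∧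
      ∀ σ : ℝ, |Sval N (lineV E τ t) (t * sE - s)| ≤ |σ| →
        0 < Qev Q σ (alt (Xt (lineV E τ t))) := by
  have hnear := near (k := k) hQ hl (f := fun u => Sval N (revV E τ u) (sE - u * s))
    (F := fun u => alt (Xt (revV E τ u))) (continuous_Sval_revV N E τ sE s).continuousAt
    (by
      refine (continuous_pi fun i => continuous_pi fun j => continuous_pi fun l =>
        continuous_pi fun n => ?_).continuousAt
      simp only [alt]
      exact (continuous_Xt_revV E τ _ _ _ _).sub (continuous_Xt_revV E τ _ _ _ _))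
    (by simp only [revV_zero, zero_mul, sub_zero, Sval]; linarith)
    (by simp only [revV_zero, hE0])
  obtain ⟨ε, hε, hball⟩ := Metric.eventually_nhds_iff.mp hnear
  refine ⟨ε⁻¹, inv_pos.mpr hε, fun t ht => ?_⟩
  have ht0 : t ≠ 0 := by
    rintro rfl
    rw [abs_zero] at ht
    exact absurd ht (not_lt.mpr (inv_pos.mpr hε).le)
  have htp : 0 < |t| := abs_pos.mpr ht0
  have h1 : dist t⁻¹ 0 < ε := by
    rw [dist_zero_right, Real.norm_eq_abs, abs_inv]
    rw [inv_lt_comm₀ htp hε]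
    exact ht
  obtain ⟨h2, h3⟩ := hball h1
  have h4 : Sval N (lineV E τ t) (t * sE - s) =
      t ^ (k + 2) * Sval N (revV E τ t⁻¹) (sE - t⁻¹ * s) := by
    rw [lineV_eq E τ ht0, ← Sval_smul]
    congr 1
    field_simp
  refine ⟨⟨_, h2, h4⟩, fun σ hσ => ?_⟩
  have hp : t ^ (k + 2) ≠ 0 := pow_ne_zero _ ht0
  have h5 : Qev Q σ (alt (Xt (lineV E τ t))) = (t ^ (k + 2)) ^ (2 * m) *
      Qev Q (σ / t ^ (k + 2)) (alt (Xt (revV E τ t⁻¹))) := by
    rw [← Qev_hom hQ]
    congr 1
    · field_simp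
    · funext i j l n
      rw [lineV_eq E τ ht0, alt_Xt_smul]
  rw [h5]
  refine mul_pos ?_ (h3 _ ?_)
  · rw [pow_mul _ 2 m]
    positivity
  · rw [h4, abs_mul] at hσ
    rw [abs_div, le_div_iff₀ (abs_pos.mpr hp), mul_comm]
    exact hσ

/-! ### the structure at the poles -/

theorem adj_eq {n : Type*} [Fintype n] [DecidableEq n] {G Y : Matrix n n ℝ} {d : n → ℝ}
    (h : Gᵀ * Y * G = diagonal d) :
    G.det ^ 2 • Y.adjugate = G * diagonal (fun i => ∏ j ∈ Finset.univ.erase i, d j) * Gᵀ := by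
  have h1 := congrArg adjugate h
  rw [adjugate_diagonal, adjugate_mul_distrib, adjugate_mul_distrib] at h1
  rw [← h1]
  have h2 : G * (G.adjugate * (Y.adjugate * Gᵀ.adjugate)) * Gᵀ =
      (G * G.adjugate) * Y.adjugate * (Gᵀ.adjugate * Gᵀ) := by
    simp only [Matrix.mul_assoc]
  rw [h2, mul_adjugate, adjugate_mul, det_transpose]
  simp only [Matrix.smul_mul, Matrix.mul_smul, Matrix.one_mul, Matrix.mul_one, smul_smul, pow_two]

/-- contraction with column `p` of `G` -/
def UU (τ : Tens k ℝ) (G : Matrix (Fin (k + 1)) (Fin (k + 1)) ℝ) (p : Fin (k + 1)) :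
    Matrix (Fin k) (Fin k) ℝ := fun i j => ∑ a, τ i.succ j.succ a * G a p

theorem Xt_eq {τ : Tens k ℝ} {G : Matrix (Fin (k + 1)) (Fin (k + 1)) ℝ} {d : Fin (k + 1) → ℝ}
    (h : Gᵀ * yM τ * G = diagonal d) (i j l m : Fin k) :
    G.det ^ 2 * Xt τ i j l m =
      ∑ p, (∏ q ∈ Finset.univ.erase p, d q) * (UU τ G p i j * UU τ G p l m) := by
  have h1 : ∀ a b, G.det ^ 2 * (yM τ).adjugate a b =
      ∑ p, G a p * (∏ q ∈ Finset.univ.erase p, d q) * G b p := by
    intro a b
    have := congrFun (congrFun (adj_eq h) a) b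
    rw [Matrix.smul_apply, smul_eq_mul] at this
    rw [this, Matrix.mul_apply]
    refine Finset.sum_congr rfl fun p _ => ?_
    rw [mul_diagonal, transpose_apply]
  unfold Xt
  rw [Finset.mul_sum]
  have h2 : ∀ a, G.det ^ 2 * ∑ b, τ i.succ j.succ a * (yM τ).adjugate a b * τ l.succ m.succ b =
      ∑ b, ∑ p, τ i.succ j.succ a * (G a p * (∏ q ∈ Finset.univ.erase p, d q) * G b p) *
        τ l.succ m.succ b := by
    intro a
    rw [Finset.mul_sum]
    refine Finset.sum_congr rfl fun b _ => ?_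
    rw [show G.det ^ 2 * (τ i.succ j.succ a * (yM τ).adjugate a b * τ l.succ m.succ b) =
      τ i.succ j.succ a * (G.det ^ 2 * (yM τ).adjugate a b) * τ l.succ m.succ b by ring, h1,
      Finset.mul_sum, Finset.sum_mul]
  simp only [h2]
  rw [show (∑ a, ∑ b, ∑ p, τ i.succ j.succ a *
      (G a p * (∏ q ∈ Finset.univ.erase p, d q) * G b p) * τ l.succ m.succ b) =
      ∑ p, ∑ a, ∑ b, τ i.succ j.succ a *
      (G a p * (∏ q ∈ Finset.univ.erase p, d q) * G b p) * τ l.succ m.succ b from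
    (Finset.sum_congr rfl fun a _ => Finset.sum_comm).trans Finset.sum_comm]
  refine Finset.sum_congr rfl fun p _ => ?_
  unfold UU
  rw [Finset.sum_mul_sum, Finset.mul_sum]
  refine Finset.sum_congr rfl fun a _ => ?_
  rw [Finset.mul_sum]
  refine Finset.sum_congr rfl fun b _ => ?_
  ring

theorem det_eq_zero_of {τ : Tens k ℝ} {G : Matrix (Fin (k + 1)) (Fin (k + 1)) ℝ}
    {d : Fin (k + 1) → ℝ} (h : Gᵀ * yM τ * G = diagonal d) (hG : G.det ≠ 0) {p : Fin (k + 1)}
    (hp : d p = 0) : (yM τ).det = 0 := by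
  have h1 := congrArg det h
  rw [det_mul, det_mul, det_transpose, det_diagonal,
    Finset.prod_eq_zero (Finset.mem_univ p) hp] at h1
  simpa [hG] using h1

/-- the product `∏_{q ≠ p} (T p - T q)` has the sign `(-1)^(k-p)` -/
theorem sign_prod {T : Fin (k + 1) → ℝ} (hT : StrictMono T) (p : Fin (k + 1)) :
    0 < (-1 : ℝ) ^ (k - (p : ℕ)) * ∏ q ∈ Finset.univ.erase p, (T p - T q) := by
  have h1 : Finset.univ.erase p = Finset.Iio p ∪ Finset.Ioi p := by
    ext q
    simp [lt_or_lt_iff_ne]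
  have h2 : Disjoint (Finset.Iio p) (Finset.Ioi p) := by
    rw [Finset.disjoint_left]
    intro q h3 h4
    rw [Finset.mem_Iio] at h3
    rw [Finset.mem_Ioi] at h4
    exact absurd (h3.trans h4) (lt_irrefl _)
  rw [h1, Finset.prod_union h2]
  have h3 : (Finset.Ioi p).card = k - (p : ℕ) := by
    rw [Fin.card_Ioi]; omega
  have h4 : ∏ q ∈ Finset.Ioi p, (T p - T q) =
      (-1) ^ (k - (p : ℕ)) * ∏ q ∈ Finset.Ioi p, (T q - T p) := by
    rw [← h3, ← Finset.prod_const, ← Finset.prod_mul_distrib]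
    refine Finset.prod_congr rfl fun q _ => by ring
  rw [h4]
  have h5 : 0 < ∏ q ∈ Finset.Iio p, (T p - T q) :=
    Finset.prod_pos fun q hq => sub_pos.mpr (hT (Finset.mem_Iio.mp hq))
  have h6 : 0 < ∏ q ∈ Finset.Ioi p, (T q - T p) :=
    Finset.prod_pos fun q hq => sub_pos.mpr (hT (Finset.mem_Ioi.mp hq))
  have h7 : (-1 : ℝ) ^ (k - (p : ℕ)) * (-1) ^ (k - (p : ℕ)) = 1 := by
    rw [← mul_pow]; simp
  calc (0 : ℝ) < (∏ q ∈ Finset.Iio p, (T p - T q)) * ∏ q ∈ Finset.Ioi p, (T q - T p) :=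
        mul_pos h5 h6
    _ = ((-1 : ℝ) ^ (k - (p : ℕ)) * (-1) ^ (k - (p : ℕ))) *
        ((∏ q ∈ Finset.Iio p, (T p - T q)) * ∏ q ∈ Finset.Ioi p, (T q - T p)) := by
        rw [h7, one_mul]
    _ = _ := by ring

theorem lineV_diag {E τ : Tens k ℝ} {G : Matrix (Fin (k + 1)) (Fin (k + 1)) ℝ}
    {T : Fin (k + 1) → ℝ} (h1 : Gᵀ * yM E * G = 1) (h2 : Gᵀ * yM τ * G = diagonal T) (t : ℝ) :
    Gᵀ * yM (lineV E τ t) * G = diagonal fun q => t - T q := by
  have h : yM (lineV E τ t) = t • yM E - yM τ := by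
    ext a b; simp [yM, lineV]
  rw [h, Matrix.mul_sub, Matrix.sub_mul, h2, Matrix.mul_smul, Matrix.smul_mul, h1]
  ext a b
  by_cases hab : a = b
  · subst hab; simp
  · simp [hab]

/-- the structure of the pencil at the pole `T p` -/
theorem at_pole {E τ : Tens k ℝ} {G : Matrix (Fin (k + 1)) (Fin (k + 1)) ℝ}
    {T : Fin (k + 1) → ℝ} (hT : StrictMono T) (h1 : Gᵀ * yM E * G = 1)
    (h2 : Gᵀ * yM τ * G = diagonal T) (N : E4 k ℝ) (p : Fin (k + 1)) (s : ℝ) :
    ∃ c : ℝ, 0 < (-1 : ℝ) ^ (k - (p : ℕ)) * c ∧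
      Sval N (lineV E τ (T p)) s = -c * quadN N (UU (lineV E τ (T p)) G p) ∧
      alt (Xt (lineV E τ (T p))) = fun i j l m => c * wedge (UU (lineV E τ (T p)) G p) i j l m := by
  have hG : G.det ≠ 0 := by
    intro h0
    have := congrArg det h1
    rw [det_mul, h0, mul_zero, det_one] at this
    exact zero_ne_one this
  have hG2 : 0 < G.det ^ 2 := by positivity
  have h3 := lineV_diag h1 h2 (T p)
  set V := UU (lineV E τ (T p)) G p with hV
  set c₀ := ∏ q ∈ Finset.univ.erase p, (T p - T q) with hc₀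
  have h4 : ∀ i j l m, Xt (lineV E τ (T p)) i j l m = (G.det ^ 2)⁻¹ * c₀ * (V i j * V l m) := by
    intro i j l m
    have h5 := Xt_eq h3 i j l m
    rw [Finset.sum_eq_single p] at h5
    · rw [mul_assoc, ← h5, inv_mul_cancel_left₀ hG2.ne']
    · intro q _ hq
      rw [Finset.prod_eq_zero (Finset.mem_erase.mpr ⟨hq.symm, Finset.mem_univ p⟩) (sub_self _),
        zero_mul]
    · intro h; exact absurd (Finset.mem_univ p) h
  have h6 : (yM (lineV E τ (T p))).det = 0 := det_eq_zero_of h3 hG (p := p) (sub_self _)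
  refine ⟨(G.det ^ 2)⁻¹ * c₀, ?_, ?_, ?_⟩
  · rw [mul_left_comm]
    exact mul_pos (inv_pos.mpr hG2) (sign_prod hT p)
  · unfold Sval quadN pairing tens2
    rw [h6, mul_zero, zero_sub, neg_mul, Finset.mul_sum]
    congr 1
    refine Finset.sum_congr rfl fun i _ => ?_
    rw [Finset.mul_sum]
    refine Finset.sum_congr rfl fun j _ => ?_
    rw [Finset.mul_sum]
    refine Finset.sum_congr rfl fun l _ => ?_
    rw [Finset.mul_sum]
    refine Finset.sum_congr rfl fun m _ => ?_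
    rw [h4]
    ring
  · funext i j l m
    simp only [alt, wedge, tens2, h4]
    ring

theorem UU_symm {τ : Tens k ℝ} (hτ : IsSymT τ) (G : Matrix (Fin (k + 1)) (Fin (k + 1)) ℝ)
    (p : Fin (k + 1)) : (UU τ G p).IsSymm := by
  ext i j
  simp only [transpose_apply, UU]
  refine Finset.sum_congr rfl fun a _ => ?_
  rw [hτ.1]

theorem isSymT_lineV {E τ : Tens k ℝ} (hE : IsSymT E) (hτ : IsSymT τ) (t : ℝ) :
    IsSymT (lineV E τ t) := by
  refine ⟨fun a b c => ?_, fun a b c => ?_⟩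
  · simp only [lineV]; rw [hE.1 a b c, hτ.1 a b c]
  · simp only [lineV]; rw [hE.2 a b c, hτ.2 a b c]

/-- the points `T 0 < ... < T (k+2)` -/
theorem pencil_val {m : ℕ} {B : Set (E4 k ℝ)} {Q : MvPolynomial (Option (Idx4 k)) ℝ}
    {N : E4 k ℝ} {E : Tens k ℝ} {sE : ℝ} (hQ : GoodQ B m Q) (hN : DomQ Q N) (hE : IsSymT E)
    (hE0 : alt (Xt E) = 0) (hsE : pairing N (Xt E) < sE * (yM E).det)
    {τ : Tens k ℝ} (s : ℝ) (hτ : IsSymT τ) (hg : GenP E τ) :
    ∃ T : ℕ → ℝ, (∀ i, i < k + 2 → T i < T (i + 1)) ∧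
      (∀ i, i ≤ k + 2 → 0 < (-1 : ℝ) ^ (k + 2 - i) *
          Sval N (lineV E τ (T i)) (T i * sE - s) ∧
        ∀ σ : ℝ, |Sval N (lineV E τ (T i)) (T i * sE - s)| ≤ |σ| →
          0 < Qev Q σ (alt (Xt (lineV E τ (T i))))) := by
  obtain ⟨G, T, hT, h1, h2, h3⟩ := hg
  obtain ⟨M, hM, hlarge⟩ := large hQ.hom hQ.lead N hE0 hsE τ s
  set M' := 1 + M + |T 0| + |T (Fin.last k)| with hM'
  have hMp : M < M' := by
    have := abs_nonneg (T 0); have := abs_nonneg (T (Fin.last k)); linarith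
  have hM0 : 0 < M' := hM.trans hMp
  have hT0 : -M' < T 0 := by
    have := neg_abs_le (T 0); have := abs_nonneg (T (Fin.last k)); linarith
  have hTk : T (Fin.last k) < M' := by
    have := le_abs_self (T (Fin.last k)); have := abs_nonneg (T 0); linarith
  let S : ℕ → ℝ := fun i => if i = 0 then -M' else if h : i < k + 2 then T ⟨i - 1, by omega⟩ else M'
  have hS0 : S 0 = -M' := by simp [S]
  have hSm : ∀ p : Fin (k + 1), S (p + 1) = T p := by
    intro p
    have : (p : ℕ) + 1 < k + 2 := by have := p.2; omega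
    simp [S, this]
  have hSl : S (k + 2) = M' := by simp [S]
  refine ⟨S, ?_, ?_⟩
  · intro i hi
    rcases Nat.eq_zero_or_pos i with rfl | hi0
    · have := hSm 0
      simp only [Fin.val_zero] at this
      rw [hS0, this]; exact hT0
    · obtain ⟨j, rfl⟩ : ∃ j, i = j + 1 := ⟨i - 1, by omega⟩
      rcases Nat.lt_or_ge (j + 1) (k + 1) with hj | hj
      · have e1 := hSm ⟨j, by omega⟩
        have e2 := hSm ⟨j + 1, by omega⟩
        simp only at e1 e2
        rw [e1, e2]
        exact hT (by simp [Fin.lt_def])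
      · have hj' : j = k := by omega
        subst hj'
        have e1 := hSm (Fin.last j)
        simp only [Fin.val_last] at e1
        rw [e1, show j + 1 + 1 = j + 2 by ring, hSl]
        exact hTk
  · intro i hi
    rcases Nat.eq_zero_or_pos i with rfl | hi0
    · rw [hS0]
      obtain ⟨⟨c, hc, hc'⟩, h⟩ := hlarge (-M') (by rw [abs_neg, abs_of_pos hM0]; exact hMp)
      refine ⟨?_, h⟩
      rw [hc', Nat.sub_zero, ← mul_assoc, ← mul_pow]
      have : (-1 : ℝ) * -M' = M' := by ring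
      rw [this]
      positivity
    · obtain ⟨j, rfl⟩ : ∃ j, i = j + 1 := ⟨i - 1, by omega⟩
      rcases Nat.lt_or_ge j (k + 1) with hj | hj
      · set p : Fin (k + 1) := ⟨j, hj⟩ with hp
        have e1 : S (j + 1) = T p := hSm p
        rw [e1]
        obtain ⟨c, hc, hc1, hc2⟩ := at_pole hT h1 h2 N p (T p * sE - s)
        set V := UU (lineV E τ (T p)) G p with hV
        have hVs : V.IsSymm := UU_symm (isSymT_lineV hE hτ _) G p
        have hV0 : V ≠ 0 := by
          obtain ⟨i, j, hij⟩ := h3 p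
          intro h0
          exact hij (congrFun (congrFun h0 i) j)
        obtain ⟨hq, hdom⟩ := hN V hVs hV0
        have hc0 : c ≠ 0 := by
          rintro rfl
          rw [mul_zero] at hc
          exact lt_irrefl _ hc
        have hpv : (p : ℕ) = j := rfl
        refine ⟨?_, ?_⟩
        · rw [hc1]
          have e2 : k + 2 - (j + 1) = (k - (p : ℕ)) + 1 := by omega
          rw [e2, pow_succ]
          have : 0 < ((-1 : ℝ) ^ (k - (p : ℕ)) * c) * quadN N V := mul_pos hc hq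
          calc (0 : ℝ) < ((-1 : ℝ) ^ (k - (p : ℕ)) * c) * quadN N V := this
            _ = _ := by ring
        · intro σ hσ
          rw [hc1, abs_mul, abs_neg, abs_of_pos hq] at hσ
          have e3 : Qev Q σ (alt (Xt (lineV E τ (T p)))) =
              (-c) ^ (2 * m) * Qev Q (σ / (-c)) (-wedge V) := by
            rw [← Qev_hom hQ.hom, hc2]
            congr 1
            · field_simp
            · funext i j l m
              simp
          rw [e3]
          refine mul_pos ?_ (hdom _ ?_)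
          · rw [pow_mul]
            have : (-c) ^ 2 ≠ 0 := pow_ne_zero _ (neg_ne_zero.mpr hc0)
            positivity
          · rw [abs_div, abs_neg, le_div_iff₀ (abs_pos.mpr hc0), mul_comm]
            exact hσ
      · have hj' : j = k + 1 := by omega
        subst hj'
        rw [show k + 1 + 1 = k + 2 by ring, hSl]
        obtain ⟨⟨c, hc, hc'⟩, h⟩ := hlarge M' (by rw [abs_of_pos hM0]; exact hMp)
        refine ⟨?_, h⟩
        rw [hc']
        simp only [Nat.sub_self, pow_zero, one_mul]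
        positivity

/-- **B2a.** For a generic pencil the hypotheses of `StmtB1` are satisfied with `n = k + 2`. -/
theorem pencil {m : ℕ} {B : Set (E4 k ℝ)} {Q : MvPolynomial (Option (Idx4 k)) ℝ}
    {N : E4 k ℝ} {E : Tens k ℝ} {sE : ℝ} (hQ : GoodQ B m Q) (hN : DomQ Q N) (hE : IsSymT E)
    (hE0 : alt (Xt E) = 0) (hsE : pairing N (Xt E) < sE * (yM E).det)
    {τ : Tens k ℝ} (s : ℝ) (hτ : IsSymT τ) (hg : GenP E τ) :
    ∃ T : ℕ → ℝ, (∀ i, i < k + 2 → T i < T (i + 1)) ∧
      (∀ i, i ≤ k + 2 → (Spol N E sE τ s).eval (T i) ≠ 0 ∧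
        ∀ σ : ℝ, |(Spol N E sE τ s).eval (T i)| ≤ |σ| →
          0 < Qev Q σ (fun i' j l m => (alt (Xt (lineT E τ)) i' j l m).eval (T i))) ∧
      ∀ i, i < k + 2 →
        (Spol N E sE τ s).eval (T i) * (Spol N E sE τ s).eval (T (i + 1)) < 0 := by
  obtain ⟨T, h1, h2⟩ := pencil_val hQ hN hE hE0 hsE s hτ hg
  refine ⟨T, h1, fun i hi => ?_, fun i hi => ?_⟩
  · obtain ⟨h3, h4⟩ := h2 i hi
    rw [eval_Spol]
    refine ⟨fun h0 => ?_, fun σ hσ => ?_⟩
    · rw [h0, mul_zero] at h3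
      exact lt_irrefl _ h3
    · simp only [eval_alt]
      exact h4 σ hσ
  · obtain ⟨h3, -⟩ := h2 i hi.le
    obtain ⟨h4, -⟩ := h2 (i + 1) hi
    rw [eval_Spol, eval_Spol]
    have h5 := mul_pos h3 h4
    have e : k + 2 - i = (k + 2 - (i + 1)) + 1 := by omega
    have e1 : (-1 : ℝ) ^ (k + 2 - (i + 1)) * (-1 : ℝ) ^ (k + 2 - (i + 1)) = 1 := by
      rw [← mul_pow]; simp
    rw [e, pow_succ] at h5
    have e2 : (-1 : ℝ) ^ (k + 2 - (i + 1)) * -1 * Sval N (lineV E τ (T i)) (T i * sE - s) *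
        ((-1 : ℝ) ^ (k + 2 - (i + 1)) * Sval N (lineV E τ (T (i + 1))) (T (i + 1) * sE - s)) =
        -((-1 : ℝ) ^ (k + 2 - (i + 1)) * (-1 : ℝ) ^ (k + 2 - (i + 1))) *
        (Sval N (lineV E τ (T i)) (T i * sE - s) *
          Sval N (lineV E τ (T (i + 1))) (T (i + 1) * sE - s)) := by ring
    rw [e2, e1] at h5
    linarith

end Vale.Agent.P256.PL.B2a

namespace Vale.Agent.P256.PL

/-- **B2a.** -/
theorem stmtB2a : StmtB2a := by
  intro k m B Q N E sE _ hQ _ _ hN hE _ hE0 hsE τ s G d hτ hG hd hU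
  refine B2a.pencil hQ hN hE hE0 hsE s hτ ⟨G, d, hd, hG.hE, hG.hτ, fun p => ?_⟩
  by_contra hcon
  push Not at hcon
  exact hU p (by ext i j; exact hcon i j)

end Vale.Agent.P256.PL
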