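import Vale.Agent.P256.PL.B2Defs
import Mathlib.Algebra.Module.Submodule.Union

/-!
# P256: simultaneous diagonalisation and density of the generic pencils.
-/

namespace Vale.Agent.P256.PL

open Matrix Filter Topology

namespace B2b

variable {k : ℕ}

/-- Spectral theorem in the form `Vᵀ M V = diag`, `Vᵀ V = 1`. -/
theorem exists_diag {n : ℕ} (M : Matrix (Fin n) (Fin n) ℝ) (hM : M.IsSymm) :
    ∃ (V : Matrix (Fin n) (Fin n) ℝ) (d : Fin n → ℝ), Vᵀ * V = 1 ∧ Vᵀ * M * V = diagonal d ∧
      ∀ i, ∃ v : Fin n → ℝ, v ≠ 0 ∧ M *ᵥ v = d i • v := by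
  have hH : M.IsHermitian := by
    rw [Matrix.IsHermitian, Matrix.conjTranspose_eq_transpose_of_trivial]; exact hM
  have hs := hH.spectral_theorem
  set V : Matrix (Fin n) (Fin n) ℝ := (hH.eigenvectorUnitary : Matrix (Fin n) (Fin n) ℝ) with hV
  have hVV : Vᵀ * V = 1 := by
    have := (Matrix.mem_unitaryGroup_iff'.mp hH.eigenvectorUnitary.2)
    rwa [Matrix.star_eq_conjTranspose, Matrix.conjTranspose_eq_transpose_of_trivial] at this
  have hM' : M = V * diagonal hH.eigenvalues * Vᵀ := by
    rw [Unitary.conjStarAlgAut_apply] at hs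
    rw [Matrix.star_eq_conjTranspose, Matrix.conjTranspose_eq_transpose_of_trivial] at hs
    exact hs
  refine ⟨V, hH.eigenvalues, hVV, ?_, ?_⟩
  · calc Vᵀ * M * V = Vᵀ * (V * diagonal hH.eigenvalues * Vᵀ) * V := by rw [← hM']
      _ = (Vᵀ * V) * diagonal hH.eigenvalues * (Vᵀ * V) := by simp only [Matrix.mul_assoc]
      _ = diagonal hH.eigenvalues := by rw [hVV, Matrix.one_mul, Matrix.mul_one]
  · intro i
    refine ⟨_, ?_, hH.mulVec_eigenvectorBasis i⟩
    have := hH.eigenvectorBasis.orthonormal.ne_zero i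
    intro h
    apply this
    ext j
    exact congrFun h j

/-- A positive definite matrix is congruent to `1`. -/
theorem exists_congr_one {n : ℕ} (M : Matrix (Fin n) (Fin n) ℝ) (hM : M.PosDef) :
    ∃ A : Matrix (Fin n) (Fin n) ℝ, Aᵀ * M * A = 1 := by
  have hs : M.IsSymm := by
    have := hM.isHermitian
    rwa [Matrix.IsHermitian, Matrix.conjTranspose_eq_transpose_of_trivial] at this
  obtain ⟨V, d, hVV, hd, he⟩ := exists_diag M hs
  have hpos : ∀ i, 0 < d i := by
    intro i
    obtain ⟨v, hv0, hv⟩ := he i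
    have h1 := hM.dotProduct_mulVec_pos hv0
    rw [hv] at h1
    simp only [star_trivial, dotProduct_smul, smul_eq_mul] at h1
    have h2 : 0 ≤ v ⬝ᵥ v := by
      simp only [dotProduct]
      exact Finset.sum_nonneg fun i _ => mul_self_nonneg _
    by_contra hneg
    push Not at hneg
    nlinarith
  refine ⟨V * diagonal (fun i => (Real.sqrt (d i))⁻¹), ?_⟩
  rw [Matrix.transpose_mul, Matrix.diagonal_transpose]
  calc diagonal (fun i => (Real.sqrt (d i))⁻¹) * Vᵀ * M * (V * diagonal fun i => (Real.sqrt (d i))⁻¹)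
      = diagonal (fun i => (Real.sqrt (d i))⁻¹) * (Vᵀ * M * V) *
          diagonal (fun i => (Real.sqrt (d i))⁻¹) := by simp only [Matrix.mul_assoc]
    _ = 1 := by
      rw [hd, Matrix.diagonal_mul_diagonal, Matrix.diagonal_mul_diagonal, ← Matrix.diagonal_one]
      congr 1
      funext i
      have h3 : Real.sqrt (d i) ≠ 0 := by
        have := Real.sqrt_pos.mpr (hpos i); exact this.ne'
      have h4 : Real.sqrt (d i) * Real.sqrt (d i) = d i := Real.mul_self_sqrt (hpos i).le
      field_simp
      nlinarith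

/-- Simultaneous diagonalisation with sorted eigenvalues. -/
theorem exists_simdiag {n : ℕ} (P M : Matrix (Fin n) (Fin n) ℝ) (hP : P.PosDef)
    (hM : M.IsSymm) : ∃ (G : Matrix (Fin n) (Fin n) ℝ) (d : Fin n → ℝ),
      Gᵀ * P * G = 1 ∧ Gᵀ * M * G = diagonal d ∧ Monotone d := by
  obtain ⟨A, hA⟩ := exists_congr_one P hP
  have hs : (Aᵀ * M * A).IsSymm := by
    rw [Matrix.IsSymm, Matrix.transpose_mul, Matrix.transpose_mul, Matrix.transpose_transpose,
      hM.eq, Matrix.mul_assoc]
  obtain ⟨V, d, hVV, hd, -⟩ := exists_diag _ hs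
  set σ := Tuple.sort d with hσ
  have hmono : Monotone (d ∘ σ) := Tuple.monotone_sort d
  refine ⟨(A * V).submatrix id σ, d ∘ σ, ?_, ?_, hmono⟩
  · have h1 : (A * V)ᵀ * P * (A * V) = 1 := by
      rw [Matrix.transpose_mul]
      calc Vᵀ * Aᵀ * P * (A * V) = Vᵀ * (Aᵀ * P * A) * V := by simp only [Matrix.mul_assoc]
        _ = 1 := by rw [hA, Matrix.mul_one, hVV]
    have h2 : ((A * V).submatrix id σ)ᵀ * P * (A * V).submatrix id σ =
        ((A * V)ᵀ * P * (A * V)).submatrix σ σ := by
      ext i j
      simp [Matrix.mul_apply, Matrix.submatrix_apply]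
    rw [h2, h1]
    ext i j
    simp [Matrix.one_apply]
  · have h1 : (A * V)ᵀ * M * (A * V) = diagonal d := by
      rw [Matrix.transpose_mul, ← hd]
      simp only [Matrix.mul_assoc]
    have h2 : ((A * V).submatrix id σ)ᵀ * M * (A * V).submatrix id σ =
        ((A * V)ᵀ * M * (A * V)).submatrix σ σ := by
      ext i j
      simp [Matrix.mul_apply, Matrix.submatrix_apply]
    rw [h2, h1]
    ext i j
    simp [Matrix.diagonal_apply]

/-- The symmetric tensor with `τ_0 = P` and no pure cubic part. -/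
def extT (P : Matrix (Fin (k + 1)) (Fin (k + 1)) ℝ) : Tens k ℝ := fun a b c =>
  if a = 0 then P b c else if b = 0 then P a c else if c = 0 then P a b else 0

theorem extT_symm (P : Matrix (Fin (k + 1)) (Fin (k + 1)) ℝ) (hP : P.IsSymm) :
    IsSymT (extT P) := by
  have h : ∀ a b, P a b = P b a := fun a b => hP.apply b a
  constructor
  · intro a b c
    unfold extT
    split_ifs <;> simp_all
  · intro a b c
    unfold extT
    split_ifs <;> simp_all

theorem yM_extT (P : Matrix (Fin (k + 1)) (Fin (k + 1)) ℝ) : yM (extT P) = P := by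
  ext a b
  simp [yM, extT]

theorem yM_symm {τ : Tens k ℝ} (hτ : IsSymT τ) : (yM τ).IsSymm := by
  ext a b
  simp only [Matrix.transpose_apply, yM]
  exact hτ.2 0 b a

theorem cube_symm (z : Fin (k + 1) → ℝ) : IsSymT (cube z) :=
  ⟨fun a b c => by simp only [cube]; ring, fun a b c => by simp only [cube]; ring⟩

theorem isSymT_add {σ τ : Tens k ℝ} (hσ : IsSymT σ) (hτ : IsSymT τ) (c : ℝ) :
    IsSymT (fun a b d => σ a b d + c * τ a b d) :=
  ⟨fun a b d => by
    show σ a b d + c * τ a b d = σ b a d + c * τ b a d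
    rw [hσ.1 a b d, hτ.1 a b d], fun a b d => by
    show σ a b d + c * τ a b d = σ a d b + c * τ a d b
    rw [hσ.2 a b d, hτ.2 a b d]⟩

/-- `τ` has a pencil with distinct eigenvalues. -/
def Gen1 (E τ : Tens k ℝ) : Prop :=
  IsSymT τ ∧ ∃ (G : Matrix (Fin (k + 1)) (Fin (k + 1)) ℝ) (d : Fin (k + 1) → ℝ),
    DiagT E τ G d ∧ StrictMono d

/-- `τ` is generic. -/
def Gen (E τ : Tens k ℝ) : Prop :=
  IsSymT τ ∧ ∃ (G : Matrix (Fin (k + 1)) (Fin (k + 1)) ℝ) (d : Fin (k + 1) → ℝ),
    DiagT E τ G d ∧ StrictMono d ∧ ∀ i, UT E τ G d i ≠ 0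

theorem dense_Gen1 (E : Tens k ℝ) (hE : IsSymT E) (hE' : (yM E).PosDef) (τ : Tens k ℝ)
    (hτ : IsSymT τ) : τ ∈ closure {τ' | Gen1 E τ'} := by
  obtain ⟨G, d, hG1, hG2, hd⟩ := exists_simdiag (yM E) (yM τ) hE' (yM_symm hτ)
  -- the perturbation
  set P : Matrix (Fin (k + 1)) (Fin (k + 1)) ℝ :=
    (yM E * G) * diagonal (fun i : Fin (k + 1) => ((i : ℕ) : ℝ)) * (Gᵀ * yM E) with hP
  have hsE := yM_symm hE
  have hPs : P.IsSymm := by
    rw [Matrix.IsSymm, hP]
    simp only [Matrix.transpose_mul, Matrix.transpose_transpose, Matrix.diagonal_transpose,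
      hsE.eq, Matrix.mul_assoc]
  have hGP : Gᵀ * P * G = diagonal (fun i : Fin (k + 1) => ((i : ℕ) : ℝ)) := by
    calc Gᵀ * P * G = (Gᵀ * yM E * G) * diagonal (fun i : Fin (k + 1) => ((i : ℕ) : ℝ)) *
          (Gᵀ * yM E * G) := by rw [hP]; simp only [Matrix.mul_assoc]
      _ = _ := by rw [hG1, Matrix.one_mul, Matrix.mul_one]
  have hlim : Tendsto (fun ε : ℝ => (fun a b c => τ a b c + ε * extT P a b c : Tens k ℝ))
      (𝓝[>] 0) (𝓝 τ) := by
    have hc : Continuous (fun ε : ℝ => (fun a b c => τ a b c + ε * extT P a b c : Tens k ℝ)) :=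
      continuous_pi fun a => continuous_pi fun b => continuous_pi fun c => by fun_prop
    have := hc.tendsto 0
    simp only [zero_mul, add_zero] at this
    exact this.mono_left nhdsWithin_le_nhds
  refine mem_closure_of_tendsto hlim ?_
  filter_upwards [self_mem_nhdsWithin] with ε hε
  refine ⟨isSymT_add hτ (extT_symm P hPs) ε, G, fun i => d i + ε * ((i : ℕ) : ℝ), ⟨hG1, ?_⟩, ?_⟩
  · have : yM (fun a b c => τ a b c + ε * extT P a b c : Tens k ℝ) = yM τ + ε • P := by
      conv_rhs => rw [← yM_extT P]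
      rfl
    rw [this, Matrix.mul_add, Matrix.add_mul, Matrix.mul_smul, Matrix.smul_mul, hG2, hGP]
    ext i j
    by_cases h : i = j <;> simp [h]
  · intro i j hij
    have h1 := hd hij.le
    have h2 : ((i : ℕ) : ℝ) < ((j : ℕ) : ℝ) := by exact_mod_cast hij
    have h3 : (0 : ℝ) < ε := hε
    have := mul_lt_mul_of_pos_left h2 h3
    simp only
    linarith

theorem exists_generic_vec {n : ℕ} (v : Fin n → Fin k → ℝ) :
    ∃ w : Fin k → ℝ, ∀ i, v i ≠ 0 → ∑ a, w a * v i a ≠ 0 := by
  classical
  obtain ⟨w, hw⟩ := Module.Dual.exists_forall_ne_zero_of_forall_exists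
    (K := ℝ) (M := Fin k → ℝ) (ι := {i : Fin n // v i ≠ 0})
    (fun i => Fintype.linearCombination ℝ (fun a => v i.1 a)) (by
      rintro ⟨i, hi⟩
      have : ∃ a, v i a ≠ 0 := by
        by_contra h
        push Not at h
        exact hi (funext h)
      obtain ⟨a, ha⟩ := this
      refine ⟨Pi.single a 1, ?_⟩
      simpa [Fintype.linearCombination_apply, Pi.single_apply] using ha)
  refine ⟨w, fun i hi => ?_⟩
  have := hw ⟨i, hi⟩
  simpa [Fintype.linearCombination_apply] using this

theorem dense_Gen (E : Tens k ℝ) (hk : 1 ≤ k) (hE : IsSymT E) (τ : Tens k ℝ)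
    (h1 : Gen1 E τ) : τ ∈ closure {τ' | Gen E τ'} := by
  obtain ⟨hτ, G, d, hG, hd⟩ := h1
  obtain ⟨w, hw⟩ := exists_generic_vec (k := k) (fun (i : Fin (k + 1)) (a : Fin k) => G a.succ i)
  set z : Fin (k + 1) → ℝ := Fin.cons 0 w with hz
  have hz0 : z 0 = 0 := rfl
  have hzs : ∀ j : Fin k, z j.succ = w j := fun j => rfl
  have hlim : Tendsto (fun ε : ℝ => (fun a b c => τ a b c + ε * cube z a b c : Tens k ℝ))
      (𝓝[≠] 0) (𝓝 τ) := by
    have hc : Continuous (fun ε : ℝ => (fun a b c => τ a b c + ε * cube z a b c : Tens k ℝ)) :=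
      continuous_pi fun a => continuous_pi fun b => continuous_pi fun c => by fun_prop
    have := hc.tendsto 0
    simp only [zero_mul, add_zero] at this
    exact this.mono_left nhdsWithin_le_nhds
  refine mem_closure_of_tendsto hlim ?_
  have hyM : ∀ ε : ℝ, yM (fun a b c => τ a b c + ε * cube z a b c : Tens k ℝ) = yM τ := by
    intro ε
    ext a b
    simp [yM, cube, hz0]
  have hDT : ∀ ε : ℝ, DiagT E (fun a b c => τ a b c + ε * cube z a b c : Tens k ℝ) G d :=
    fun ε => ⟨hG.hE, by rw [hyM]; exact hG.hτ⟩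
  -- `UT` of the perturbed tensor
  have hUT : ∀ (ε : ℝ) (i : Fin (k + 1)) (j l : Fin k),
      UT E (fun a b c => τ a b c + ε * cube z a b c : Tens k ℝ) G d i j l =
        UT E τ G d i j l - ε * ((∑ a, w a * G a.succ i) * (w j * w l)) := by
    intro ε i j l
    simp only [UT, cube, hzs]
    have h2 : ∑ a : Fin (k + 1), z a * G a i = ∑ a : Fin k, w a * G a.succ i := by
      rw [Fin.sum_univ_succ, hz0, zero_mul, zero_add]
      simp only [hzs]
    rw [← h2, Finset.sum_mul, Finset.mul_sum, ← Finset.sum_sub_distrib]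
    refine Finset.sum_congr rfl fun a _ => ?_
    ring
  -- either the old matrix or the perturbation is nonzero
  have hne : ∀ i, (∃ j l, UT E τ G d i j l ≠ 0) ∨
      ((∑ a, w a * G a.succ i) ≠ 0 ∧ ∃ j, w j ≠ 0) := by
    intro i
    by_cases hv : (fun a : Fin k => G a.succ i) = 0
    · left
      by_contra hcon
      push Not at hcon
      have hv' : ∀ a : Fin k, G a.succ i = 0 := fun a => congrFun hv a
      -- the column of `G`
      have hG0 : G 0 i ≠ 0 := by
        intro h0
        have hcol : ∀ a, G a i = 0 := by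
          intro a
          refine Fin.cases h0 hv' a
        have h3 : (Gᵀ * yM E * G) i i = 0 := by
          rw [Matrix.mul_apply]
          exact Finset.sum_eq_zero fun a _ => by rw [hcol a, mul_zero]
        rw [hG.hE] at h3
        simp at h3
      -- `y(d_i)`
      set Y : Matrix (Fin (k + 1)) (Fin (k + 1)) ℝ := d i • yM E - yM τ with hY
      have hGY : Gᵀ * Y * G = diagonal fun j => d i - d j := by
        rw [hY, Matrix.mul_sub, Matrix.sub_mul, Matrix.mul_smul, Matrix.smul_mul, hG.hE, hG.hτ]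
        ext a b
        by_cases h : a = b <;> simp [h]
      have hinv : G * (Gᵀ * yM E) = 1 := by
        have h5 : (Gᵀ * yM E) * G = 1 := hG.hE
        exact mul_eq_one_comm.mp h5
      have hYG : ∀ a, (Y * G) a i = 0 := by
        have h6 : Y * G = (yM E * G) * (Gᵀ * Y * G) := by
          have h7 : (yM E * G) * Gᵀ = 1 := by
            have := congrArg Matrix.transpose hinv
            rw [Matrix.transpose_mul, Matrix.transpose_mul, Matrix.transpose_transpose,
              (yM_symm hE).eq, Matrix.transpose_one] at this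
            exact this
          calc Y * G = ((yM E * G) * Gᵀ) * (Y * G) := by rw [h7, Matrix.one_mul]
            _ = _ := by simp only [Matrix.mul_assoc]
        intro a
        rw [h6, hGY, Matrix.mul_diagonal]
        simp
      have hY0 : ∀ a, Y a 0 = 0 := by
        intro a
        have h8 := hYG a
        rw [Matrix.mul_apply, Fin.sum_univ_succ] at h8
        simp only [hv', mul_zero, Finset.sum_const_zero, add_zero] at h8
        exact (mul_eq_zero.mp h8).resolve_right hG0
      have hYs : ∀ a b, Y a b = Y b a := by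
        intro a b
        have := (yM_symm hE).apply a b
        have := (yM_symm hτ).apply a b
        simp_all
      have hYII : ∀ j l : Fin k, Y j.succ l.succ = 0 := by
        intro j l
        have h9 := hcon j l
        simp only [UT] at h9
        rw [Fin.sum_univ_succ] at h9
        simp only [hv', mul_zero, Finset.sum_const_zero, add_zero] at h9
        have h10 := (mul_eq_zero.mp h9).resolve_right hG0
        have e1 : E j.succ l.succ 0 = E 0 j.succ l.succ := by
          rw [hE.2, hE.1]
        have e2 : τ j.succ l.succ 0 = τ 0 j.succ l.succ := by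
          rw [hτ.2, hτ.1]
        rw [e1, e2] at h10
        simpa [hY, yM] using h10
      have hYz : Y = 0 := by
        ext a b
        refine Fin.cases ?_ (fun j => ?_) a
        · rw [hYs]; simpa using hY0 b
        · refine Fin.cases ?_ (fun l => ?_) b
          · simpa using hY0 _
          · simpa using hYII j l
      rw [hYz, Matrix.mul_zero, Matrix.zero_mul] at hGY
      -- two different indices
      obtain ⟨j, hj⟩ : ∃ j : Fin (k + 1), j ≠ i := by
        have : Nontrivial (Fin (k + 1)) := Fin.nontrivial_iff_two_le.mpr (by omega)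
        exact exists_ne i
      have h11 := congrFun (congrFun hGY j) j
      simp only [Matrix.zero_apply, Matrix.diagonal_apply_eq] at h11
      exact hj (hd.injective (by linarith))
    · right
      have h12 := hw i hv
      refine ⟨h12, ?_⟩
      by_contra hcon
      push Not at hcon
      apply h12
      exact Finset.sum_eq_zero fun a _ => by rw [hcon a, zero_mul]
  -- eventually generic
  have hev : ∀ i, ∀ᶠ ε in 𝓝[≠] (0 : ℝ),
      UT E (fun a b c => τ a b c + ε * cube z a b c : Tens k ℝ) G d i ≠ 0 := by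
    intro i
    by_cases hA : ∃ j l, UT E τ G d i j l ≠ 0
    · obtain ⟨j, l, hjl⟩ := hA
      have hc : Continuous fun ε : ℝ =>
          UT E τ G d i j l - ε * ((∑ a, w a * G a.succ i) * (w j * w l)) := by fun_prop
      have h13 : ∀ᶠ ε in 𝓝 (0 : ℝ),
          UT E τ G d i j l - ε * ((∑ a, w a * G a.succ i) * (w j * w l)) ≠ 0 := by
        refine hc.continuousAt.eventually_ne ?_
        simpa using hjl
      filter_upwards [h13.filter_mono nhdsWithin_le_nhds] with ε hε
      intro h14
      apply hε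
      rw [← hUT, h14]
      rfl
    · obtain hA' | ⟨h15, j, hj⟩ := hne i
      · exact absurd hA' hA
      · push Not at hA
        filter_upwards [self_mem_nhdsWithin] with ε hε
        intro h14
        have h16 := congrFun (congrFun h14 j) j
        rw [hUT, hA j j] at h16
        have h17 : ε * ((∑ a, w a * G a.succ i) * (w j * w j)) ≠ 0 :=
          mul_ne_zero hε (mul_ne_zero h15 (mul_ne_zero hj hj))
        apply h17
        simpa using h16
  filter_upwards [Filter.eventually_all.mpr hev] with ε hε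
  exact ⟨isSymT_add hτ (cube_symm z) ε, G, d, hDT ε, hd, hε⟩

theorem dense (E : Tens k ℝ) (hk : 1 ≤ k) (hE : IsSymT E) (hE' : (yM E).PosDef) (τ : Tens k ℝ)
    (hτ : IsSymT τ) : τ ∈ closure {τ' | Gen E τ'} := by
  have h1 := dense_Gen1 E hE hE' τ hτ
  have h2 : closure {τ' | Gen1 E τ'} ⊆ closure {τ' | Gen E τ'} :=
    closure_minimal (fun τ' h => dense_Gen E hk hE τ' h) isClosed_closure
  exact h2 h1

end B2b

end Vale.Agent.P256.PL
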