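import Vale.Agent.P256.PL.B2bDeg
import Vale.Agent.P256.PL.B2bDens

/-!
# P256: `StmtB1` and `StmtB2a` imply `StmtB2`.
-/

namespace Vale.Agent.P256.PL

open MvPolynomial Matrix Filter Topology

namespace B2b

variable {k : ℕ}

theorem eval_penT (E τ : Tens k ℝ) (t : ℝ) (a b c : Fin (k + 1)) :
    (penT E τ a b c).eval t = t * E a b c - τ a b c := by
  simp [penT, -Polynomial.X_mul_C]

theorem eval_Rpen (E τ : Tens k ℝ) (t : ℝ) (i j l m : Fin k) :
    (Rpen E τ i j l m).eval t = alt (Xt fun a b c => t * E a b c - τ a b c) i j l m := by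
  have h : ∀ i j l m, (Xt (penT E τ) i j l m).eval t =
      Xt (fun a b c => t * E a b c - τ a b c) i j l m := by
    intro i j l m
    have := Xt_map (Polynomial.aeval t : Polynomial ℝ →ₐ[ℝ] ℝ) (penT E τ) i j l m
    rw [← Polynomial.coe_aeval_eq_eval]
    change Polynomial.aeval t _ = _
    rw [← this]
    congr 1
    funext a b c
    rw [← eval_penT, ← Polynomial.coe_aeval_eq_eval]
  simp only [Rpen, alt, Polynomial.eval_sub, h]

theorem pencil_symm {E τ : Tens k ℝ} (hE : IsSymT E) (hτ : IsSymT τ) (t : ℝ) :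
    IsSymT (fun a b c => t * E a b c - τ a b c) :=
  ⟨fun a b c => by
    show t * E a b c - τ a b c = t * E b a c - τ b a c
    rw [hE.1 a b c, hτ.1 a b c], fun a b c => by
    show t * E a b c - τ a b c = t * E a c b - τ a c b
    rw [hE.2 a b c, hτ.2 a b c]⟩

/-- The generic case. -/
theorem bound_gen (h1 : StmtB1) (h2 : StmtB2a) (k m : ℕ) (B : Set (E4 k ℝ))
    (Q : MvPolynomial (Option (Idx4 k)) ℝ) (N : E4 k ℝ) (E : Tens k ℝ) (sE : ℝ) (hk : 1 ≤ k)
    (hQ : GoodQ B m Q) (hB : ∀ (c : ℝ) (R), R ∈ B → c • R ∈ B)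
    (hX : ∀ τ : Tens k ℝ, IsSymT τ → alt (Xt τ) ∈ B) (hD : DomQ Q N)
    (hE : IsSymT E) (hE1 : (yM E).PosDef) (hE2 : alt (Xt E) = 0)
    (hE3 : pairing N (Xt E) < sE * (yM E).det) (τ : Tens k ℝ) (s : ℝ) (hτ : Gen E τ) (t : ℂ) :
    |pf Q N E sE| * |t.im| ^ ((k + 2) * (2 * m)) ≤
      ‖pf Q N (fun a b c => t * (E a b c : ℂ) - (τ a b c : ℂ)) (t * (sE : ℂ) - (s : ℂ))‖ := by
  obtain ⟨hτs, G, d, hG, hd, hU⟩ := hτ
  obtain ⟨T, hT1, hT2, hT3⟩ := h2 k m B Q N E sE hk hQ hB hX hD hE hE1 hE2 hE3 τ s G d hτs hG hd hU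
  have hc0 : pf Q N E sE ≠ 0 := by
    rw [pf_e Q N E sE hQ.hom hQ.lead hE2]
    exact pow_ne_zero _ (sub_pos.mpr hE3).ne'
  obtain ⟨hdeg, hlead⟩ := fpen_deg Q N E sE τ s hQ.hom hc0
  have hne : Qev Q (Spen N E sE τ s) (Rpen E τ) ≠ 0 := by
    intro h
    apply hc0
    rw [← hlead]
    unfold fpen
    rw [h]; simp
  have hcard := h1 k m B Q (k + 2) T (Spen N E sE τ s) (Rpen E τ) hQ hB (by
      intro t
      have : (fun i j l m => (Rpen E τ i j l m).eval t) =
          alt (Xt fun a b c => t * E a b c - τ a b c) := by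
        funext i j l m; exact eval_Rpen E τ t i j l m
      rw [this]
      exact hX _ (pencil_symm hE hτs t)) hT1 hT2 hT3 hne
  have hcard2 := Polynomial.card_roots' (fpen Q N E sE τ s)
  have hcard3 : Multiset.card (fpen Q N E sE τ s).roots = (fpen Q N E sE τ s).natDegree := by
    refine le_antisymm hcard2 ?_
    rw [hdeg]
    calc (k + 2) * (2 * m) = 2 * m * (k + 2) := by ring
      _ ≤ _ := hcard
  rw [← aeval_fpen]
  exact norm_aeval_ge _ _ _ hdeg hlead hcard3 t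

/-- `StmtB2` from `StmtB1` and `StmtB2a`. -/
theorem stmtB2_of (h1 : StmtB1) (h2 : StmtB2a) : StmtB2 := by
  intro k m B Q N E sE hk hQ hB hX hD hE hE1 hE2 hE3 τ s hτ t ht
  have hc0 : pf Q N E sE ≠ 0 := by
    rw [pf_e Q N E sE hQ.hom hQ.lead hE2]
    exact pow_ne_zero _ (sub_pos.mpr hE3).ne'
  have hclosed : IsClosed {τ' : Tens k ℝ | |pf Q N E sE| * |t.im| ^ ((k + 2) * (2 * m)) ≤
      ‖pf Q N (fun a b c => t * (E a b c : ℂ) - (τ' a b c : ℂ)) (t * (sE : ℂ) - (s : ℂ))‖} := by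
    refine isClosed_le continuous_const (Continuous.norm ?_)
    refine continuous_pf Q N _ _ ?_ continuous_const
    intro a b c
    refine continuous_const.sub ?_
    exact Complex.continuous_ofReal.comp
      ((continuous_apply c).comp ((continuous_apply b).comp (continuous_apply a)))
  have hsub : closure {τ' | Gen E τ'} ⊆ {τ' : Tens k ℝ |
      |pf Q N E sE| * |t.im| ^ ((k + 2) * (2 * m)) ≤
      ‖pf Q N (fun a b c => t * (E a b c : ℂ) - (τ' a b c : ℂ)) (t * (sE : ℂ) - (s : ℂ))‖} :=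
    closure_minimal (fun τ' h =>
      bound_gen h1 h2 k m B Q N E sE hk hQ hB hX hD hE hE1 hE2 hE3 τ' s h t) hclosed
  have h := hsub (dense E hk hE hE1 τ hτ)
  change |pf Q N E sE| * |t.im| ^ ((k + 2) * (2 * m)) ≤
      ‖pf Q N (fun a b c => t * (E a b c : ℂ) - (τ a b c : ℂ)) (t * (sE : ℂ) - (s : ℂ))‖ at h
  rw [ht, norm_zero] at h
  have h3 : |t.im| ^ ((k + 2) * (2 * m)) ≤ 0 := by
    by_contra hcon
    push Not at hcon
    have := mul_pos (abs_pos.mpr hc0) hcon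
    linarith
  have h4 : |t.im| ^ ((k + 2) * (2 * m)) = 0 := le_antisymm h3 (by positivity)
  exact abs_eq_zero.mp (eq_zero_of_pow_eq_zero h4)

end B2b

end Vale.Agent.P256.PL
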