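import Vale.Agent.P256.PL.B1
import Vale.Agent.P256.PL.B2a
import Vale.Agent.P256.PL.B2b

/-!
# P256: `StmtB2`.
-/

namespace Vale.Agent.P256.PL

/-- **B2.** -/
theorem stmtB2 : StmtB2 := B2b.stmtB2_of stmtB1 stmtB2a

end Vale.Agent.P256.PL
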