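import Vale.Agent.P256.PL.Stmts

/-!
# P256: StmtB2, the pencil `t E - τ` and the statement of its structure (module B2a).
-/

namespace Vale.Agent.P256.PL

open MvPolynomial Matrix

/-- The pencil `t E - τ` with entries in `ℝ[t]`. -/
noncomputable def penT {k : ℕ} (E τ : Tens k ℝ) : Tens k (Polynomial ℝ) := fun a b c =>
  Polynomial.X * Polynomial.C (E a b c) - Polynomial.C (τ a b c)

/-- The linear form `t sE - s`. -/
noncomputable def penS (sE s : ℝ) : Polynomial ℝ :=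
  Polynomial.X * Polynomial.C sE - Polynomial.C s

/-- `S(t) = s(t) det y(t) - ⟨N, Xt(t)⟩`. -/
noncomputable def Spen {k : ℕ} (N : E4 k ℝ) (E : Tens k ℝ) (sE : ℝ) (τ : Tens k ℝ) (s : ℝ) :
    Polynomial ℝ :=
  penS sE s * (yM (penT E τ)).det -
    pairing (fun i j l m => algebraMap ℝ (Polynomial ℝ) (N i j l m)) (Xt (penT E τ))

/-- `R(t) = alt (Xt (t E - τ))`. -/
noncomputable def Rpen {k : ℕ} (E τ : Tens k ℝ) : E4 k (Polynomial ℝ) := alt (Xt (penT E τ))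

/-- Simultaneous diagonalisation of `y_E` and `y_τ`. -/
structure DiagT {k : ℕ} (E τ : Tens k ℝ) (G : Matrix (Fin (k + 1)) (Fin (k + 1)) ℝ)
    (d : Fin (k + 1) → ℝ) : Prop where
  hE : Gᵀ * yM E * G = 1
  hτ : Gᵀ * yM τ * G = diagonal d

/-- The matrix `U_i = (d_i E - τ).g_i` on the indices `I`, `g_i` the `i`-th column of `G`. -/
def UT {k : ℕ} (E τ : Tens k ℝ) (G : Matrix (Fin (k + 1)) (Fin (k + 1)) ℝ)
    (d : Fin (k + 1) → ℝ) (i : Fin (k + 1)) : Matrix (Fin k) (Fin k) ℝ := fun j l =>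
  ∑ a, (d i * E j.succ l.succ a - τ j.succ l.succ a) * G a i

/-- B2a. For a generic pencil the points `T i` of `StmtB1` exist (`n = k + 2`). -/
def StmtB2a : Prop :=
  ∀ (k m : ℕ) (B : Set (E4 k ℝ)) (Q : MvPolynomial (Option (Idx4 k)) ℝ) (N : E4 k ℝ)
    (E : Tens k ℝ) (sE : ℝ), 1 ≤ k →
    GoodQ B m Q → (∀ (c : ℝ) (R), R ∈ B → c • R ∈ B) →
    (∀ τ : Tens k ℝ, IsSymT τ → alt (Xt τ) ∈ B) → DomQ Q N →
    IsSymT E → (yM E).PosDef → alt (Xt E) = 0 → pairing N (Xt E) < sE * (yM E).det →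
    ∀ (τ : Tens k ℝ) (s : ℝ) (G : Matrix (Fin (k + 1)) (Fin (k + 1)) ℝ) (d : Fin (k + 1) → ℝ),
      IsSymT τ → DiagT E τ G d → StrictMono d → (∀ i, UT E τ G d i ≠ 0) →
      ∃ T : ℕ → ℝ, (∀ i, i < k + 2 → T i < T (i + 1)) ∧
        (∀ i, i ≤ k + 2 → (Spen N E sE τ s).eval (T i) ≠ 0 ∧
          ∀ σ : ℝ, |(Spen N E sE τ s).eval (T i)| ≤ |σ| →
            0 < Qev Q σ (fun i' j l m => (Rpen E τ i' j l m).eval (T i))) ∧
        (∀ i, i < k + 2 → (Spen N E sE τ s).eval (T i) * (Spen N E sE τ s).eval (T (i + 1)) < 0)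

end Vale.Agent.P256.PL
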