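import Vale.Agent.P256.PL.B2bMap

/-!
# P256: degree and leading coefficient of `p(t e - x)`; lower bound for real-rooted polynomials.
-/

namespace Vale.Agent.P256.PL

open MvPolynomial Matrix Filter Topology

namespace B2b

/-- A real polynomial of degree `D` and leading coefficient `c` with `D` real roots satisfies
`|c| |Im t|^D ≤ |f(t)|`. -/
theorem norm_aeval_ge (f : Polynomial ℝ) (D : ℕ) (c : ℝ) (hD : f.natDegree = D)
    (hc : f.leadingCoeff = c) (hr : Multiset.card f.roots = f.natDegree) (t : ℂ) :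
    |c| * |t.im| ^ D ≤ ‖Polynomial.aeval t f‖ := by
  have h := Polynomial.C_leadingCoeff_mul_prod_multiset_X_sub_C hr
  rw [← h, map_mul, Polynomial.aeval_C, norm_mul, hc]
  refine mul_le_mul ?_ ?_ (by positivity) (by positivity)
  · simp
  · rw [← hD, ← hr]
    generalize f.roots = M
    induction M using Multiset.induction_on with
    | empty => simp
    | cons a M ih =>
      simp only [Multiset.map_cons, Multiset.prod_cons, map_mul, norm_mul, Multiset.card_cons,
        pow_succ]
      rw [mul_comm]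
      refine mul_le_mul ?_ ?_ (by positivity) (by positivity)
      · simp only [map_sub, Polynomial.aeval_X, Polynomial.aeval_C]
        refine le_trans ?_ (Complex.abs_im_le_norm _)
        simp
      · simpa using ih

/-- If `f(t)/t^D → c ≠ 0` at infinity then `f` has degree `D` and leading coefficient `c`. -/
theorem deg_of_tendsto (f : Polynomial ℝ) (D : ℕ) (c : ℝ) (hc : c ≠ 0)
    (h : Tendsto (fun t : ℝ => f.eval t / t ^ D) atTop (𝓝 c)) :
    f.natDegree = D ∧ f.leadingCoeff = c := by
  have hX : ∀ t : ℝ, Polynomial.eval t (Polynomial.X ^ D : Polynomial ℝ) = t ^ D := by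
    intro t; simp
  have h' : Tendsto (fun t : ℝ => f.eval t / Polynomial.eval t (Polynomial.X ^ D : Polynomial ℝ))
      atTop (𝓝 c) := by simpa using h
  have hdeg : f.degree = (Polynomial.X ^ D : Polynomial ℝ).degree := by
    rcases lt_trichotomy f.degree (Polynomial.X ^ D : Polynomial ℝ).degree with hlt | heq | hgt
    · exact absurd (tendsto_nhds_unique h' (Polynomial.div_tendsto_atTop_zero_of_degree_lt _ _ hlt)) hc
    · exact heq
    · exfalso
      have := Polynomial.abs_div_tendsto_atTop_atTop_of_degree_gt _ _ hgt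
        (pow_ne_zero _ Polynomial.X_ne_zero)
      exact not_tendsto_nhds_of_tendsto_atTop this |c| h'.abs
  have hl := tendsto_nhds_unique h' (Polynomial.div_tendsto_atTop_leadingCoeff_div_of_degree_eq _ _ hdeg)
  refine ⟨?_, ?_⟩
  · rw [Polynomial.degree_X_pow] at hdeg
    exact Polynomial.natDegree_eq_of_degree_eq_some hdeg
  · rw [hl]; simp

section

variable {k : ℕ} (Q : MvPolynomial (Option (Idx4 k)) ℝ) (N : E4 k ℝ) (E : Tens k ℝ) (sE : ℝ)
  (τ : Tens k ℝ) (s : ℝ)

/-- The polynomial `p(t e - x)`. -/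
noncomputable def fpen : Polynomial ℝ := Qev Q (Spen N E sE τ s) (Rpen E τ)

theorem fpen_eq : fpen Q N E sE τ s = pf Q N (penT E τ) (penS sE s) := rfl

theorem eval_fpen (t : ℝ) :
    (fpen Q N E sE τ s).eval t = pf Q N (fun a b c => t * E a b c - τ a b c) (t * sE - s) := by
  have h := pf_map (Polynomial.aeval t : Polynomial ℝ →ₐ[ℝ] ℝ) Q N (penT E τ) (penS sE s)
  rw [fpen_eq, ← Polynomial.coe_aeval_eq_eval]
  change Polynomial.aeval t _ = _
  rw [h]
  simp [penT, penS, -Polynomial.X_mul_C]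

theorem aeval_fpen (t : ℂ) :
    Polynomial.aeval t (fpen Q N E sE τ s) =
      pf Q N (fun a b c => t * (E a b c : ℂ) - (τ a b c : ℂ)) (t * (sE : ℂ) - (s : ℂ)) := by
  have h := pf_map (Polynomial.aeval t : Polynomial ℝ →ₐ[ℝ] ℂ) Q N (penT E τ) (penS sE s)
  rw [fpen_eq, h]
  simp [penT, penS, -Polynomial.X_mul_C]

/-- `p(e)`. -/
theorem pf_e {m : ℕ} (hQ : Q.IsHomogeneous m) (hl : Qev Q (1 : ℝ) 0 = 1)
    (hE : alt (Xt E) = 0) :
    pf Q N E sE = (sE * (yM E).det - pairing N (Xt E)) ^ m := by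
  unfold pf
  have h := Qev_smul Q hQ (sE * (yM E).det - pairing N (Xt E)) (1 : ℝ) (0 : E4 k ℝ)
  rw [hl, mul_one, mul_one] at h
  rw [← h, hE]
  congr 1
  funext i j l m
  simp

theorem tendsto_fpen {n : ℕ} (hQ : Q.IsHomogeneous n) :
    Tendsto (fun t : ℝ => (fpen Q N E sE τ s).eval t / t ^ ((k + 2) * n)) atTop
      (𝓝 (pf Q N E sE)) := by
  have hcont : Continuous fun u : ℝ =>
      pf Q N (fun a b c => E a b c - u * τ a b c) (sE - u * s) := by
    refine continuous_pf Q N _ _ ?_ ?_
    · intro a b c; fun_prop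
    · fun_prop
  have h0 : Tendsto (fun u : ℝ =>
      pf Q N (fun a b c => E a b c - u * τ a b c) (sE - u * s)) (𝓝 0) (𝓝 (pf Q N E sE)) := by
    have := hcont.tendsto 0
    simpa using this
  have h1 := h0.comp (tendsto_inv_atTop_zero (𝕜 := ℝ))
  refine h1.congr' ?_
  filter_upwards [eventually_gt_atTop (0 : ℝ)] with t ht
  simp only [Function.comp]
  rw [eval_fpen, eq_div_iff (by positivity), mul_comm, ← pf_smul Q hQ]
  congr 1
  · funext a b c
    field_simp
  · field_simp

theorem fpen_deg {n : ℕ} (hQ : Q.IsHomogeneous n) (h0 : pf Q N E sE ≠ 0) :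
    (fpen Q N E sE τ s).natDegree = (k + 2) * n ∧
      (fpen Q N E sE τ s).leadingCoeff = pf Q N E sE :=
  deg_of_tendsto _ _ _ h0 (tendsto_fpen Q N E sE τ s hQ)

end

end B2b

end Vale.Agent.P256.PL
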