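import Vale.Agent.P256.PL.B2Defs

/-!
# P256: naturality, homogeneity and continuity of `Qev` and `pf`.
-/

set_option linter.unusedSectionVars false

namespace Vale.Agent.P256.PL

open MvPolynomial Matrix

namespace B2b

section maps

variable {k : ℕ} {A A' : Type*} [CommRing A] [CommRing A'] [Algebra ℝ A] [Algebra ℝ A']

theorem Qev_map (φ : A →ₐ[ℝ] A') (Q : MvPolynomial (Option (Idx4 k)) ℝ) (σ : A) (R : E4 k A) :
    φ (Qev Q σ R) = Qev Q (φ σ) (fun i j l m => φ (R i j l m)) := by
  unfold Qev
  rw [← AlgHom.comp_apply, MvPolynomial.comp_aeval]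
  congr 1
  congr 1
  funext o
  cases o <;> rfl

theorem yM_map (φ : A →ₐ[ℝ] A') (τ : Tens k A) :
    yM (fun a b c => φ (τ a b c)) = (yM τ).map φ := rfl

theorem adj_map (φ : A →ₐ[ℝ] A') (τ : Tens k A) :
    (yM (fun a b c => φ (τ a b c))).adjugate = (yM τ).adjugate.map φ := by
  rw [yM_map]
  exact ((φ : A →+* A').map_adjugate (yM τ)).symm

theorem det_map (φ : A →ₐ[ℝ] A') (τ : Tens k A) :
    (yM (fun a b c => φ (τ a b c))).det = φ (yM τ).det := by
  rw [yM_map]
  exact ((φ : A →+* A').map_det (yM τ)).symm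

theorem Xt_map (φ : A →ₐ[ℝ] A') (τ : Tens k A) (i j l m : Fin k) :
    Xt (fun a b c => φ (τ a b c)) i j l m = φ (Xt τ i j l m) := by
  unfold Xt
  rw [adj_map]
  simp [map_sum, Matrix.map_apply]

theorem alt_map (φ : A →ₐ[ℝ] A') (X : E4 k A) (i j l m : Fin k) :
    alt (fun i j l m => φ (X i j l m)) i j l m = φ (alt X i j l m) := by
  simp [alt]

theorem pairing_map (φ : A →ₐ[ℝ] A') (N X : E4 k A) :
    pairing (fun i j l m => φ (N i j l m)) (fun i j l m => φ (X i j l m)) = φ (pairing N X) := by
  simp [pairing, map_sum]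

theorem pf_map (φ : A →ₐ[ℝ] A') (Q : MvPolynomial (Option (Idx4 k)) ℝ) (N : E4 k ℝ)
    (τ : Tens k A) (s : A) :
    φ (pf Q N τ s) = pf Q N (fun a b c => φ (τ a b c)) (φ s) := by
  unfold pf
  rw [Qev_map]
  have h1 : Xt (fun a b c => φ (τ a b c)) = fun i j l m => φ (Xt τ i j l m) := by
    funext i j l m; exact Xt_map φ τ i j l m
  have h2 : (fun i j l m => algebraMap ℝ A' (N i j l m)) =
      fun i j l m => φ (algebraMap ℝ A (N i j l m)) := by
    funext i j l m; exact (φ.commutes _).symm
  rw [h1, h2, pairing_map, det_map]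
  congr 1
  · simp
  · funext i j l m
    exact (alt_map φ (Xt τ) i j l m).symm

end maps

section homog

variable {k : ℕ} {A : Type*} [CommRing A] [Algebra ℝ A]

theorem aeval_smul_hom {ι : Type*} [Fintype ι] (Q : MvPolynomial ι ℝ) {n : ℕ}
    (hQ : Q.IsHomogeneous n) (c : A) (v : ι → A) :
    aeval (fun o => c * v o) Q = c ^ n * aeval v Q := by
  rw [MvPolynomial.aeval_def, MvPolynomial.aeval_def, MvPolynomial.eval₂_eq',
    MvPolynomial.eval₂_eq', Finset.mul_sum]
  refine Finset.sum_congr rfl fun d hd => ?_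
  have h1 : ∑ i, d i = n := by
    have := hQ (MvPolynomial.mem_support_iff.mp hd)
    rw [Finsupp.weight_apply, Finsupp.sum_fintype _ _ (by simp)] at this
    simpa using this
  have h2 : ∏ i, (c * v i) ^ d i = c ^ n * ∏ i, v i ^ d i := by
    rw [← h1, ← Finset.prod_pow_eq_pow_sum, ← Finset.prod_mul_distrib]
    exact Finset.prod_congr rfl fun i _ => mul_pow _ _ _
  rw [h2]
  ring

theorem Qev_smul (Q : MvPolynomial (Option (Idx4 k)) ℝ) {n : ℕ} (hQ : Q.IsHomogeneous n)
    (c : A) (σ : A) (R : E4 k A) :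
    Qev Q (c * σ) (fun i j l m => c * R i j l m) = c ^ n * Qev Q σ R := by
  unfold Qev
  rw [← aeval_smul_hom Q hQ]
  congr 1
  congr 1
  funext o
  cases o <;> rfl

theorem yM_smul (c : A) (τ : Tens k A) : yM (fun a b d => c * τ a b d) = c • yM τ := rfl

theorem det_smul' (c : A) (τ : Tens k A) :
    (yM (fun a b d => c * τ a b d)).det = c ^ (k + 1) * (yM τ).det := by
  rw [yM_smul, Matrix.det_smul]
  simp

theorem Xt_smul (c : A) (τ : Tens k A) (i j l m : Fin k) :
    Xt (fun a b d => c * τ a b d) i j l m = c ^ (k + 2) * Xt τ i j l m := by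
  unfold Xt
  rw [yM_smul, Matrix.adjugate_smul, Finset.mul_sum]
  refine Finset.sum_congr rfl fun a _ => ?_
  rw [Finset.mul_sum]
  refine Finset.sum_congr rfl fun b _ => ?_
  simp only [Matrix.smul_apply, smul_eq_mul, Fintype.card_fin, Nat.add_sub_cancel]
  ring

theorem alt_smul' (c : A) (X : E4 k A) (i j l m : Fin k) :
    alt (fun i j l m => c * X i j l m) i j l m = c * alt X i j l m := by
  simp only [alt]; ring

theorem pairing_smul' (c : A) (N X : E4 k A) :
    pairing N (fun i j l m => c * X i j l m) = c * pairing N X := by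
  simp only [pairing, Finset.mul_sum]
  refine Finset.sum_congr rfl fun _ _ => Finset.sum_congr rfl fun _ _ =>
    Finset.sum_congr rfl fun _ _ => Finset.sum_congr rfl fun _ _ => by ring

theorem pf_smul (Q : MvPolynomial (Option (Idx4 k)) ℝ) {n : ℕ} (hQ : Q.IsHomogeneous n)
    (N : E4 k ℝ) (c : A) (τ : Tens k A) (s : A) :
    pf Q N (fun a b d => c * τ a b d) (c * s) = c ^ ((k + 2) * n) * pf Q N τ s := by
  unfold pf
  have h1 : Xt (fun a b d => c * τ a b d) = fun i j l m => c ^ (k + 2) * Xt τ i j l m := by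
    funext i j l m; exact Xt_smul c τ i j l m
  rw [h1, pairing_smul', det_smul', pow_mul, ← Qev_smul Q hQ]
  congr 1
  · ring
  · funext i j l m
    exact alt_smul' _ _ i j l m

end homog

section cont

variable {k : ℕ} {A : Type*} [CommRing A] [Algebra ℝ A] [TopologicalSpace A]
  [IsTopologicalRing A] [ContinuousSMul ℝ A]

theorem continuous_aeval' {ι X : Type*} [TopologicalSpace X] (Q : MvPolynomial ι ℝ)
    (v : X → ι → A) (hv : ∀ o, Continuous fun x => v x o) :
    Continuous fun x => aeval (v x) Q := by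
  induction Q using MvPolynomial.induction_on with
  | C a => simpa using continuous_const
  | add p q hp hq => simp only [map_add]; exact hp.add hq
  | mul_X p i hp => simp only [map_mul, aeval_X]; exact hp.mul (hv i)

theorem continuous_Qev {X : Type*} [TopologicalSpace X] (Q : MvPolynomial (Option (Idx4 k)) ℝ)
    (σ : X → A) (R : X → E4 k A) (hσ : Continuous σ)
    (hR : ∀ i j l m, Continuous fun x => R x i j l m) :
    Continuous fun x => Qev Q (σ x) (R x) := by
  unfold Qev
  refine continuous_aeval' Q _ fun o => ?_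
  cases o with
  | none => exact hσ
  | some q => exact hR _ _ _ _

theorem continuous_yM {X : Type*} [TopologicalSpace X] (τ : X → Tens k A)
    (hτ : ∀ a b c, Continuous fun x => τ x a b c) : Continuous fun x => yM (τ x) :=
  continuous_pi fun a => continuous_pi fun b => hτ 0 a b

theorem continuous_Xt {X : Type*} [TopologicalSpace X] (τ : X → Tens k A)
    (hτ : ∀ a b c, Continuous fun x => τ x a b c) (i j l m : Fin k) :
    Continuous fun x => Xt (τ x) i j l m := by
  unfold Xt
  have hadj : Continuous fun x => (yM (τ x)).adjugate := (continuous_yM τ hτ).matrix_adjugate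
  refine continuous_finsetSum _ fun a _ => continuous_finsetSum _ fun b _ => ?_
  exact ((hτ _ _ _).mul (hadj.matrix_elem a b)).mul (hτ _ _ _)

theorem continuous_pf {X : Type*} [TopologicalSpace X] (Q : MvPolynomial (Option (Idx4 k)) ℝ)
    (N : E4 k ℝ) (τ : X → Tens k A) (s : X → A)
    (hτ : ∀ a b c, Continuous fun x => τ x a b c) (hs : Continuous s) :
    Continuous fun x => pf Q N (τ x) (s x) := by
  unfold pf
  refine continuous_Qev Q _ _ ?_ ?_
  · refine (hs.mul (continuous_yM τ hτ).matrix_det).sub ?_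
    unfold pairing
    refine continuous_finsetSum _ fun i _ => continuous_finsetSum _ fun j _ =>
      continuous_finsetSum _ fun l _ => continuous_finsetSum _ fun m _ => ?_
    exact continuous_const.mul (continuous_Xt τ hτ i j l m)
  · intro i j l m
    simp only [alt]
    exact (continuous_Xt τ hτ _ _ _ _).sub (continuous_Xt τ hτ _ _ _ _)

end cont

end B2b

end Vale.Agent.P256.PL
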