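import Vale.Agent.P256.PL.Stmts

/-!
# P256, section 1: simultaneous diagonalisation and the adjugate of a pencil at its zeros
-/

namespace Vale.Agent.P256.PL.B2d

open Matrix

variable {n : ℕ}

/-- Orthogonal diagonalisation with ordered eigenvalues not required. -/
theorem exists_orthogonal_diag (M : Matrix (Fin n) (Fin n) ℝ) (hM : M.IsSymm) :
    ∃ (O : Matrix (Fin n) (Fin n) ℝ) (d : Fin n → ℝ), Oᵀ * O = 1 ∧ Oᵀ * M * O = diagonal d := by
  have hH : M.IsHermitian := by
    rw [Matrix.IsHermitian, Matrix.conjTranspose_eq_transpose_of_trivial]; exact hM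
  refine ⟨(hH.eigenvectorUnitary : Matrix (Fin n) (Fin n) ℝ), hH.eigenvalues, ?_, ?_⟩
  · have := Unitary.coe_star_mul_self hH.eigenvectorUnitary
    rwa [Matrix.star_eq_conjTranspose, Matrix.conjTranspose_eq_transpose_of_trivial] at this
  · have h := hH.conjStarAlgAut_star_eigenvectorUnitary
    rw [Unitary.conjStarAlgAut_star_apply] at h
    rw [Matrix.star_eq_conjTranspose, Matrix.conjTranspose_eq_transpose_of_trivial] at h
    rw [h]
    ext i j
    simp [Matrix.diagonal, Function.comp]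

/-- Cholesky-like factorisation. -/
theorem exists_factor (Y : Matrix (Fin n) (Fin n) ℝ) (hY : Y.PosDef) :
    ∃ B : Matrix (Fin n) (Fin n) ℝ, Bᵀ * Y * B = 1 ∧ B.det ≠ 0 := by
  have hs : Y.IsSymm := by
    have := hY.isHermitian
    rwa [Matrix.IsHermitian, Matrix.conjTranspose_eq_transpose_of_trivial] at this
  obtain ⟨O, d, hO, hd⟩ := exists_orthogonal_diag Y hs
  have hOd : O.det ≠ 0 := by
    intro h0
    have := congrArg Matrix.det hO
    rw [Matrix.det_mul, h0, mul_zero, Matrix.det_one] at this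
    exact zero_ne_one this
  have hpos : ∀ i, 0 < d i := by
    intro i
    have h1 : d i = (O.col i) ⬝ᵥ (Y *ᵥ (O.col i)) := by
      have h2 : (Oᵀ * Y * O) i i = d i := by rw [hd]; simp
      rw [← h2, Matrix.mul_assoc, Matrix.mul_apply]
      rfl
    have h3 : O.col i ≠ 0 := by
      intro h0
      have : (Oᵀ * O) i i = 1 := by rw [hO]; simp
      rw [Matrix.mul_apply] at this
      have h4 : ∀ j, O j i = 0 := fun j => congrFun h0 j
      simp [Matrix.transpose_apply, h4] at this
    rw [h1]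
    have := hY.dotProduct_mulVec_pos h3
    simpa using this
  refine ⟨O * diagonal (fun i => (Real.sqrt (d i))⁻¹), ?_, ?_⟩
  · rw [Matrix.transpose_mul, Matrix.diagonal_transpose]
    have : diagonal (fun i => (Real.sqrt (d i))⁻¹) * Oᵀ * Y *
        (O * diagonal (fun i => (Real.sqrt (d i))⁻¹)) =
        diagonal (fun i => (Real.sqrt (d i))⁻¹) * (Oᵀ * Y * O) *
          diagonal (fun i => (Real.sqrt (d i))⁻¹) := by
      simp only [Matrix.mul_assoc]
    rw [this, hd, Matrix.diagonal_mul_diagonal, Matrix.diagonal_mul_diagonal]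
    ext i j
    by_cases hij : i = j
    · subst hij
      have h5 : Real.sqrt (d i) ≠ 0 := (Real.sqrt_pos.2 (hpos i)).ne'
      have h6 : Real.sqrt (d i) * Real.sqrt (d i) = d i := Real.mul_self_sqrt (hpos i).le
      simp only [Matrix.diagonal_apply_eq, Matrix.one_apply_eq]
      field_simp
      nlinarith [h6]
    · simp [Matrix.diagonal_apply_ne _ hij, Matrix.one_apply_ne hij]
  · rw [Matrix.det_mul, Matrix.det_diagonal]
    refine mul_ne_zero hOd (Finset.prod_ne_zero_iff.2 fun i _ => ?_)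
    exact inv_ne_zero (Real.sqrt_pos.2 (hpos i)).ne'

/-- Simultaneous diagonalisation. -/
theorem simul_diag (Y L : Matrix (Fin n) (Fin n) ℝ) (hY : Y.PosDef) (hL : L.IsSymm) :
    ∃ (G : Matrix (Fin n) (Fin n) ℝ) (t : Fin n → ℝ), G.det ≠ 0 ∧ Gᵀ * Y * G = 1 ∧
      Gᵀ * L * G = diagonal t := by
  obtain ⟨B, hB, hBd⟩ := exists_factor Y hY
  have hs : (Bᵀ * L * B).IsSymm := by
    rw [Matrix.IsSymm, Matrix.transpose_mul, Matrix.transpose_mul, Matrix.transpose_transpose,
      hL.eq, Matrix.mul_assoc]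
  obtain ⟨O, d, hO, hd⟩ := exists_orthogonal_diag _ hs
  have hOd : O.det ≠ 0 := by
    intro h0
    have := congrArg Matrix.det hO
    rw [Matrix.det_mul, h0, mul_zero, Matrix.det_one] at this
    exact zero_ne_one this
  refine ⟨B * O, d, ?_, ?_, ?_⟩
  · rw [Matrix.det_mul]; exact mul_ne_zero hBd hOd
  · rw [Matrix.transpose_mul]
    calc Oᵀ * Bᵀ * Y * (B * O) = Oᵀ * (Bᵀ * Y * B) * O := by simp only [Matrix.mul_assoc]
      _ = 1 := by rw [hB, Matrix.mul_one, hO]
  · rw [Matrix.transpose_mul]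
    calc Oᵀ * Bᵀ * L * (B * O) = Oᵀ * (Bᵀ * L * B) * O := by simp only [Matrix.mul_assoc]
      _ = diagonal d := hd

end Vale.Agent.P256.PL.B2d
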