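import Vale.Agent.P256.PL.Stmts

/-!
# P256, PL: StmtB3, the direction and the rank one moment points
-/

namespace Vale.Agent.P256.PL

open Matrix

namespace B3

variable {k : ℕ}

/-- Homogeneity of `Qev`. -/
theorem Qev_smul {A : Type*} [CommRing A] [Algebra ℝ A] {Q : MvPolynomial (Option (Idx4 k)) ℝ}
    {n : ℕ} (hQ : Q.IsHomogeneous n) (c σ : A) (R : E4 k A) :
    Qev Q (c * σ) (fun i j l m => c * R i j l m) = c ^ n * Qev Q σ R := by
  unfold Qev
  rw [MvPolynomial.aeval_def, MvPolynomial.aeval_def, MvPolynomial.eval₂_eq',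
    MvPolynomial.eval₂_eq', Finset.mul_sum]
  refine Finset.sum_congr rfl fun d hd => ?_
  have hdeg : ∑ i, d i = n := by
    have h := hQ (MvPolynomial.mem_support_iff.1 hd)
    rw [Finsupp.weight_apply] at h
    rw [← h, Finsupp.sum_fintype]
    · simp
    · simp
  rw [← hdeg, ← Finset.prod_pow_eq_pow_sum, mul_left_comm, ← Finset.prod_mul_distrib]
  congr 1
  refine Finset.prod_congr rfl fun i _ => ?_
  rw [← mul_pow]
  cases i <;> rfl

theorem Qev_zero {Q : MvPolynomial (Option (Idx4 k)) ℝ} {m : ℕ} (hQ : Q.IsHomogeneous (2 * m))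
    (h1 : Qev Q (1 : ℝ) 0 = 1) (σ : ℝ) : Qev Q σ 0 = σ ^ (2 * m) := by
  have h := Qev_smul hQ σ (1 : ℝ) (0 : E4 k ℝ)
  rw [h1, mul_one, mul_one] at h
  rw [← h]
  congr 1
  funext i j l m
  simp

/-- Positivity of `Q` at the points `(N(S) + δ, - S ∧ S)` and their multiples. -/
theorem Qev_pos {Q : MvPolynomial (Option (Idx4 k)) ℝ} {m : ℕ} {B : Set (E4 k ℝ)} {N : E4 k ℝ}
    (hQ : GoodQ B m Q) (hN : DomQ Q N) (S : Matrix (Fin k) (Fin k) ℝ) (hS : S.IsSymm)
    {c δ : ℝ} (hc : 0 < c) (hδ : 0 < δ) :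
    0 < Qev Q (c * (quadN N S + δ)) (fun i j l m => c * (-wedge S) i j l m) := by
  rw [Qev_smul hQ.hom]
  refine mul_pos (pow_pos hc _) ?_
  by_cases h0 : S = 0
  · subst h0
    have h1 : (-wedge (0 : Matrix (Fin k) (Fin k) ℝ)) = 0 := by
      funext i j l m
      simp [wedge, alt, tens2]
    have h2 : quadN N (0 : Matrix (Fin k) (Fin k) ℝ) = 0 := by
      simp [quadN, pairing, tens2]
    rw [h1, h2, zero_add, Qev_zero hQ.hom hQ.lead]
    exact pow_pos hδ _
  · obtain ⟨h1, h2⟩ := hN S hS h0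
    refine h2 _ ?_
    rw [abs_of_pos (by linarith)]
    linarith

section identity

variable (E : Tens k ℝ) (z : Fin (k + 1) → ℝ) (t : ℝ)

/-- The point `t E + z³`. -/
def pt : Tens k ℝ := fun a b c => t * E a b c + cube z a b c

/-- `u = y_E⁻¹ z`. -/
noncomputable def uv : Fin (k + 1) → ℝ := (yM E)⁻¹ *ᵥ z

/-- `η = zᵀ y_E⁻¹ z`. -/
noncomputable def eta : ℝ := z ⬝ᵥ uv E z

/-- The inverse of `y`. -/
noncomputable def Pm : Matrix (Fin (k + 1)) (Fin (k + 1)) ℝ :=
  t⁻¹ • ((yM E)⁻¹ - (t + eta E z)⁻¹ • vecMulVec (uv E z) (uv E z))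

variable {E z t}

theorem yM_pt (hz : z 0 = 1) : yM (pt E z t) = t • yM E + vecMulVec z z := by
  ext a b
  simp [yM, pt, cube, hz, vecMulVec_apply]

theorem Y_uv (hE : (yM E).PosDef) : yM E *ᵥ uv E z = z := by
  rw [uv, Matrix.mulVec_mulVec, Matrix.mul_nonsing_inv _ hE.det_pos.ne'.isUnit,
    Matrix.one_mulVec]

theorem symm_Y (hE : (yM E).PosDef) : (yM E)ᵀ = yM E := by
  have := hE.isHermitian
  rwa [Matrix.IsHermitian, Matrix.conjTranspose_eq_transpose_of_trivial] at this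

theorem eta_nonneg (hE : (yM E).PosDef) : 0 ≤ eta E z := by
  have h := hE.posSemidef.dotProduct_mulVec_nonneg (uv E z)
  rw [Y_uv hE] at h
  simpa [eta, dotProduct_comm] using h

theorem y_mul_P (hE : (yM E).PosDef) (hz : z 0 = 1) (ht : 0 < t) :
    yM (pt E z t) * Pm E z t = 1 := by
  have hη := eta_nonneg (z := z) hE
  have hs : t + eta E z ≠ 0 := by positivity
  rw [yM_pt hz, Pm, Matrix.mul_smul, Matrix.mul_sub, Matrix.add_mul, Matrix.mul_smul,
    Matrix.add_mul, Matrix.smul_mul, Matrix.smul_mul,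
    Matrix.mul_nonsing_inv _ hE.det_pos.ne'.isUnit, Matrix.mul_vecMulVec, Y_uv hE,
    vecMulVec_mul, vecMulVec_mul_vecMulVec]
  have h1 : z ᵥ* (yM E)⁻¹ = uv E z := by
    rw [uv, ← Matrix.mulVec_transpose, Matrix.transpose_nonsing_inv, symm_Y hE]
  have h2 : z ⬝ᵥ uv E z = eta E z := rfl
  rw [h1, h2]
  ext a b
  simp only [Matrix.smul_apply, Matrix.sub_apply, Matrix.add_apply, vecMulVec_apply,
    Pi.smul_apply, smul_eq_mul]
  field_simp
  ring

theorem adj_pt (hE : (yM E).PosDef) (hz : z 0 = 1) (ht : 0 < t) :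
    (yM (pt E z t)).adjugate = (yM (pt E z t)).det • Pm E z t := by
  have h := y_mul_P hE hz ht
  calc (yM (pt E z t)).adjugate = (yM (pt E z t)).adjugate * (yM (pt E z t) * Pm E z t) := by
        rw [h, Matrix.mul_one]
    _ = (yM (pt E z t)).det • Pm E z t := by
        rw [← Matrix.mul_assoc, Matrix.adjugate_mul, Matrix.smul_mul, Matrix.one_mul]

theorem det_pt_pos (hE : (yM E).PosDef) (hz : z 0 = 1) (ht : 0 < t) :
    0 < (yM (pt E z t)).det := by
  rw [yM_pt hz]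
  refine Matrix.PosDef.det_pos ?_
  refine (hE.smul ht).add_posSemidef ?_
  have h := Matrix.posSemidef_vecMulVec_self_star z
  simpa using h

theorem P_form (hE : (yM E).PosDef) (ht : 0 < t) (f g : Fin (k + 1) → ℝ) (a b : ℝ) :
    (t • f + a • z) ⬝ᵥ (Pm E z t *ᵥ (t • g + b • z)) =
      t * (f ⬝ᵥ ((yM E)⁻¹ *ᵥ g)) + a * b
        - t / (t + eta E z) * ((a - f ⬝ᵥ uv E z) * (b - g ⬝ᵥ uv E z)) := by
  have hη := eta_nonneg (z := z) hE
  have hs : t + eta E z ≠ 0 := by positivity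
  have h1 : ∀ v w : Fin (k + 1) → ℝ, v ⬝ᵥ (Pm E z t *ᵥ w) =
      t⁻¹ * (v ⬝ᵥ ((yM E)⁻¹ *ᵥ w) - (t + eta E z)⁻¹ * ((v ⬝ᵥ uv E z) * (w ⬝ᵥ uv E z))) := by
    intro v w
    rw [Pm, Matrix.smul_mulVec, Matrix.sub_mulVec, Matrix.smul_mulVec, vecMulVec_mulVec,
      dotProduct_smul, dotProduct_sub, dotProduct_smul, smul_eq_mul, smul_eq_mul,
      dotProduct_comm (uv E z) w]
    rw [op_smul_eq_smul, dotProduct_smul, smul_eq_mul]
    ring
  have h2 : ∀ w : Fin (k + 1) → ℝ, z ⬝ᵥ ((yM E)⁻¹ *ᵥ w) = w ⬝ᵥ uv E z := by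
    intro w
    rw [Matrix.dotProduct_mulVec, ← Matrix.mulVec_transpose, Matrix.transpose_nonsing_inv,
      symm_Y hE, dotProduct_comm]
    rfl
  have h3 : (yM E)⁻¹ *ᵥ z = uv E z := rfl
  have h4 : z ⬝ᵥ uv E z = eta E z := rfl
  rw [h1]
  simp only [Matrix.mulVec_add, Matrix.mulVec_smul, dotProduct_add, add_dotProduct,
    dotProduct_smul, smul_dotProduct, smul_eq_mul, h2, h3, h4]
  field_simp
  ring

end identity

/-- The contraction of `E` with `u`. -/
noncomputable def Sm (E : Tens k ℝ) (z : Fin (k + 1) → ℝ) : Matrix (Fin k) (Fin k) ℝ :=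
  fun i j => z i.succ * z j.succ - E i.succ j.succ ⬝ᵥ uv E z

theorem Xt_eq (τ : Tens k ℝ) (i j l m : Fin k) :
    Xt τ i j l m = τ i.succ j.succ ⬝ᵥ ((yM τ).adjugate *ᵥ τ l.succ m.succ) := by
  simp only [Xt, dotProduct, Matrix.mulVec, Finset.mul_sum, mul_assoc]

theorem Xt_E (E : Tens k ℝ) (i j l m : Fin k) :
    E i.succ j.succ ⬝ᵥ ((yM E)⁻¹ *ᵥ E l.succ m.succ) = (yM E).det⁻¹ * Xt E i j l m := by
  have h : (yM E)⁻¹ = (yM E).det⁻¹ • (yM E).adjugate := by
    rw [Matrix.inv_def, Ring.inverse_eq_inv']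
  rw [Xt_eq, h, Matrix.smul_mulVec, dotProduct_smul, smul_eq_mul]

theorem Xt_pt {E : Tens k ℝ} {z : Fin (k + 1) → ℝ} {t : ℝ} (hE : (yM E).PosDef) (hz : z 0 = 1)
    (ht : 0 < t) (i j l m : Fin k) :
    Xt (pt E z t) i j l m = (yM (pt E z t)).det *
      (t * ((yM E).det⁻¹ * Xt E i j l m) + z i.succ * z j.succ * (z l.succ * z m.succ)
        - t / (t + eta E z) * (Sm E z i j * Sm E z l m)) := by
  rw [Xt_eq, adj_pt hE hz ht, Matrix.smul_mulVec, dotProduct_smul, smul_eq_mul]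
  congr 1
  have e : ∀ i j : Fin k, pt E z t i.succ j.succ =
      t • E i.succ j.succ + (z i.succ * z j.succ) • z := by
    intro i j
    funext a
    simp [pt, cube]
  rw [e, e, P_form hE ht, Xt_E]
  rfl

theorem Sm_symm {E : Tens k ℝ} (hE : IsSymT E) (z : Fin (k + 1) → ℝ) : (Sm E z).IsSymm := by
  ext i j
  simp only [Matrix.transpose_apply, Sm]
  have h : E i.succ j.succ = E j.succ i.succ := funext fun a => hE.1 _ _ _
  rw [h, mul_comm (z i.succ)]

theorem pairing_Xt_pt {E : Tens k ℝ} {x : Fin k → ℝ} {t : ℝ} (N : E4 k ℝ)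
    (hE : (yM E).PosDef) (ht : 0 < t) :
    pairing N (Xt (pt E (hat x) t)) = (yM (pt E (hat x) t)).det *
      (t * ((yM E).det⁻¹ * pairing N (Xt E)) + quadN N (sq x)
        - t / (t + eta E (hat x)) * quadN N (Sm E (hat x))) := by
  have hz : (hat x : Fin (k + 1) → ℝ) 0 = 1 := rfl
  have hs : ∀ i : Fin k, (hat x : Fin (k + 1) → ℝ) i.succ = x i := fun _ => rfl
  simp only [pairing, quadN, Xt_pt hE hz ht, tens2, sq, Finset.mul_sum, ← Finset.sum_add_distrib,
    ← Finset.sum_sub_distrib, hs]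
  refine Finset.sum_congr rfl fun i _ => Finset.sum_congr rfl fun j _ =>
    Finset.sum_congr rfl fun l _ => Finset.sum_congr rfl fun m _ => by ring

theorem alt_Xt_pt {E : Tens k ℝ} {x : Fin k → ℝ} {t : ℝ}
    (hE : (yM E).PosDef) (hR : alt (Xt E) = 0) (ht : 0 < t) (i j l m : Fin k) :
    alt (Xt (pt E (hat x) t)) i j l m =
      ((yM (pt E (hat x) t)).det * (t / (t + eta E (hat x)))) *
        (-wedge (Sm E (hat x))) i j l m := by
  have hz : (hat x : Fin (k + 1) → ℝ) 0 = 1 := rfl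
  have h0 : Xt E i l j m - Xt E i m j l = 0 := congrFun (congrFun (congrFun (congrFun hR i) j) l) m
  simp only [alt, Xt_pt hE hz ht, Pi.neg_apply, wedge, tens2]
  linear_combination (yM (pt E (hat x) t)).det * t * (yM E).det⁻¹ * h0

end B3

theorem stmtB3 : StmtB3 := by
  intro k m B Q N E sE hQ hN hE hY hR hs
  have hd : 0 < (yM E).det := hY.det_pos
  have halg : (fun i j l m => algebraMap ℝ ℝ (N i j l m)) = N := rfl
  refine ⟨?_, ?_⟩
  · rw [pf, hR, halg, B3.Qev_zero hQ.hom hQ.lead]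
    exact pow_pos (by linarith) _
  · intro x t ht
    have hη := B3.eta_nonneg (z := hat x) hY
    have hdp := B3.det_pt_pos (z := hat x) hY rfl ht
    have hpt : (fun a b c => t * E a b c + cube (hat x) a b c) = B3.pt E (hat x) t := rfl
    rw [pf, hpt, halg]
    have hc : 0 < t / (t + B3.eta E (hat x)) := by positivity
    have hδ : 0 < (t + B3.eta E (hat x)) * (sE - (yM E).det⁻¹ * pairing N (Xt E)) := by
      refine mul_pos (by positivity) ?_
      rw [sub_pos, inv_mul_lt_iff₀ hd, mul_comm]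
      exact hs
    have key := B3.Qev_pos hQ hN (B3.Sm E (hat x)) (B3.Sm_symm hE _)
      (mul_pos hdp hc) hδ
    have e1 : (t * sE + quadN N (sq x)) * (yM (B3.pt E (hat x) t)).det
        - pairing N (Xt (B3.pt E (hat x) t)) =
        (yM (B3.pt E (hat x) t)).det * (t / (t + B3.eta E (hat x))) *
          (quadN N (B3.Sm E (hat x)) +
            (t + B3.eta E (hat x)) * (sE - (yM E).det⁻¹ * pairing N (Xt E))) := by
      rw [B3.pairing_Xt_pt N hY ht]
      have : t + B3.eta E (hat x) ≠ 0 := by positivity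
      field_simp
      ring
    have e2 : alt (Xt (B3.pt E (hat x) t)) = fun i j l m =>
        ((yM (B3.pt E (hat x) t)).det * (t / (t + B3.eta E (hat x)))) *
          (-wedge (B3.Sm E (hat x))) i j l m := by
      funext i j l m
      exact B3.alt_Xt_pt hY hR ht i j l m
    rw [e1, e2]
    exact key

end Vale.Agent.P256.PL
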