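import Vale.Agent.P256.PL.Stmts

/-!
# P256, PL: StmtB4, there is a direction
-/

namespace Vale.Agent.P256.PL

open Matrix

namespace B4

variable {k : ℕ}

/-- The rows are the points `(1, 0)`, `(1, e_i)`. -/
def V (k : ℕ) : Matrix (Fin (k + 1)) (Fin (k + 1)) ℝ := fun z a => if a = 0 ∨ a = z then 1 else 0

/-- The sum of the cubes. -/
def E (k : ℕ) : Tens k ℝ := fun a b c => ∑ z, V k z a * V k z b * V k z c

theorem V_zero (z : Fin (k + 1)) : V k z 0 = 1 := by simp [V]

theorem det_V : (V k).det = 1 := by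
  rw [Matrix.det_of_isLowerTriangular]
  · simp [V]
  · intro i j hij
    have hij' : i < j := hij
    have h1 : j ≠ 0 := (Fin.pos_of_ne_zero (by rintro rfl; exact absurd hij' (Fin.not_lt_zero i))).ne'
    simp [V, h1, hij'.ne']

theorem yM_E : yM (E k) = (V k)ᵀ * V k := by
  ext a b
  simp only [yM, E, V_zero, one_mul, Matrix.mul_apply, Matrix.transpose_apply]

theorem posDef_yM : (yM (E k)).PosDef := by
  rw [yM_E]
  have h := Matrix.PosDef.conjTranspose_mul_self (V k) (by
    have hu : IsUnit (V k) := by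
      rw [Matrix.isUnit_iff_isUnit_det, det_V]; exact isUnit_one
    exact Matrix.mulVec_injective_of_isUnit hu)
  simpa [Matrix.conjTranspose_eq_transpose_of_trivial] using h

theorem V_adj_V : V k * (yM (E k)).adjugate * (V k)ᵀ = 1 := by
  rw [yM_E, Matrix.adjugate_mul_distrib, ← Matrix.mul_assoc, Matrix.mul_adjugate, det_V,
    one_smul, Matrix.one_mul, Matrix.adjugate_mul, Matrix.det_transpose, det_V, one_smul]

theorem sum_VMV (f g : Fin (k + 1) → ℝ) (M : Matrix (Fin (k + 1)) (Fin (k + 1)) ℝ) :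
    ∑ a, ∑ b, (∑ z, f z * V k z a) * M a b * (∑ w, g w * V k w b)
      = f ⬝ᵥ ((V k * M * (V k)ᵀ) *ᵥ g) := by
  rw [← Matrix.mulVec_mulVec, ← Matrix.mulVec_mulVec, Matrix.dotProduct_mulVec,
    Matrix.mulVec_transpose]
  simp only [dotProduct, Matrix.mulVec, Matrix.vecMul, Finset.mul_sum, mul_assoc]

theorem Xt_E (i j l m : Fin k) :
    Xt (E k) i j l m = ∑ z, V k z i.succ * V k z j.succ * V k z l.succ * V k z m.succ := by
  have h1 := sum_VMV (fun z => V k z i.succ * V k z j.succ) (fun z => V k z l.succ * V k z m.succ)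
    (yM (E k)).adjugate
  rw [V_adj_V, Matrix.one_mulVec] at h1
  refine h1.trans ?_
  simp only [dotProduct]
  refine Finset.sum_congr rfl fun z _ => by ring

end B4

theorem stmtB4 : StmtB4 := by
  intro k
  refine ⟨B4.E k, ⟨?_, ?_⟩, B4.posDef_yM, ?_⟩
  · intro a b c
    refine Finset.sum_congr rfl fun z _ => by ring
  · intro a b c
    refine Finset.sum_congr rfl fun z _ => by ring
  · funext i j l m
    simp only [alt, B4.Xt_E, Pi.zero_apply, sub_eq_zero]
    refine Finset.sum_congr rfl fun z _ => by ring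

end Vale.Agent.P256.PL
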