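import Vale.Agent.P256.MathlibUsed
import Mathlib.RingTheory.Smooth.Field
import Mathlib.RingTheory.MvPolynomial.Ideal

/-! Lift lemma: a polynomial system which is solvable at every real point has, at some real
point, a formal solution of any finite order. -/

namespace Vale.Agent.P256.PL.Lift

open MvPolynomial

/-- ring of all real functions on `ℝ^k` -/
abbrev FR (k : ℕ) := (Fin k → ℝ) → ℝ

/-- polynomial functions -/
noncomputable def pf (k : ℕ) : MvPolynomial (Fin k) ℝ →ₐ[ℝ] FR k :=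
  aeval (fun i x => x i)

lemma pf_apply {k : ℕ} (f : MvPolynomial (Fin k) ℝ) (x : Fin k → ℝ) :
    pf k f x = eval x f := by
  have h : (Pi.evalAlgHom ℝ (fun _ : Fin k → ℝ => ℝ) x).comp (pf k) = aeval x := by
    ext i
    simp [pf]
  have := DFunLike.congr_fun h f
  simpa [coe_aeval_eq_eval] using this

lemma exists_ideal (k : ℕ) : ∃ M : Ideal (FR k), M.IsMaximal ∧
    ∀ f : MvPolynomial (Fin k) ℝ, f ≠ 0 → pf k f ∉ M := by
  have hd : Disjoint ((⊥ : Ideal (FR k)) : Set (FR k))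
      ((nonZeroDivisors (MvPolynomial (Fin k) ℝ)).map (pf k : MvPolynomial (Fin k) ℝ →* FR k)) := by
    rw [Set.disjoint_left]
    rintro x hx ⟨f, hf, rfl⟩
    have hf0 : f ≠ 0 := nonZeroDivisors.ne_zero hf
    apply hf0
    apply MvPolynomial.funext
    intro y
    have hx' : pf k f = 0 := by simpa using hx
    rw [← pf_apply, hx']
    simp
  obtain ⟨M, hM, -, hMd⟩ := Ideal.exists_le_prime_disjoint _ _ hd
  refine ⟨M, ?_, ?_⟩
  · rw [Ideal.isMaximal_iff]
    refine ⟨(Ideal.ne_top_iff_one M).1 hM.ne_top, ?_⟩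
    intro J x hMJ hxM hxJ
    have h0 : x * (x * x⁻¹ - 1) = 0 := by
      funext y
      simp only [Pi.mul_apply, Pi.sub_apply, Pi.inv_apply, Pi.one_apply, Pi.zero_apply]
      by_cases hy : x y = 0
      · simp [hy]
      · field_simp
        ring
    have h1 : x * x⁻¹ - 1 ∈ M := by
      have := hM.mem_or_mem (x := x) (y := x * x⁻¹ - 1) (by rw [h0]; exact M.zero_mem)
      tauto
    have h2 : x * x⁻¹ ∈ J := J.mul_mem_right _ hxJ
    have h3 := J.sub_mem h2 (hMJ h1)
    simpa using h3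
  · intro f hf hfM
    exact Set.disjoint_left.1 hMd hfM ⟨f, mem_nonZeroDivisors_of_ne_zero hf, rfl⟩

lemma exists_zero {k : ℕ} {κ : Type*} [Finite κ] (M : Ideal (FR k)) (hM : M ≠ ⊤)
    (f : κ → FR k) (hf : ∀ j, f j ∈ M) : ∃ x, ∀ j, f j x = 0 := by
  classical
  have := Fintype.ofFinite κ
  by_contra hcon
  push Not at hcon
  apply hM
  have hs : (∑ j, f j * f j) ∈ M := M.sum_mem fun j _ => M.mul_mem_left _ (hf j)
  have hne : ∀ x, (∑ j, f j * f j) x ≠ 0 := by
    intro x hx
    obtain ⟨j, hj⟩ := hcon x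
    have h0 : ∑ j, f j x * f j x = 0 := by simpa [Finset.sum_apply] using hx
    rw [Finset.sum_eq_zero_iff_of_nonneg (fun j _ => mul_self_nonneg _)] at h0
    exact hj (by simpa using h0 j (Finset.mem_univ j))
  rw [Ideal.eq_top_iff_one]
  have : (∑ j, f j * f j) * (∑ j, f j * f j)⁻¹ = 1 := by
    funext x
    exact mul_inv_cancel₀ (hne x)
  rw [← this]
  exact M.mul_mem_right _ hs


/-- Formal smoothness: an algebraically independent family can be moved along a nilpotent
thickening. -/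
theorem lift_general {k : ℕ} (L B : Type) [Field L] [Algebra ℝ L] [CommRing B] [Algebra ℝ B]
    (ξ : Fin k → L) (hξ : AlgebraicIndependent ℝ ξ) (g : B →ₐ[ℝ] L)
    (hg : Function.Surjective g) (hnil : IsNilpotent (RingHom.ker (g : B →+* L)))
    (b : Fin k → B) (hb : ∀ i, g (b i) = ξ i) :
    ∃ T : L →ₐ[ℝ] B, ∀ i, T (ξ i) = b i := by
  let P := MvPolynomial (Fin k) ℝ
  let a1 : Algebra P L := (aeval ξ : P →ₐ[ℝ] L).toRingHom.toAlgebra
  let a2 : Algebra P B := (aeval b : P →ₐ[ℝ] B).toRingHom.toAlgebra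
  have t1 : IsScalarTower ℝ P L := IsScalarTower.of_algebraMap_eq fun r =>
    ((aeval ξ : P →ₐ[ℝ] L).commutes r).symm
  have t2 : IsScalarTower ℝ P B := IsScalarTower.of_algebraMap_eq fun r =>
    ((aeval b : P →ₐ[ℝ] B).commutes r).symm
  have hfs : FaithfulSMul P L := (faithfulSMul_iff_algebraMap_injective P L).2 hξ
  let _ := FractionRing.liftAlgebra P L
  have : CharZero L := charZero_of_injective_algebraMap (algebraMap ℝ L).injective
  have : CharZero P := charZero_of_injective_algebraMap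
    (algebraMap ℝ P).injective
  have : CharZero (FractionRing P) := charZero_of_injective_algebraMap
    (FaithfulSMul.algebraMap_injective P (FractionRing P))
  obtain ⟨s, hs⟩ := exists_isTranscendenceBasis (FractionRing P) L
  have := hs.isAlgebraic_field
  have : Algebra.FormallySmooth (FractionRing P) L :=
    .of_algebraicIndependent_of_isSeparable hs.1
  have : Algebra.FormallySmooth P (FractionRing P) := .of_isLocalization (nonZeroDivisors P)
  have : Algebra.FormallySmooth P L := .comp P (FractionRing P) L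
  have hcomm : ∀ f : P, g (algebraMap P B f) = algebraMap P L f := by
    intro f
    have h : g.comp (aeval b : P →ₐ[ℝ] B) = aeval ξ := by
      ext i
      simp [hb]
    exact DFunLike.congr_fun h f
  let g' : B →ₐ[P] L := { (g : B →+* L) with commutes' := hcomm }
  have hg' : Function.Surjective g' := hg
  let T : L →ₐ[P] B := Algebra.FormallySmooth.liftOfSurjective (AlgHom.id P L) g' hg' hnil
  refine ⟨T.restrictScalars ℝ, fun i => ?_⟩
  have h1 : algebraMap P L (X i) = ξ i := by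
    change aeval ξ (X i) = ξ i
    simp
  have h2 : algebraMap P B (X i) = b i := by
    change aeval b (X i) = b i
    simp
  rw [← h1, ← h2]
  exact T.commutes _


lemma constantCoeff_mem {σ R : Type*} [CommRing R] (f : MvPolynomial σ R)
    (hf : constantCoeff f = 0) : f ∈ idealOfVars σ R := by
  have h := (mem_pow_idealOfVars_iff' 1 f).2 (fun x hx => by
    have hx0 : x = 0 := by
      have : x.degree = 0 := by omega
      exact (Finsupp.degree_eq_zero_iff x).1 this
    subst hx0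
    exact hf)
  simpa using h

/-- evaluation of a truncated polynomial at the origin -/
noncomputable def ev0 (k d : ℕ) (L : Type) [CommRing L] [Algebra ℝ L] :
    (MvPolynomial (Fin k) L ⧸ idealOfVars (Fin k) L ^ (d + 1)) →ₐ[ℝ] L :=
  Ideal.Quotient.liftₐ _ (((aeval (fun _ => (0 : L)) : MvPolynomial (Fin k) L →ₐ[L] L)).restrictScalars ℝ)
    (by
      intro a ha
      have h1 : a ∈ idealOfVars (Fin k) L := Ideal.pow_le_self (Nat.succ_ne_zero d) ha
      have h2 : idealOfVars (Fin k) L ≤ RingHom.ker (constantCoeff : MvPolynomial (Fin k) L →+* L) := by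
        rw [Ideal.span_le]
        rintro _ ⟨i, rfl⟩
        simp [RingHom.mem_ker]
      have h3 : constantCoeff a = 0 := h2 h1
      simpa using h3)

lemma ev0_mk (k d : ℕ) (L : Type) [CommRing L] [Algebra ℝ L] (f : MvPolynomial (Fin k) L) :
    ev0 k d L (Ideal.Quotient.mk _ f) = constantCoeff f := by
  simp [ev0]

lemma ev0_ker (k d : ℕ) (L : Type) [CommRing L] [Algebra ℝ L] :
    IsNilpotent (RingHom.ker
      ((ev0 k d L : _ →ₐ[ℝ] L) : (MvPolynomial (Fin k) L ⧸ idealOfVars (Fin k) L ^ (d + 1)) →+* L)) := by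
  refine ⟨d + 1, ?_⟩
  have h : RingHom.ker
      ((ev0 k d L : _ →ₐ[ℝ] L) : (MvPolynomial (Fin k) L ⧸ idealOfVars (Fin k) L ^ (d + 1)) →+* L) ≤
      (idealOfVars (Fin k) L).map (Ideal.Quotient.mk (idealOfVars (Fin k) L ^ (d + 1))) := by
    intro b hb
    obtain ⟨f, rfl⟩ := Ideal.Quotient.mk_surjective b
    apply Ideal.mem_map_of_mem
    apply constantCoeff_mem
    have : ev0 k d L (Ideal.Quotient.mk _ f) = 0 := hb
    rwa [ev0_mk] at this
  have h2 := Ideal.pow_right_mono h (d + 1)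
  rw [← Ideal.map_pow, Ideal.map_quotient_self] at h2
  exact le_bot_iff.1 h2

/-- the coordinate functions -/
def co (k : ℕ) : Fin k → FR k := fun i x => x i

/-- First step: the lift over a field. -/
theorem lift_field {k : ℕ} {ι κ : Type} (d : ℕ) (L : Type) [Field L] [Algebra ℝ L]
    (φ : FR k →ₐ[ℝ] L) (hφ : ∀ f : MvPolynomial (Fin k) ℝ, f ≠ 0 → φ (pf k f) ≠ 0)
    (F : κ → MvPolynomial (Fin k ⊕ ι) ℝ) (zf : ι → FR k)
    (hF0 : ∀ j, aeval (Sum.elim (co k) zf) (F j) = (0 : FR k)) :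
    ∃ Z : ι → MvPolynomial (Fin k) L, ∀ j,
      aeval (Sum.elim (fun i => C (φ (co k i)) + X i) Z) (F j) ∈
        idealOfVars (Fin k) L ^ (d + 1) := by
  have hξ : AlgebraicIndependent ℝ (fun i => φ (co k i)) := by
    rw [AlgebraicIndependent, injective_iff_map_eq_zero]
    intro f hf
    by_contra hf0
    apply hφ f hf0
    have h1 : φ.comp (pf k) = aeval (fun i => φ (co k i)) := by
      ext i
      simp only [pf, AlgHom.comp_apply, aeval_X]
      rfl
    have h2 := DFunLike.congr_fun h1 f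
    rw [hf] at h2
    exact h2
  obtain ⟨T, hT⟩ := lift_general L (MvPolynomial (Fin k) L ⧸ idealOfVars (Fin k) L ^ (d + 1))
    _ hξ (ev0 k d L)
    (fun a => ⟨Ideal.Quotient.mk _ (C a), by rw [ev0_mk]; simp⟩) (ev0_ker k d L)
    (fun i => Ideal.Quotient.mk _ (C (φ (co k i)) + X i)) (fun i => by rw [ev0_mk]; simp)
  choose Z hZ using fun i => Ideal.Quotient.mk_surjective (T (φ (zf i)))
  refine ⟨Z, fun j => ?_⟩
  rw [← Ideal.Quotient.eq_zero_iff_mem]
  have h1 : (Ideal.Quotient.mkₐ ℝ (idealOfVars (Fin k) L ^ (d + 1))).comp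
      (aeval (Sum.elim (fun i => C (φ (co k i)) + X i) Z)) =
      T.comp (φ.comp (aeval (Sum.elim (co k) zf))) := by
    ext i
    cases i with
    | inl i =>
      simp only [AlgHom.comp_apply, aeval_X, Sum.elim_inl, Ideal.Quotient.mkₐ_eq_mk]
      exact (hT i).symm
    | inr i =>
      simp only [AlgHom.comp_apply, aeval_X, Sum.elim_inr, Ideal.Quotient.mkₐ_eq_mk]
      exact hZ i
  have h2 := DFunLike.congr_fun h1 (F j)
  simp only [AlgHom.comp_apply, Ideal.Quotient.mkₐ_eq_mk] at h2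
  rw [h2, hF0 j, map_zero, map_zero]

/-- Second step: from the residue field to a point. -/
theorem lift_point {k : ℕ} {ι κ : Type} [Finite κ] (d : ℕ) (L : Type) [Field L] [Algebra ℝ L]
    (φ : FR k →ₐ[ℝ] L) (hφs : Function.Surjective φ)
    (F : κ → MvPolynomial (Fin k ⊕ ι) ℝ) (Z0 : ι → MvPolynomial (Fin k) L)
    (hF1 : ∀ j, aeval (Sum.elim (fun i => C (φ (co k i)) + X i) Z0) (F j) ∈
        idealOfVars (Fin k) L ^ (d + 1)) :
    ∃ (x : Fin k → ℝ) (Z2 : ι → MvPolynomial (Fin k) ℝ), ∀ j,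
      aeval (Sum.elim (fun i => C (x i) + X i) Z2) (F j) ∈
        idealOfVars (Fin k) ℝ ^ (d + 1) := by
  choose Z1 hZ1 using fun i => (map_surjective (φ : FR k →+* L) hφs (Z0 i))
  let G : κ → MvPolynomial (Fin k) (FR k) := fun j =>
    aeval (Sum.elim (fun i => C (co k i) + X i) Z1) (F j)
  have hG : ∀ j (α : Fin k →₀ ℕ), α.degree < d + 1 →
      coeff α (G j) ∈ RingHom.ker (φ : FR k →+* L) := by
    intro j α hα
    rw [RingHom.mem_ker, ← coeff_map]
    have h2 : (mapAlgHom φ).comp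
        (aeval (Sum.elim (fun i => C (co k i) + X i) Z1)) =
        aeval (Sum.elim (fun i => C (φ (co k i)) + X i) Z0) := by
      ext i : 1
      cases i with
      | inl i => simp
      | inr i =>
        have h3 := hZ1 i
        simp only [AlgHom.comp_apply, aeval_X, Sum.elim_inr]
        exact h3
    have h1 : map (φ : FR k →+* L) (G j) =
        aeval (Sum.elim (fun i => C (φ (co k i)) + X i) Z0) (F j) := DFunLike.congr_fun h2 (F j)
    rw [h1]
    exact (mem_pow_idealOfVars_iff' _ _).1 (hF1 j) α hα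
  have hfin : Finite {α : Fin k →₀ ℕ // α.degree < d + 1} :=
    (Finsupp.finite_of_degree_lt (d + 1)).to_subtype
  obtain ⟨x, hx⟩ := exists_zero (κ := κ × {α : Fin k →₀ ℕ // α.degree < d + 1})
    (RingHom.ker (φ : FR k →+* L)) (RingHom.ker_ne_top _)
    (fun q => coeff q.2.1 (G q.1)) (fun q => hG q.1 q.2.1 q.2.2)
  let ev : FR k →ₐ[ℝ] ℝ := Pi.evalAlgHom ℝ (fun _ : Fin k → ℝ => ℝ) x
  refine ⟨x, fun i => map (ev : FR k →+* ℝ) (Z1 i), fun j => ?_⟩
  have h2 : (mapAlgHom ev).comp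
      (aeval (Sum.elim (fun i => C (co k i) + X i) Z1)) =
      aeval (Sum.elim (fun i => C (x i) + X i) (fun i => map (ev : FR k →+* ℝ) (Z1 i))) := by
    ext i : 1
    cases i with
    | inl i => simp [ev, co]
    | inr i => simp
  have h1 : map (ev : FR k →+* ℝ) (G j) =
      aeval (Sum.elim (fun i => C (x i) + X i) (fun i => map (ev : FR k →+* ℝ) (Z1 i))) (F j) :=
    DFunLike.congr_fun h2 (F j)
  rw [← h1, mem_pow_idealOfVars_iff']
  intro α hα
  rw [coeff_map]
  exact hx (j, ⟨α, hα⟩)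

/-- Truncation. -/
theorem lift_trunc {k : ℕ} {ι κ : Type} (d : ℕ) (x : Fin k → ℝ)
    (F : κ → MvPolynomial (Fin k ⊕ ι) ℝ) (Z2 : ι → MvPolynomial (Fin k) ℝ)
    (h : ∀ j, aeval (Sum.elim (fun i => C (x i) + X i) Z2) (F j) ∈
        idealOfVars (Fin k) ℝ ^ (d + 1)) :
    ∃ (Z : ι → MvPolynomial (Fin k) ℝ), (∀ i, (Z i).totalDegree ≤ d) ∧ ∀ j,
      aeval (Sum.elim (fun i => C (x i) + X i) Z) (F j) ∈
        idealOfVars (Fin k) ℝ ^ (d + 1) := by
  refine ⟨fun i => ∑ e ∈ Finset.range (d + 1), homogeneousComponent e (Z2 i), ?_, ?_⟩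
  · intro i
    refine totalDegree_finsetSum_le fun e he => ?_
    refine (homogeneousComponent_isHomogeneous e (Z2 i)).totalDegree_le.trans ?_
    rw [Finset.mem_range] at he
    omega
  · intro j
    have hZZ : ∀ i, (∑ e ∈ Finset.range (d + 1), homogeneousComponent e (Z2 i)) - Z2 i ∈
        idealOfVars (Fin k) ℝ ^ (d + 1) := by
      intro i
      rw [mem_pow_idealOfVars_iff']
      intro α hα
      simp only [coeff_sub, coeff_sum, coeff_homogeneousComponent]
      rw [Finset.sum_eq_single (α.degree)]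
      · simp
      · intro b _ hb
        rw [if_neg (fun h => hb h.symm)]
      · intro h
        exact absurd (Finset.mem_range.2 hα) h
    have h4 : (Ideal.Quotient.mkₐ ℝ (idealOfVars (Fin k) ℝ ^ (d + 1))).comp
        (aeval (Sum.elim (fun i => C (x i) + X i)
          (fun i => ∑ e ∈ Finset.range (d + 1), homogeneousComponent e (Z2 i)))) =
        (Ideal.Quotient.mkₐ ℝ (idealOfVars (Fin k) ℝ ^ (d + 1))).comp
        (aeval (Sum.elim (fun i => C (x i) + X i) Z2)) := by
      ext i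
      cases i with
      | inl i => simp
      | inr i =>
        simp only [AlgHom.comp_apply, aeval_X, Sum.elim_inr, Ideal.Quotient.mkₐ_eq_mk]
        exact Ideal.Quotient.eq.2 (hZZ i)
    have h5 := DFunLike.congr_fun h4 (F j)
    simp only [AlgHom.comp_apply, Ideal.Quotient.mkₐ_eq_mk] at h5
    rw [← Ideal.Quotient.eq_zero_iff_mem, h5, Ideal.Quotient.eq_zero_iff_mem]
    exact h j

/-- Lift lemma. -/
theorem lift_lemma {k : ℕ} {ι κ : Type} [Finite κ] (d : ℕ)
    (F : κ → MvPolynomial (Fin k ⊕ ι) ℝ)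
    (h : ∀ x : Fin k → ℝ, ∃ z : ι → ℝ, ∀ j, eval (Sum.elim x z) (F j) = 0) :
    ∃ (x : Fin k → ℝ) (Z : ι → MvPolynomial (Fin k) ℝ),
      (∀ i, (Z i).totalDegree ≤ d) ∧
      ∀ j, aeval (Sum.elim (fun i => C (x i) + X i) Z) (F j) ∈
        idealOfVars (Fin k) ℝ ^ (d + 1) := by
  obtain ⟨M, hM, hMp⟩ := exists_ideal k
  let _ : Field (FR k ⧸ M) := Ideal.Quotient.field M
  choose z hz using h
  have hF0 : ∀ j, aeval (Sum.elim (co k) (fun i x => z x i)) (F j) = (0 : FR k) := by
    intro j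
    funext x
    have h1 : (Pi.evalAlgHom ℝ (fun _ : Fin k → ℝ => ℝ) x).comp
        (aeval (Sum.elim (co k) (fun i x => z x i))) = aeval (Sum.elim x (z x)) := by
      ext i
      cases i <;> simp [co]
    have h2 := DFunLike.congr_fun h1 (F j)
    have h3 := hz x j
    have h4 : aeval (Sum.elim x (z x)) (F j) = 0 :=
      (DFunLike.congr_fun (coe_aeval_eq_eval (Sum.elim x (z x))) (F j)).trans h3
    rw [h4] at h2
    exact h2
  obtain ⟨Z0, hZ0⟩ := lift_field d (FR k ⧸ M) (Ideal.Quotient.mkₐ ℝ M)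
    (fun f hf h0 => hMp f hf (Ideal.Quotient.eq_zero_iff_mem.1 h0)) F _ hF0
  obtain ⟨x, Z2, hZ2⟩ := lift_point d (FR k ⧸ M) (Ideal.Quotient.mkₐ ℝ M)
    (Ideal.Quotient.mkₐ_surjective ℝ M) F Z0 hZ0
  obtain ⟨Z, hZd, hZ⟩ := lift_trunc d x F Z2 hZ2
  exact ⟨x, Z, hZd, hZ⟩

/-- Lift lemma, form with homogeneous components. -/
theorem lift {k : ℕ} {ι ρ : Type} [Finite ι] [Finite ρ]
    (F : ρ → MvPolynomial (Fin k ⊕ ι) ℝ)
    (h : ∀ x : Fin k → ℝ, ∃ z : ι → ℝ, ∀ j, eval (Sum.elim x z) (F j) = 0) (D : ℕ) :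
    ∃ (x : Fin k → ℝ) (z : ι → MvPolynomial (Fin k) ℝ),
      (∀ i, (z i).totalDegree ≤ D) ∧
      ∀ j, ∀ n, n ≤ D →
        homogeneousComponent n (aeval (Sum.elim (fun i => C (x i) + X i) z) (F j)) = 0 := by
  obtain ⟨x, Z, hZd, hZ⟩ := lift_lemma D F h
  refine ⟨x, Z, hZd, fun j n hn => ?_⟩
  ext α
  rw [coeff_homogeneousComponent, coeff_zero]
  split_ifs with hα
  · exact (mem_pow_idealOfVars_iff' _ _).1 (hZ j) α (by omega)
  · rfl

end Vale.Agent.P256.PL.Lift
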