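import Vale.Agent.P256.PL.C5
import Vale.Agent.P256.PL.Lift

/-!
# P256, module C: the non-shadow theorem
-/

namespace Vale.Agent.P256.PL

theorem stmtC : StmtC :=
  NS.stmtC_of_lift fun _ _ _ _ _ F h D => Lift.lift F h D

end Vale.Agent.P256.PL
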