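import Vale.Agent.P256.PL.Stmts

/-!
# P256, module C: linear algebra of affine families of matrices
-/

namespace Vale.Agent.P256.PL.NS

open Matrix

variable {m : ℕ}

lemma exists_factor {A B : Matrix (Fin m) (Fin m) ℝ}
    (h : ∀ v, A *ᵥ v = 0 → B *ᵥ v = 0) : ∃ C : Matrix (Fin m) (Fin m) ℝ, B = C * A := by
  classical
  have hle : LinearMap.ker A.mulVecLin ≤ LinearMap.ker B.mulVecLin := by
    intro v hv
    simp only [LinearMap.mem_ker, mulVecLin_apply] at hv ⊢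
    exact h v hv
  let g : LinearMap.range A.mulVecLin →ₗ[ℝ] (Fin m → ℝ) :=
    ((LinearMap.ker A.mulVecLin).liftQ B.mulVecLin hle).comp
      (A.mulVecLin.quotKerEquivRange.symm : _ →ₗ[ℝ] _)
  obtain ⟨g', hg'⟩ := LinearMap.exists_extend g
  refine ⟨LinearMap.toMatrix' g', ?_⟩
  have key : B.mulVecLin = g' ∘ₗ A.mulVecLin := by
    refine LinearMap.ext fun v => ?_
    have h1 : g' (A.mulVecLin v) = g ⟨A.mulVecLin v, ⟨v, rfl⟩⟩ := by
      rw [← hg']; rfl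
    rw [LinearMap.comp_apply, h1]
    simp only [g, LinearMap.comp_apply]
    have h2 : A.mulVecLin.quotKerEquivRange.symm
        (⟨A.mulVecLin v, ⟨v, rfl⟩⟩ : LinearMap.range A.mulVecLin) =
        Submodule.Quotient.mk v := by
      rw [LinearEquiv.symm_apply_eq]
      rfl
    rw [LinearEquiv.coe_coe, h2]
    rfl
  have := congrArg LinearMap.toMatrix' key
  rw [LinearMap.toMatrix'_comp] at this
  rwa [← Matrix.toLin'_apply', ← Matrix.toLin'_apply', LinearMap.toMatrix'_toLin',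
    LinearMap.toMatrix'_toLin'] at this

open scoped MatrixOrder in
lemma exists_gram {A : Matrix (Fin m) (Fin m) ℝ} (hA : A.PosSemidef) :
    ∃ B : Matrix (Fin m) (Fin m) ℝ, A = Bᵀ * B := by
  obtain ⟨B, hB⟩ := CStarAlgebra.nonneg_iff_eq_star_mul_self.mp hA.nonneg
  exact ⟨B, by
    rw [hB, star_eq_conjTranspose, conjTranspose_eq_transpose_of_trivial]⟩

lemma psd_mulVec_zero {P : Matrix (Fin m) (Fin m) ℝ} (hP : P.PosSemidef) {v : Fin m → ℝ}
    (h : v ⬝ᵥ (P *ᵥ v) = 0) : P *ᵥ v = 0 := by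
  have := (hP.dotProduct_mulVec_zero_iff v).1
  simp only [star_trivial] at this
  exact this h

lemma psd_nonneg {P : Matrix (Fin m) (Fin m) ℝ} (hP : P.PosSemidef) (v : Fin m → ℝ) :
    0 ≤ v ⬝ᵥ (P *ᵥ v) := by
  have := hP.dotProduct_mulVec_nonneg v
  simpa only [star_trivial] using this

/-- In a convex set of positive semidefinite matrices there is one whose kernel is contained in
all the other kernels. -/
lemma exists_max (T : Set (Matrix (Fin m) (Fin m) ℝ)) (hne : T.Nonempty)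
    (hpsd : ∀ P ∈ T, P.PosSemidef)
    (hconv : ∀ P ∈ T, ∀ P' ∈ T, (1 / 2 : ℝ) • (P + P') ∈ T) :
    ∃ P ∈ T, ∀ P' ∈ T, ∀ v, P *ᵥ v = 0 → P' *ᵥ v = 0 := by
  classical
  obtain ⟨P₀, hP₀⟩ := hne
  obtain ⟨P, hP, hmin⟩ : ∃ P ∈ T, ∀ P' ∈ T,
      Module.finrank ℝ (LinearMap.ker P.mulVecLin) ≤
        Module.finrank ℝ (LinearMap.ker P'.mulVecLin) := by
    have hex : ∃ n : ℕ, ∃ P ∈ T, Module.finrank ℝ (LinearMap.ker P.mulVecLin) = n :=
      ⟨_, P₀, hP₀, rfl⟩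
    obtain ⟨P, hP, hn⟩ := Nat.find_spec hex
    refine ⟨P, hP, fun P' hP' => ?_⟩
    rw [hn]
    exact Nat.find_min' hex ⟨P', hP', rfl⟩
  refine ⟨P, hP, fun P' hP' v hv => ?_⟩
  set M := (1 / 2 : ℝ) • (P + P') with hM
  have hMT : M ∈ T := hconv P hP P' hP'
  have hker : ∀ u, M *ᵥ u = 0 → P *ᵥ u = 0 ∧ P' *ᵥ u = 0 := by
    intro u hu
    have h1 : (P + P') *ᵥ u = 0 := by
      have : (1 / 2 : ℝ) • ((P + P') *ᵥ u) = 0 := by
        rw [← Matrix.smul_mulVec]; exact hu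
      simpa using this
    have h2 : u ⬝ᵥ (P *ᵥ u) + u ⬝ᵥ (P' *ᵥ u) = 0 := by
      rw [← dotProduct_add, ← Matrix.add_mulVec, h1, dotProduct_zero]
    have a := psd_nonneg (hpsd P hP) u
    have b := psd_nonneg (hpsd P' hP') u
    exact ⟨psd_mulVec_zero (hpsd P hP) (by linarith), psd_mulVec_zero (hpsd P' hP') (by linarith)⟩
  have hle : LinearMap.ker M.mulVecLin ≤ LinearMap.ker P.mulVecLin := by
    intro u hu
    simp only [LinearMap.mem_ker, mulVecLin_apply] at hu ⊢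
    exact (hker u hu).1
  have heq : LinearMap.ker M.mulVecLin = LinearMap.ker P.mulVecLin :=
    Submodule.eq_of_le_of_finrank_le hle (hmin M hMT)
  have hvM : v ∈ LinearMap.ker M.mulVecLin := by
    rw [heq]; simpa using hv
  exact (hker v (by simpa using hvM)).2

/-- Factorisation through a matrix with smaller kernel. -/
lemma psd_factor {A₁ A : Matrix (Fin m) (Fin m) ℝ} (h1 : A₁.IsSymm) (hA : A.PosSemidef)
    (h : ∀ v, A₁ *ᵥ v = 0 → A *ᵥ v = 0) :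
    ∃ C : Matrix (Fin m) (Fin m) ℝ, A = A₁ * Cᵀ * C * A₁ := by
  obtain ⟨B, hB⟩ := exists_gram hA
  obtain ⟨C, hC⟩ : ∃ C : Matrix (Fin m) (Fin m) ℝ, B = C * A₁ := by
    refine exists_factor fun v hv => ?_
    have h2 : A *ᵥ v = 0 := h v hv
    have h3 : (B *ᵥ v) ⬝ᵥ (B *ᵥ v) = 0 := by
      have : v ⬝ᵥ (A *ᵥ v) = 0 := by rw [h2, dotProduct_zero]
      rw [hB, ← Matrix.mulVec_mulVec, Matrix.dotProduct_mulVec, Matrix.vecMul_transpose] at this
      exact this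
    exact dotProduct_self_eq_zero.1 h3
  refine ⟨C, ?_⟩
  rw [hB, hC, Matrix.transpose_mul, h1.eq]
  simp only [Matrix.mul_assoc]

/-- `|A v|² ≤ c · vᵀ A v` for a positive semidefinite `A`. -/
lemma psd_sq_le {A : Matrix (Fin m) (Fin m) ℝ} (hA : A.PosSemidef) :
    ∃ c : ℝ, 0 ≤ c ∧ ∀ v : Fin m → ℝ, (A *ᵥ v) ⬝ᵥ (A *ᵥ v) ≤ c * (v ⬝ᵥ (A *ᵥ v)) := by
  obtain ⟨B, hB⟩ := exists_gram hA
  refine ⟨∑ i, ∑ j, Bᵀ i j ^ 2, by positivity, fun v => ?_⟩
  have h1 : v ⬝ᵥ (A *ᵥ v) = (B *ᵥ v) ⬝ᵥ (B *ᵥ v) := by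
    rw [hB, ← Matrix.mulVec_mulVec, Matrix.dotProduct_mulVec, Matrix.vecMul_transpose]
  have h2 : A *ᵥ v = Bᵀ *ᵥ (B *ᵥ v) := by rw [hB, Matrix.mulVec_mulVec]
  rw [h1, h2]
  set y := B *ᵥ v with hy
  simp only [dotProduct, Matrix.mulVec]
  rw [Finset.sum_mul]
  refine Finset.sum_le_sum fun i _ => ?_
  have := Finset.sum_mul_sq_le_sq_mul_sq Finset.univ (fun j => Bᵀ i j) y
  calc _ = (∑ j, Bᵀ i j * y j) ^ 2 := by ring
    _ ≤ (∑ j, Bᵀ i j ^ 2) * ∑ j, y j ^ 2 := this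
    _ = _ := by simp only [pow_two (y _)]

end Vale.Agent.P256.PL.NS
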