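import Vale.Agent.P256.PL.C1

/-!
# P256, module C: scaling of polynomials
-/

namespace Vale.Agent.P256.PL.NS

open MvPolynomial

variable {k : ℕ}

lemma totalDegree_aeval_le {n : ℕ} (f : MvPolynomial (Fin n) ℝ)
    (g : Fin n → MvPolynomial (Fin k) ℝ) (hg : ∀ i, (g i).totalDegree ≤ 1) :
    (aeval g f).totalDegree ≤ f.totalDegree := by
  rw [aeval_def, eval₂_eq']
  refine (totalDegree_finsetSum _ _).trans (Finset.sup_le fun d hd => ?_)
  refine (totalDegree_mul _ _).trans ?_
  have h1 : ((algebraMap ℝ (MvPolynomial (Fin k) ℝ)) (coeff d f)).totalDegree = 0 := by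
    rw [algebraMap_eq]; exact totalDegree_C _
  rw [h1, zero_add]
  refine (totalDegree_finsetProd _ _).trans ?_
  refine le_trans (Finset.sum_le_sum (g := fun i => d i) fun i _ => ?_) ?_
  · refine (totalDegree_pow _ _).trans ?_
    calc d i * (g i).totalDegree ≤ d i * 1 := Nat.mul_le_mul_left _ (hg i)
      _ = d i := mul_one _
  · have := le_totalDegree hd
    rw [Finsupp.sum_fintype _ _ (fun _ => rfl)] at this
    exact this

/-- The substitution `X ↦ ε X`. -/
noncomputable def sc (ε : ℝ) : MvPolynomial (Fin k) ℝ →ₐ[ℝ] MvPolynomial (Fin k) ℝ :=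
  aeval fun j => C ε * X j

lemma totalDegree_CX (ε : ℝ) (j : Fin k) :
    (C ε * X j : MvPolynomial (Fin k) ℝ).totalDegree ≤ 1 := by
  refine (totalDegree_mul _ _).trans ?_
  rw [totalDegree_C, totalDegree_X]

lemma totalDegree_sc (ε : ℝ) (f : MvPolynomial (Fin k) ℝ) :
    (sc ε f).totalDegree ≤ f.totalDegree :=
  totalDegree_aeval_le f _ (totalDegree_CX ε)

lemma sc_hom {n : ℕ} {f : MvPolynomial (Fin k) ℝ} (hf : f.IsHomogeneous n) (ε : ℝ) :
    sc ε f = ε ^ n • f := by
  conv_rhs => rw [f.as_sum]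
  rw [sc, aeval_def, eval₂_eq', Finset.smul_sum]
  refine Finset.sum_congr rfl fun d hd => ?_
  have hdn : d.degree = n := by
    by_contra h
    exact (mem_support_iff.1 hd) (hf.coeff_eq_zero h)
  have h2 : ∏ i, (C ε * X i : MvPolynomial (Fin k) ℝ) ^ d i =
      C (ε ^ n) * monomial d 1 := by
    simp only [mul_pow, Finset.prod_mul_distrib]
    congr 1
    · rw [Finset.prod_pow_eq_pow_sum, ← hdn, C_pow]
      congr 1
      rw [Finsupp.degree_eq_sum]
    · rw [monomial_eq, Finsupp.prod_fintype _ _ (fun _ => pow_zero _)]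
      simp
  rw [h2, algebraMap_eq, ← mul_assoc, ← C_mul, C_mul_monomial, smul_monomial]
  congr 1
  simp [mul_comm]

lemma eq_sum_hc {N : ℕ} {f : MvPolynomial (Fin k) ℝ} (hf : f.totalDegree ≤ N) :
    f = ∑ n ∈ Finset.range (N + 1), homogeneousComponent n f := by
  conv_lhs => rw [← sum_homogeneousComponent f]
  refine Finset.sum_subset (Finset.range_mono (by omega)) fun n _ hn => ?_
  refine homogeneousComponent_eq_zero _ _ ?_
  simp only [Finset.mem_range, not_lt] at hn
  omega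

lemma sc_eq_sum {N : ℕ} {f : MvPolynomial (Fin k) ℝ} (hf : f.totalDegree ≤ N) (ε : ℝ) :
    sc ε f = ∑ n ∈ Finset.range (N + 1), ε ^ n • homogeneousComponent n f := by
  conv_lhs => rw [eq_sum_hc hf]
  rw [map_sum]
  exact Finset.sum_congr rfl fun n _ => sc_hom (homogeneousComponent_isHomogeneous n f) ε

lemma L_sc {N : ℕ} {f : MvPolynomial (Fin k) ℝ} (hf : f.totalDegree ≤ N) (ε : ℝ)
    (L : MvPolynomial (Fin k) ℝ →ₗ[ℝ] ℝ) :
    L (sc ε f) = ∑ n ∈ Finset.range (N + 1), ε ^ n * L (homogeneousComponent n f) := by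
  rw [sc_eq_sum hf, map_sum]
  simp

end Vale.Agent.P256.PL.NS
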