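import Vale.Agent.P256.PL.C2

/-!
# P256, module C: the non-shadow theorem from the lift lemma
-/

namespace Vale.Agent.P256.PL.NS

open MvPolynomial Matrix

/-- The lift lemma. -/
def LiftStmt : Prop :=
  ∀ (k : ℕ) (ι ρ : Type) [Finite ι] [Finite ρ] (F : ρ → MvPolynomial (Fin k ⊕ ι) ℝ),
    (∀ x : Fin k → ℝ, ∃ z : ι → ℝ, ∀ j, eval (Sum.elim x z) (F j) = 0) → ∀ D : ℕ,
    ∃ (x : Fin k → ℝ) (z : ι → MvPolynomial (Fin k) ℝ), (∀ i, (z i).totalDegree ≤ D) ∧
      ∀ j, ∀ n, n ≤ D →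
        homogeneousComponent n (aeval (Sum.elim (fun i => C (x i) + X i) z) (F j)) = 0

section

variable {k n m a : ℕ}

/-- The quadratic entries `(A₁ Cᵀ C A₁)_{ij}` over a commutative ring. -/
def quadE {S : Type*} [CommRing S] (A₁ : Fin m → Fin m → S) (c : Fin m → Fin m → S)
    (i j : Fin m) : S :=
  ∑ r, (∑ q, (∑ p, A₁ i p * c q p) * c q r) * A₁ r j

lemma quadE_eq {S : Type*} [CommRing S] (A₁ : Fin m → Fin m → S) (c : Fin m → Fin m → S)
    (i j : Fin m) :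
    quadE A₁ c i j = ∑ p, ∑ r, (A₁ i p * A₁ r j) * ∑ q, c q p * c q r := by
  unfold quadE
  simp only [Finset.sum_mul, Finset.mul_sum]
  rw [Finset.sum_comm]
  refine (Finset.sum_congr rfl fun q _ => Finset.sum_comm).trans ?_
  rw [Finset.sum_comm]
  refine Finset.sum_congr rfl fun p _ => ?_
  rw [Finset.sum_comm]
  refine Finset.sum_congr rfl fun r _ => Finset.sum_congr rfl fun q _ => ?_
  ring

lemma quadE_matrix (A₁ C' : Matrix (Fin m) (Fin m) ℝ) (i j : Fin m) :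
    (A₁ * C'ᵀ * C' * A₁) i j = quadE (fun i j => A₁ i j) (fun q p => C' q p) i j := by
  simp only [Matrix.mul_apply, Matrix.transpose_apply, quadE]

lemma exists_lift (hL : LiftStmt) (A₀ : Matrix (Fin m) (Fin m) ℝ)
    (A : Fin n → Matrix (Fin m) (Fin m) ℝ) (B : Fin a → Matrix (Fin m) (Fin m) ℝ)
    (A₁ : Matrix (Fin m) (Fin m) ℝ) (ν : Fin n → MvPolynomial (Fin k) ℝ)
    (h : ∀ x : Fin k → ℝ, ∃ (z : Fin a → ℝ) (C' : Matrix (Fin m) (Fin m) ℝ),
      A₀ + ∑ l, eval x (ν l) • A l + ∑ l, z l • B l = A₁ * C'ᵀ * C' * A₁) (D : ℕ) :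
    ∃ (ξ : Fin k → ℝ) (z : Fin a → MvPolynomial (Fin k) ℝ)
      (c : Fin m → Fin m → MvPolynomial (Fin k) ℝ),
      (∀ l, (z l).totalDegree ≤ D) ∧ (∀ p q, (c p q).totalDegree ≤ D) ∧
      ∀ i j, ∀ N, N ≤ D → homogeneousComponent N
        (C (A₀ i j) + ∑ l, aeval (fun t => C (ξ t) + X t) (ν l) * C (A l i j) +
          ∑ l, z l * C (B l i j)) =
        homogeneousComponent N (quadE (fun i j => C (A₁ i j)) c i j) := by
  obtain ⟨ξ, z, hz, hF⟩ := hL k (Fin a ⊕ (Fin m × Fin m)) (Fin m × Fin m)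
    (fun ij => C (A₀ ij.1 ij.2) + ∑ l, rename Sum.inl (ν l) * C (A l ij.1 ij.2) +
      ∑ l, X (Sum.inr (Sum.inl l)) * C (B l ij.1 ij.2) -
      quadE (fun i j => C (A₁ i j)) (fun q p => X (Sum.inr (Sum.inr (q, p)))) ij.1 ij.2)
    (fun x => by
      obtain ⟨z, C', hz⟩ := h x
      refine ⟨Sum.elim z fun qp => C' qp.1 qp.2, fun ij => ?_⟩
      have h1 := congrFun (congrFun hz ij.1) ij.2
      rw [quadE_matrix] at h1
      simp only [Matrix.add_apply, Matrix.sum_apply, Matrix.smul_apply, smul_eq_mul] at h1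
      simp only [quadE, map_sub, map_add, map_sum, map_mul, eval_C, eval_X, eval_rename,
        Sum.elim_inr, Sum.elim_inl, Sum.elim_comp_inl]
      rw [quadE] at h1
      rw [h1]
      exact sub_self _) D
  refine ⟨ξ, fun l => z (Sum.inl l), fun q p => z (Sum.inr (q, p)), fun l => hz _,
    fun p q => hz _, fun i j N hN => ?_⟩
  have h1 := hF (i, j) N hN
  rw [map_sub, map_sub, sub_eq_zero] at h1
  have h2 : aeval (Sum.elim (fun i => C (ξ i) + X i) z)
      (quadE (fun i j => C (A₁ i j)) (fun q p => X (Sum.inr (Sum.inr (q, p)))) i j) =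
      quadE (fun i j => C (A₁ i j)) (fun q p => z (Sum.inr (q, p))) i j := by
    simp only [quadE, map_sum, map_mul, aeval_C, aeval_X, Sum.elim_inr, algebraMap_eq]
  rw [h2] at h1
  rw [← h1]
  congr 1
  simp only [map_add, map_sum, map_mul, aeval_C, aeval_X, aeval_rename, Sum.elim_inr,
    algebraMap_eq, Sum.elim_comp_inl]

end

end Vale.Agent.P256.PL.NS
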