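import Vale.Agent.P256.PL.C3

/-!
# P256, module C: the psd inequality
-/

namespace Vale.Agent.P256.PL.NS

open MvPolynomial Matrix

section

variable {k n m a : ℕ}

/-- A double sum bound. -/
lemma abs_double_le (y : Fin m → ℝ) (E : Fin m → Fin m → ℝ) (c : ℝ)
    (hE : ∀ p r, |E p r| ≤ c) :
    |∑ p, ∑ r, (y p * y r) * E p r| ≤ c * m * (y ⬝ᵥ y) := by
  have h1 : ∀ p r, |(y p * y r) * E p r| ≤ c * ((y p ^ 2 + y r ^ 2) / 2) := by
    intro p r
    rw [abs_mul]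
    have hc : 0 ≤ c := (abs_nonneg _).trans (hE p r)
    have h2 : |y p * y r| ≤ (y p ^ 2 + y r ^ 2) / 2 := by
      rw [abs_le]; constructor <;> nlinarith [sq_nonneg (y p + y r), sq_nonneg (y p - y r)]
    calc |y p * y r| * |E p r| ≤ ((y p ^ 2 + y r ^ 2) / 2) * c :=
          mul_le_mul h2 (hE p r) (abs_nonneg _) (by positivity)
      _ = _ := by ring
  calc |∑ p, ∑ r, (y p * y r) * E p r| ≤ ∑ p, ∑ r, c * ((y p ^ 2 + y r ^ 2) / 2) := by
        refine (Finset.abs_sum_le_sum_abs _ _).trans (Finset.sum_le_sum fun p _ => ?_)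
        exact (Finset.abs_sum_le_sum_abs _ _).trans (Finset.sum_le_sum fun r _ => h1 p r)
    _ = c * m * (y ⬝ᵥ y) := by
        simp only [← Finset.mul_sum, dotProduct]
        have : ∑ p, ∑ r, (y p ^ 2 + y r ^ 2) / 2 = m * ∑ i, y i * y i := by
          simp only [← Finset.sum_div, Finset.sum_add_distrib, Finset.sum_const,
            Finset.card_univ, Fintype.card_fin, nsmul_eq_mul, ← Finset.mul_sum]
          simp only [pow_two]
          ring
        rw [this]; ring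

lemma double_quad (A₁ : Matrix (Fin m) (Fin m) ℝ) (T : Fin m → Fin m → ℝ) (h1 : A₁.IsSymm)
    (v : Fin m → ℝ) :
    ∑ i, ∑ j, v i * v j * (∑ p, ∑ r, (A₁ i p * A₁ r j) * T p r) =
      ∑ p, ∑ r, ((A₁ *ᵥ v) p * (A₁ *ᵥ v) r) * T p r := by
  have hs : ∀ i p, A₁ i p = A₁ p i := fun i p => h1.apply p i
  have hy : ∀ p, (A₁ *ᵥ v) p = ∑ i, A₁ i p * v i := by
    intro p
    simp only [Matrix.mulVec, dotProduct]
    exact Finset.sum_congr rfl fun i _ => by rw [hs p i]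
  have hy' : ∀ r, (A₁ *ᵥ v) r = ∑ j, A₁ r j * v j := fun r => rfl
  calc ∑ i, ∑ j, v i * v j * (∑ p, ∑ r, (A₁ i p * A₁ r j) * T p r)
      = ∑ p, ∑ r, ∑ i, ∑ j, v i * v j * ((A₁ i p * A₁ r j) * T p r) := by
        simp only [Finset.mul_sum]
        rw [Finset.sum_congr rfl fun i _ => Finset.sum_comm, Finset.sum_comm]
        refine Finset.sum_congr rfl fun p _ => ?_
        rw [Finset.sum_congr rfl fun i _ => Finset.sum_comm, Finset.sum_comm]
    _ = _ := by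
        refine Finset.sum_congr rfl fun p _ => Finset.sum_congr rfl fun r _ => ?_
        rw [hy p, hy' r, Finset.sum_mul_sum, Finset.sum_mul]
        refine Finset.sum_congr rfl fun i _ => ?_
        rw [Finset.sum_mul]
        refine Finset.sum_congr rfl fun j _ => ?_
        ring

/-- The matrix `CᵀC` of polynomials. -/
noncomputable def PP (c : Fin m → Fin m → MvPolynomial (Fin k) ℝ) (p r : Fin m) :
    MvPolynomial (Fin k) ℝ := ∑ q, c q p * c q r

lemma PP_deg {c : Fin m → Fin m → MvPolynomial (Fin k) ℝ} {D : ℕ}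
    (hc : ∀ p q, (c p q).totalDegree ≤ D) (p r : Fin m) : (PP c p r).totalDegree ≤ 2 * D := by
  refine (totalDegree_finsetSum _ _).trans (Finset.sup_le fun q _ => ?_)
  refine (totalDegree_mul _ _).trans ?_
  have := hc q p; have := hc q r; omega

/-- The low degree part. -/
noncomputable def TT (L : MvPolynomial (Fin k) ℝ →ₗ[ℝ] ℝ) (D : ℕ) (ε : ℝ)
    (c : Fin m → Fin m → MvPolynomial (Fin k) ℝ) (p r : Fin m) : ℝ :=
  ∑ N ∈ Finset.range (D + 1), ε ^ N * L (homogeneousComponent N (PP c p r))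

/-- The tail bound. -/
noncomputable def MM (L : MvPolynomial (Fin k) ℝ →ₗ[ℝ] ℝ) (D : ℕ)
    (c : Fin m → Fin m → MvPolynomial (Fin k) ℝ) : ℝ :=
  ∑ p, ∑ r, ∑ N ∈ Finset.range (2 * D + 1), |L (homogeneousComponent N (PP c p r))|

lemma TT_eq (L : MvPolynomial (Fin k) ℝ →ₗ[ℝ] ℝ) (D : ℕ) (ε : ℝ)
    (A₁ : Fin m → Fin m → ℝ)
    (f : Fin m → Fin m → MvPolynomial (Fin k) ℝ) (c : Fin m → Fin m → MvPolynomial (Fin k) ℝ)
    (hf : ∀ i j, (f i j).totalDegree ≤ D)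
    (hfc : ∀ i j, ∀ N, N ≤ D → homogeneousComponent N (f i j) =
      homogeneousComponent N (quadE (fun i j => C (A₁ i j)) c i j)) (i j : Fin m) :
    L (sc ε (f i j)) = ∑ p, ∑ r, (A₁ i p * A₁ r j) * TT L D ε c p r := by
  rw [L_sc (hf i j)]
  have h1 : ∀ N ∈ Finset.range (D + 1), ε ^ N * L (homogeneousComponent N (f i j)) =
      ∑ p, ∑ r, (A₁ i p * A₁ r j) * (ε ^ N * L (homogeneousComponent N (PP c p r))) := by
    intro N hN
    rw [hfc i j N (by simpa [Nat.lt_succ_iff] using hN), quadE_eq]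
    have h2 : ∑ p, ∑ r, (C (A₁ i p) * C (A₁ r j)) * ∑ q, c q p * c q r =
        ∑ p, ∑ r, C (A₁ i p * A₁ r j) * PP c p r := by
      refine Finset.sum_congr rfl fun p _ => Finset.sum_congr rfl fun r _ => ?_
      rw [C_mul]; rfl
    rw [h2, map_sum, map_sum, Finset.mul_sum]
    refine Finset.sum_congr rfl fun p _ => ?_
    rw [map_sum, map_sum, Finset.mul_sum]
    refine Finset.sum_congr rfl fun r _ => ?_
    rw [homogeneousComponent_C_mul, ← smul_eq_C_mul, map_smul, smul_eq_mul]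
    ring
  rw [Finset.sum_congr rfl h1, Finset.sum_comm]
  refine Finset.sum_congr rfl fun p _ => ?_
  rw [Finset.sum_comm]
  refine Finset.sum_congr rfl fun r _ => ?_
  rw [TT, Finset.mul_sum]

lemma tail_le (L : MvPolynomial (Fin k) ℝ →ₗ[ℝ] ℝ) (D : ℕ) {ε : ℝ} (hε0 : 0 < ε)
    (hεle1 : ε ≤ 1) (c : Fin m → Fin m → MvPolynomial (Fin k) ℝ)
    (hc : ∀ p q, (c p q).totalDegree ≤ D) (p r : Fin m) :
    |L (sc ε (PP c p r)) - TT L D ε c p r| ≤ ε ^ (D + 1) * MM L D c := by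
  have h1 : L (sc ε (PP c p r)) - TT L D ε c p r = ∑ N ∈ Finset.Ico (D + 1) (2 * D + 1),
      ε ^ N * L (homogeneousComponent N (PP c p r)) := by
    rw [TT, L_sc (PP_deg hc p r), Finset.sum_Ico_eq_sub _ (by omega)]
  rw [h1]
  refine (Finset.abs_sum_le_sum_abs _ _).trans ?_
  have h2 : ∑ N ∈ Finset.Ico (D + 1) (2 * D + 1),
      |ε ^ N * L (homogeneousComponent N (PP c p r))| ≤
      ∑ N ∈ Finset.Ico (D + 1) (2 * D + 1),
        ε ^ (D + 1) * |L (homogeneousComponent N (PP c p r))| := by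
    refine Finset.sum_le_sum fun N hN => ?_
    rw [abs_mul, abs_of_nonneg (by positivity : (0 : ℝ) ≤ ε ^ N)]
    refine mul_le_mul_of_nonneg_right ?_ (abs_nonneg _)
    exact pow_le_pow_of_le_one hε0.le hεle1 (Finset.mem_Ico.1 hN).1
  refine h2.trans ?_
  rw [← Finset.mul_sum]
  refine mul_le_mul_of_nonneg_left ?_ (by positivity)
  have h3 : ∑ N ∈ Finset.Ico (D + 1) (2 * D + 1), |L (homogeneousComponent N (PP c p r))| ≤
      ∑ N ∈ Finset.range (2 * D + 1), |L (homogeneousComponent N (PP c p r))| := by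
    refine Finset.sum_le_sum_of_subset_of_nonneg ?_ fun _ _ _ => abs_nonneg _
    intro N hN
    exact Finset.mem_range.2 (Finset.mem_Ico.1 hN).2
  refine h3.trans ?_
  have key : ∀ g : Fin m → Fin m → ℝ, (∀ p r, 0 ≤ g p r) → g p r ≤ ∑ p, ∑ r, g p r := by
    intro g hg
    refine le_trans ?_ (Finset.single_le_sum (f := fun p => ∑ r, g p r)
      (fun p _ => Finset.sum_nonneg fun r _ => hg p r) (Finset.mem_univ p))
    exact Finset.single_le_sum (f := fun r => g p r) (fun r _ => hg p r) (Finset.mem_univ r)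
  exact key (fun p r => ∑ N ∈ Finset.range (2 * D + 1), |L (homogeneousComponent N (PP c p r))|)
    (fun p r => Finset.sum_nonneg fun _ _ => abs_nonneg _)

lemma gram_nonneg (L : MvPolynomial (Fin k) ℝ →ₗ[ℝ] ℝ) (D : ℕ) (ε : ℝ)
    (hLpos : ∀ f : MvPolynomial (Fin k) ℝ, f.totalDegree ≤ D → 0 ≤ L (f * f))
    (c : Fin m → Fin m → MvPolynomial (Fin k) ℝ)
    (hc : ∀ p q, (c p q).totalDegree ≤ D) (y : Fin m → ℝ) :
    0 ≤ ∑ p, ∑ r, (y p * y r) * L (sc ε (PP c p r)) := by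
  have h2 : ∑ p, ∑ r, (y p * y r) • sc ε (PP c p r) =
      ∑ q, (sc ε (∑ p, C (y p) * c q p)) * (sc ε (∑ p, C (y p) * c q p)) := by
    have h3 : ∀ q, (sc ε (∑ p, C (y p) * c q p)) * (sc ε (∑ p, C (y p) * c q p)) =
        ∑ p, ∑ r, (y p * y r) • (sc ε (c q p) * sc ε (c q r)) := by
      intro q
      rw [map_sum, Finset.sum_mul_sum]
      refine Finset.sum_congr rfl fun p _ => Finset.sum_congr rfl fun r _ => ?_
      rw [← smul_eq_C_mul, ← smul_eq_C_mul, map_smul, map_smul, smul_mul_smul_comm]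
    have h4 : ∀ p r, (y p * y r) • sc ε (PP c p r) =
        ∑ q, (y p * y r) • (sc ε (c q p) * sc ε (c q r)) := by
      intro p r
      rw [PP, map_sum, Finset.smul_sum]
      simp only [map_mul]
    simp only [h3, h4]
    rw [Finset.sum_congr rfl fun p _ => Finset.sum_comm, Finset.sum_comm]
  have h1 : ∑ p, ∑ r, (y p * y r) * L (sc ε (PP c p r)) =
      L (∑ p, ∑ r, (y p * y r) • sc ε (PP c p r)) := by
    rw [map_sum]
    refine Finset.sum_congr rfl fun p _ => ?_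
    rw [map_sum]
    refine Finset.sum_congr rfl fun r _ => ?_
    rw [map_smul, smul_eq_mul]
  rw [h1, h2, map_sum]
  refine Finset.sum_nonneg fun q _ => hLpos _ ((totalDegree_sc _ _).trans ?_)
  refine (totalDegree_finsetSum _ _).trans (Finset.sup_le fun p _ => ?_)
  refine (totalDegree_mul _ _).trans ?_
  rw [totalDegree_C, zero_add]
  exact hc q p

/-- The key inequality. -/
lemma key_ineq (L : MvPolynomial (Fin k) ℝ →ₗ[ℝ] ℝ) (D : ℕ)
    (hLpos : ∀ f : MvPolynomial (Fin k) ℝ, f.totalDegree ≤ D → 0 ≤ L (f * f))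
    (A₁ : Matrix (Fin m) (Fin m) ℝ) (hA₁ : A₁.PosSemidef) (hsymm : A₁.IsSymm)
    (f : Fin m → Fin m → MvPolynomial (Fin k) ℝ) (c : Fin m → Fin m → MvPolynomial (Fin k) ℝ)
    (hf : ∀ i j, (f i j).totalDegree ≤ D) (hc : ∀ p q, (c p q).totalDegree ≤ D)
    (hfc : ∀ i j, ∀ N, N ≤ D → homogeneousComponent N (f i j) =
      homogeneousComponent N (quadE (fun i j => C (A₁ i j)) c i j)) :
    ∃ ε₀ : ℝ, 0 < ε₀ ∧ ∀ ε : ℝ, 0 < ε → ε ≤ ε₀ → ∀ v : Fin m → ℝ,
      0 ≤ ∑ i, ∑ j, v i * v j * L (sc ε (f i j)) + ε ^ D * (v ⬝ᵥ (A₁ *ᵥ v)) := by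
  obtain ⟨c₁, hc₁0, hc₁⟩ := psd_sq_le hA₁
  set M : ℝ := MM L D c with hM
  have hM0 : 0 ≤ M := by rw [hM, MM]; positivity
  refine ⟨min 1 (1 / (M * m * c₁ + 1)), by positivity, fun ε hε0 hε1 v => ?_⟩
  have hεle1 : ε ≤ 1 := hε1.trans (min_le_left _ _)
  have hεM : ε * (M * m * c₁) ≤ 1 := by
    have h1 : ε ≤ 1 / (M * m * c₁ + 1) := hε1.trans (min_le_right _ _)
    have h2 : 0 < M * m * c₁ + 1 := by positivity
    rw [le_div_iff₀ h2] at h1
    nlinarith
  set y := A₁ *ᵥ v with hy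
  have hquad : ∑ i, ∑ j, v i * v j * L (sc ε (f i j)) =
      ∑ p, ∑ r, (y p * y r) * TT L D ε c p r := by
    rw [hy, ← double_quad A₁ _ hsymm v]
    refine Finset.sum_congr rfl fun i _ => Finset.sum_congr rfl fun j _ => ?_
    rw [TT_eq L D ε (fun i j => A₁ i j) f c hf hfc i j]
  have hsplit : ∑ p, ∑ r, (y p * y r) * TT L D ε c p r =
      ∑ p, ∑ r, (y p * y r) * L (sc ε (PP c p r)) -
        ∑ p, ∑ r, (y p * y r) * (L (sc ε (PP c p r)) - TT L D ε c p r) := by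
    rw [← Finset.sum_sub_distrib]
    refine Finset.sum_congr rfl fun p _ => ?_
    rw [← Finset.sum_sub_distrib]
    refine Finset.sum_congr rfl fun r _ => ?_
    ring
  have hpos := gram_nonneg L D ε hLpos c hc y
  have herr := abs_double_le y _ _ (tail_le L D hε0 hεle1 c hc)
  have hvA : 0 ≤ v ⬝ᵥ (A₁ *ᵥ v) := psd_nonneg hA₁ v
  have hyy : y ⬝ᵥ y ≤ c₁ * (v ⬝ᵥ (A₁ *ᵥ v)) := hc₁ v
  rw [hquad, hsplit]
  have h5 : ∑ p, ∑ r, (y p * y r) * (L (sc ε (PP c p r)) - TT L D ε c p r) ≤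
      ε ^ D * (v ⬝ᵥ (A₁ *ᵥ v)) := by
    refine (le_abs_self _).trans (herr.trans ?_)
    calc ε ^ (D + 1) * M * m * (y ⬝ᵥ y) ≤ ε ^ (D + 1) * M * m * (c₁ * (v ⬝ᵥ (A₁ *ᵥ v))) :=
          mul_le_mul_of_nonneg_left hyy (by positivity)
      _ = ε ^ D * ((ε * (M * m * c₁)) * (v ⬝ᵥ (A₁ *ᵥ v))) := by ring
      _ ≤ ε ^ D * (1 * (v ⬝ᵥ (A₁ *ᵥ v))) := by
          refine mul_le_mul_of_nonneg_left ?_ (by positivity)
          exact mul_le_mul_of_nonneg_right hεM hvA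
      _ = _ := by rw [one_mul]
  linarith

end

end Vale.Agent.P256.PL.NS
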