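import Vale.Agent.P256.PL.C4

/-!
# P256, module C: assembly of the non-shadow theorem
-/

namespace Vale.Agent.P256.PL.NS

open MvPolynomial Matrix

section

variable {k n m a : ℕ}

/-- The affine family of matrices. -/
def Aff (A₀ : Matrix (Fin m) (Fin m) ℝ) (A : Fin n → Matrix (Fin m) (Fin m) ℝ)
    (B : Fin a → Matrix (Fin m) (Fin m) ℝ) (u : Fin n → ℝ) (z : Fin a → ℝ) :
    Matrix (Fin m) (Fin m) ℝ := A₀ + ∑ i, u i • A i + ∑ j, z j • B j

lemma Aff_comb (A₀ : Matrix (Fin m) (Fin m) ℝ) (A : Fin n → Matrix (Fin m) (Fin m) ℝ)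
    (B : Fin a → Matrix (Fin m) (Fin m) ℝ) (u u' : Fin n → ℝ) (z z' : Fin a → ℝ) (s t : ℝ)
    (hst : s + t = 1) :
    s • Aff A₀ A B u z + t • Aff A₀ A B u' z' =
      Aff A₀ A B (fun i => s * u i + t * u' i) (fun j => s * z j + t * z' j) := by
  ext i j
  simp only [Aff, Matrix.add_apply, Matrix.smul_apply, Matrix.sum_apply, smul_eq_mul,
    add_mul, Finset.sum_add_distrib, mul_add, Finset.mul_sum, mul_assoc]
  have : A₀ i j = s * A₀ i j + t * A₀ i j := by rw [← add_mul, hst, one_mul]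
  linarith

lemma Aff_symm {A₀ : Matrix (Fin m) (Fin m) ℝ} {A : Fin n → Matrix (Fin m) (Fin m) ℝ}
    {B : Fin a → Matrix (Fin m) (Fin m) ℝ} (hA₀ : A₀.IsSymm) (hA : ∀ i, (A i).IsSymm)
    (hB : ∀ j, (B j).IsSymm) (u : Fin n → ℝ) (z : Fin a → ℝ) : (Aff A₀ A B u z).IsSymm := by
  refine Matrix.IsSymm.ext fun i j => ?_
  simp only [Aff, Matrix.add_apply, Matrix.smul_apply, Matrix.sum_apply, smul_eq_mul]
  rw [hA₀.apply i j]
  congr 1
  · congr 1
    exact Finset.sum_congr rfl fun l _ => by rw [(hA l).apply i j]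
  · exact Finset.sum_congr rfl fun l _ => by rw [(hB l).apply i j]

lemma dot_mulVec (M : Matrix (Fin m) (Fin m) ℝ) (v : Fin m → ℝ) :
    v ⬝ᵥ (M *ᵥ v) = ∑ i, ∑ j, v i * v j * M i j := by
  simp only [dotProduct, Matrix.mulVec, Finset.mul_sum]
  exact Finset.sum_congr rfl fun i _ => Finset.sum_congr rfl fun j _ => by ring

lemma psd_of_dot {M : Matrix (Fin m) (Fin m) ℝ} (hM : M.IsSymm)
    (h : ∀ v : Fin m → ℝ, 0 ≤ v ⬝ᵥ (M *ᵥ v)) : M.PosSemidef := by
  refine Matrix.PosSemidef.of_dotProduct_mulVec_nonneg ?_ fun v => ?_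
  · rw [Matrix.IsHermitian, conjTranspose_eq_transpose_of_trivial]; exact hM
  · simpa only [star_trivial] using h v

lemma eval_smul_hom {d : ℕ} {p : MvPolynomial (Fin n) ℝ} (hp : p.IsHomogeneous d) (c : ℝ)
    (x : Fin n → ℝ) : eval (fun i => c * x i) p = c ^ d * eval x p := by
  have h1 := congrArg (eval x) (sc_hom hp c)
  rw [smul_eval] at h1
  rw [← h1, sc, ← MvPolynomial.coe_aeval_eq_eval, ← MvPolynomial.coe_aeval_eq_eval]
  simp only [RingHom.coe_coe]
  rw [← AlgHom.comp_apply, comp_aeval]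
  simp

end

/-- The polynomial argument: `p(U(ε) + ε^(w+1) u₁) ≥ 0` for small `ε > 0` and
`p(U(ε)) = ε^w c` imply `c ≥ 0`. -/
lemma limit_arg {n w : ℕ} (p : MvPolynomial (Fin n) ℝ) (U : Fin n → Polynomial ℝ)
    (u₁ : Fin n → ℝ) (c : ℝ) (h1 : ∀ ε : ℝ, eval (fun i => (U i).eval ε) p = ε ^ w * c)
    (ε₀ : ℝ) (hε₀ : 0 < ε₀)
    (h2 : ∀ ε : ℝ, 0 < ε → ε ≤ ε₀ → 0 ≤ eval (fun i => (U i).eval ε + ε ^ (w + 1) * u₁ i) p) :
    0 ≤ c := by
  set V : Fin n → Polynomial ℝ := fun i => U i + Polynomial.X ^ (w + 1) * Polynomial.C (u₁ i)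
    with hV
  have hdvd : (Polynomial.X ^ (w + 1) : Polynomial ℝ) ∣ aeval V p - aeval U p := by
    rw [← Ideal.mem_span_singleton, ← Ideal.Quotient.eq]
    have h3 : ∀ W : Fin n → Polynomial ℝ,
        Ideal.Quotient.mk (Ideal.span {(Polynomial.X ^ (w + 1) : Polynomial ℝ)}) (aeval W p) =
        aeval (fun i => Ideal.Quotient.mk (Ideal.span {(Polynomial.X ^ (w + 1) : Polynomial ℝ)})
          (W i)) p := by
      intro W
      have := MvPolynomial.comp_aeval_apply (f := W)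
        (φ := Ideal.Quotient.mkₐ ℝ (Ideal.span {(Polynomial.X ^ (w + 1) : Polynomial ℝ)})) p
      simpa using this
    rw [h3, h3]
    congr 1
    congr 1
    funext i
    rw [Ideal.Quotient.eq, Ideal.mem_span_singleton]
    simp [hV]
  obtain ⟨g, hg⟩ := hdvd
  have hev : ∀ (W : Fin n → Polynomial ℝ) (ε : ℝ),
      (aeval W p).eval ε = eval (fun i => (W i).eval ε) p := by
    intro W ε
    have := MvPolynomial.comp_aeval_apply (f := W) (φ := Polynomial.aeval ε) p
    simpa [Polynomial.coe_aeval_eq_eval, MvPolynomial.coe_aeval_eq_eval] using this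
  have h4 : ∀ ε : ℝ, 0 < ε → ε ≤ ε₀ → 0 ≤ c + ε * g.eval ε := by
    intro ε h0 h0'
    have h5 := h2 ε h0 h0'
    have h6 := congrArg (Polynomial.eval ε) hg
    rw [Polynomial.eval_sub, hev, hev, h1, Polynomial.eval_mul] at h6
    simp only [hV, Polynomial.eval_add, Polynomial.eval_mul, Polynomial.eval_pow,
      Polynomial.eval_X, Polynomial.eval_C] at h6
    have h7 : 0 ≤ ε ^ w * (c + ε * g.eval ε) := by
      have : ε ^ w * (c + ε * g.eval ε) = ε ^ w * c + ε ^ (w + 1) * g.eval ε := by ring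
      rw [this]; linarith
    exact nonneg_of_mul_nonneg_right h7 (by positivity)
  have hcont : Continuous fun ε : ℝ => c + ε * g.eval ε :=
    continuous_const.add (continuous_id.mul g.continuous)
  have hlim : Filter.Tendsto (fun ε : ℝ => c + ε * g.eval ε) (nhdsWithin 0 (Set.Ioi 0))
      (nhds c) := by
    have := (hcont.tendsto 0).mono_left (nhdsWithin_le_nhds (s := Set.Ioi (0 : ℝ)))
    simpa using this
  refine ge_of_tendsto hlim ?_
  filter_upwards [Ioc_mem_nhdsGT hε₀] with ε hε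
  exact h4 ε hε.1 hε.2

theorem stmtC_of_lift (hLift : LiftStmt) : StmtC := by
  intro k n d w p K ν L hp hK hpK hν hνdeg hL1 hLpos hinv
  obtain ⟨m, a, A₀, A, B, hA₀, hA, hB, rfl⟩ := hK
  have hmem : ∀ u : Fin n → ℝ, ∀ z : Fin a → ℝ, (Aff A₀ A B u z).PosSemidef →
      0 ≤ eval u p := fun u z h => hpK u ⟨z, h⟩
  -- the maximal point
  obtain ⟨A₁, ⟨u₁, z₁, rfl, hA₁⟩, hmax⟩ := exists_max
    {P : Matrix (Fin m) (Fin m) ℝ | ∃ u z, P = Aff A₀ A B u z ∧ P.PosSemidef}
    (by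
      obtain ⟨z, hz⟩ := hν 0
      exact ⟨_, _, z, rfl, hz⟩)
    (fun P ⟨_, _, _, h⟩ => h)
    (by
      rintro _ ⟨u, z, rfl, h⟩ _ ⟨u', z', rfl, h'⟩
      refine ⟨fun i => 1 / 2 * u i + 1 / 2 * u' i, fun i => 1 / 2 * z i + 1 / 2 * z' i, ?_, ?_⟩
      · rw [smul_add]
        exact Aff_comb A₀ A B u u' z z' _ _ (by norm_num)
      · exact (h.add h').smul (by norm_num))
  have hsymm₁ := Aff_symm hA₀ hA hB u₁ z₁
  set A₁ := Aff A₀ A B u₁ z₁ with hA₁def
  obtain ⟨ξ, z, c, hz, hc, hcomp⟩ := exists_lift hLift A₀ A B A₁ ν (fun x => by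
    obtain ⟨z, hz⟩ := hν x
    obtain ⟨C', hC'⟩ := psd_factor hsymm₁ hz (hmax _ ⟨_, z, rfl, hz⟩)
    exact ⟨z, C', hC'⟩) (w + 1)
  set νξ : Fin n → MvPolynomial (Fin k) ℝ := fun l => aeval (fun t => C (ξ t) + X t) (ν l)
    with hνξ
  have hνξdeg : ∀ l, (νξ l).totalDegree ≤ w + 1 := by
    intro l
    refine (totalDegree_aeval_le _ _ fun i => ?_).trans (hνdeg l)
    refine (totalDegree_add _ _).trans ?_
    simp [totalDegree_C, totalDegree_X]
  set f : Fin m → Fin m → MvPolynomial (Fin k) ℝ := fun i j =>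
    C (A₀ i j) + ∑ l, νξ l * C (A l i j) + ∑ l, z l * C (B l i j) with hf
  have hmulC : ∀ (g : MvPolynomial (Fin k) ℝ) (r : ℝ), g.totalDegree ≤ w + 1 →
      (g * C r).totalDegree ≤ w + 1 := by
    intro g r hg
    refine (totalDegree_mul _ _).trans ?_
    rw [totalDegree_C]; exact hg
  have hfdeg : ∀ i j, (f i j).totalDegree ≤ w + 1 := by
    intro i j
    refine (totalDegree_add _ _).trans (max_le ((totalDegree_add _ _).trans (max_le ?_ ?_)) ?_)
    · rw [totalDegree_C]; exact Nat.zero_le _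
    · exact (totalDegree_finsetSum _ _).trans (Finset.sup_le fun l _ => hmulC _ _ (hνξdeg l))
    · exact (totalDegree_finsetSum _ _).trans (Finset.sup_le fun l _ => hmulC _ _ (hz l))
  obtain ⟨ε₀, hε₀, hkey⟩ := key_ineq L (w + 1) hLpos A₁ hA₁ hsymm₁ f c hfdeg hc hcomp
  -- the curve
  have hLsc : ∀ ε : ℝ, ∀ i j, L (sc ε (f i j)) =
      Aff A₀ A B (fun l => L (sc ε (νξ l))) (fun l => L (sc ε (z l))) i j := by
    intro ε i j
    have hC : ∀ r : ℝ, L (C r) = r := by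
      intro r
      rw [← mul_one (C r), ← smul_eq_C_mul, map_smul, hL1, smul_eq_mul, mul_one]
    have hmulC' : ∀ (g : MvPolynomial (Fin k) ℝ) (r : ℝ), L (sc ε (g * C r)) =
        L (sc ε g) * r := by
      intro g r
      rw [mul_comm g, ← smul_eq_C_mul, map_smul, map_smul, smul_eq_mul, mul_comm]
    have hscC : ∀ r : ℝ, sc (k := k) ε (C r) = C r := fun r => by
      rw [sc, aeval_C, algebraMap_eq]
    simp only [hf, map_add, map_sum, hmulC', hscC, hC, Aff, Matrix.add_apply,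
      Matrix.sum_apply, Matrix.smul_apply, smul_eq_mul]
  have hcurve : ∀ ε : ℝ, 0 < ε → ε ≤ ε₀ →
      0 ≤ eval (fun l => L (sc ε (νξ l)) + ε ^ (w + 1) * u₁ l) p := by
    intro ε h0 h0'
    set uε : Fin n → ℝ := fun l => L (sc ε (νξ l)) with huε
    set zε : Fin a → ℝ := fun l => L (sc ε (z l)) with hzε
    set t : ℝ := ε ^ (w + 1) with ht
    have ht0 : 0 < t := by positivity
    have hpsd : (Aff A₀ A B uε zε + t • A₁).PosSemidef := by
      refine psd_of_dot ?_ fun v => ?_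
      · exact (Aff_symm hA₀ hA hB _ _).add (hsymm₁.smul _)
      · have h1 := hkey ε h0 h0' v
        rw [Matrix.add_mulVec, dotProduct_add, Matrix.smul_mulVec, dotProduct_smul, smul_eq_mul,
          dot_mulVec (Aff A₀ A B uε zε)]
        simpa only [hLsc ε] using h1
    have hs : (1 + t)⁻¹ + (1 + t)⁻¹ * t = 1 := by
      field_simp
    have h3 : ((1 + t)⁻¹ • Aff A₀ A B uε zε + ((1 + t)⁻¹ * t) • A₁).PosSemidef := by
      have := hpsd.smul (show (0 : ℝ) ≤ (1 + t)⁻¹ by positivity)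
      rwa [smul_add, smul_smul] at this
    rw [hA₁def, Aff_comb _ _ _ _ _ _ _ _ _ hs] at h3
    have h4 := hmem _ _ h3
    have h5 : (fun i => (1 + t)⁻¹ * uε i + (1 + t)⁻¹ * t * u₁ i) =
        fun i => (1 + t)⁻¹ * (uε i + t * u₁ i) := by
      funext i; ring
    rw [h5, eval_smul_hom hp] at h4
    exact nonneg_of_mul_nonneg_right h4 (by positivity)
  -- polynomials in ε
  set U : Fin n → Polynomial ℝ := fun l =>
    ∑ N ∈ Finset.range (w + 2), Polynomial.monomial N (L (homogeneousComponent N (νξ l))) with hU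
  have hUev : ∀ ε l, (U l).eval ε = L (sc ε (νξ l)) := by
    intro ε l
    rw [L_sc (hνξdeg l), hU]
    simp only [Polynomial.eval_finsetSum, Polynomial.eval_monomial]
    exact Finset.sum_congr rfl fun N _ => mul_comm _ _
  refine limit_arg (w := w) p U u₁ _ (fun ε => ?_) ε₀ hε₀ (fun ε h0 h0' => ?_)
  · rw [← hinv ξ ε]
    congr 1
    congr 1
    funext l
    rw [hUev]
    congr 1
    rw [hνξ, sc]
    simp only
    rw [← AlgHom.comp_apply, comp_aeval]
    congr 1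
    congr 1
    funext j
    simp [algebraMap_eq]
  · simp only [hUev]
    exact hcurve ε h0 h0'

end Vale.Agent.P256.PL.NS
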