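import Vale.Agent.P256.PL.Stmts
import Mathlib.Combinatorics.Nullstellensatz

/-!
# P256 PL, module C6: extension of a pseudo-moment functional to all degrees
-/

namespace Vale.Agent.P256.PL

open MvPolynomial Filter Topology

namespace C6

variable {k : ℕ}

/-- The functional with prescribed values on the monomials. -/
noncomputable def fn (v : (Fin k →₀ ℕ) → ℝ) : MvPolynomial (Fin k) ℝ →ₗ[ℝ] ℝ :=
  (basisMonomials (Fin k) ℝ).constr ℝ v

theorem fn_mon (v : (Fin k →₀ ℕ) → ℝ) (α : Fin k →₀ ℕ) : fn v (monomial α 1) = v α := by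
  have h := (basisMonomials (Fin k) ℝ).constr_basis ℝ v α
  rw [coe_basisMonomials] at h
  exact h

/-- Exponents of degree at most `D`. -/
def expo (k D : ℕ) : Finset (Fin k →₀ ℕ) :=
  (Finset.range (D + 1)).biUnion fun d => Finset.finsuppAntidiag Finset.univ d

theorem mem_expo {D : ℕ} {α : Fin k →₀ ℕ} : α ∈ expo k D ↔ α.degree ≤ D := by
  simp [expo, Finset.mem_finsuppAntidiag, Finsupp.degree_eq_sum]

theorem expand {D : ℕ} (f : MvPolynomial (Fin k) ℝ) (hf : f.totalDegree ≤ D) :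
    f = ∑ α : expo k D, coeff (α : Fin k →₀ ℕ) f • monomial (α : Fin k →₀ ℕ) (1 : ℝ) := by
  rw [Finset.sum_coe_sort (expo k D) (fun α => coeff α f • monomial α (1 : ℝ))]
  conv_lhs => rw [f.as_sum]
  have hsub : f.support ⊆ expo k D := by
    intro α hα
    rw [mem_expo]
    have := le_totalDegree hα
    rw [Finsupp.degree_apply]
    exact le_trans this hf
  rw [← Finset.sum_subset hsub]
  · refine Finset.sum_congr rfl fun α _ => ?_
    rw [smul_monomial, smul_eq_mul, mul_one]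
  · intro α _ hα
    rw [notMem_support_iff.1 hα, zero_smul]

/-- The polynomial with given coefficients. -/
noncomputable def pl {D : ℕ} (c : expo k D → ℝ) : MvPolynomial (Fin k) ℝ :=
  ∑ α : expo k D, c α • monomial (α : Fin k →₀ ℕ) (1 : ℝ)

theorem quad {D : ℕ} (ℓ : MvPolynomial (Fin k) ℝ →ₗ[ℝ] ℝ) (c : expo k D → ℝ) :
    ℓ (pl c * pl c) = ∑ α : expo k D, ∑ β : expo k D,
      c α * c β * ℓ (monomial ((α : Fin k →₀ ℕ) + (β : Fin k →₀ ℕ)) 1) := by
  unfold pl
  rw [Finset.sum_mul_sum, map_sum]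
  refine Finset.sum_congr rfl fun α _ => ?_
  rw [map_sum]
  refine Finset.sum_congr rfl fun β _ => ?_
  rw [smul_mul_smul_comm, monomial_mul, mul_one, map_smul, smul_eq_mul]

theorem coeff_pl {D : ℕ} (c : expo k D → ℝ) (α : expo k D) :
    coeff (α : Fin k →₀ ℕ) (pl c) = c α := by
  unfold pl
  rw [coeff_sum, Finset.sum_eq_single α]
  · simp
  · intro β _ hβ
    rw [coeff_smul, coeff_monomial, if_neg, smul_zero]
    exact fun h => hβ (Subtype.ext h)
  · intro h; exact absurd (Finset.mem_univ _) h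

theorem totalDegree_pl {D E : ℕ} (c : expo k D → ℝ)
    (h : ∀ α : expo k D, E < (α : Fin k →₀ ℕ).degree → c α = 0) : (pl c).totalDegree ≤ E := by
  unfold pl
  refine (totalDegree_finsetSum _ _).trans (Finset.sup_le fun α _ => ?_)
  by_cases hα : E < (α : Fin k →₀ ℕ).degree
  · rw [h α hα, zero_smul, totalDegree_zero]; exact Nat.zero_le _
  · refine (totalDegree_smul_le _ _).trans ?_
    rw [totalDegree_monomial _ one_ne_zero]
    rw [Finsupp.degree_apply] at hα
    exact not_lt.1 hα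

/-! ### The grid functional -/

/-- The grid. -/
noncomputable def grid (k D : ℕ) : Finset (Fin k → ℝ) :=
  Fintype.piFinset fun _ : Fin k => (Finset.range (D + 1)).image fun n : ℕ => (n : ℝ)

theorem grid_card_pos (k D : ℕ) : 0 < (grid k D).card := by
  refine Finset.card_pos.2 ⟨fun _ => 0, ?_⟩
  unfold grid
  rw [Fintype.mem_piFinset]
  intro i
  exact Finset.mem_image.2 ⟨0, by simp, by simp⟩

/-- The average over the grid. -/
noncomputable def gl (k D : ℕ) : MvPolynomial (Fin k) ℝ →ₗ[ℝ] ℝ :=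
  ((grid k D).card : ℝ)⁻¹ • ∑ x ∈ grid k D, (aeval x : MvPolynomial (Fin k) ℝ →ₐ[ℝ] ℝ).toLinearMap

theorem gl_apply (D : ℕ) (f : MvPolynomial (Fin k) ℝ) :
    gl k D f = ((grid k D).card : ℝ)⁻¹ * ∑ x ∈ grid k D, eval x f := by
  unfold gl
  simp [LinearMap.sum_apply]

theorem gl_one (k D : ℕ) : gl k D 1 = 1 := by
  rw [gl_apply]
  have : ((grid k D).card : ℝ) ≠ 0 := by exact_mod_cast (grid_card_pos k D).ne'
  simp [this]

theorem gl_sq_nonneg (D : ℕ) (f : MvPolynomial (Fin k) ℝ) : 0 ≤ gl k D (f * f) := by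
  rw [gl_apply]
  refine mul_nonneg (by positivity) (Finset.sum_nonneg fun x _ => ?_)
  rw [map_mul]; exact mul_self_nonneg _

theorem gl_sq_pos {D : ℕ} (f : MvPolynomial (Fin k) ℝ) (hf : f.totalDegree ≤ D) (h0 : f ≠ 0) :
    0 < gl k D (f * f) := by
  rw [gl_apply]
  have hc : (0 : ℝ) < ((grid k D).card : ℝ) := by exact_mod_cast grid_card_pos k D
  refine mul_pos (inv_pos.2 hc) ?_
  obtain ⟨x, hx, hxf⟩ : ∃ x ∈ grid k D, eval x f ≠ 0 := by
    by_contra hcon
    push Not at hcon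
    apply h0
    refine eq_zero_of_eval_zero_at_prod_finset f
      (fun _ => (Finset.range (D + 1)).image fun n : ℕ => (n : ℝ)) (fun i => ?_) fun x hx => ?_
    · rw [Finset.card_image_of_injective _ Nat.cast_injective, Finset.card_range]
      exact Nat.lt_succ_of_le ((degreeOf_le_totalDegree f i).trans hf)
    · exact hcon x (Fintype.mem_piFinset.2 hx)
  refine Finset.sum_pos' (fun x _ => ?_) ⟨x, hx, ?_⟩
  · rw [map_mul]; exact mul_self_nonneg _
  · rw [map_mul]; exact mul_self_pos.2 hxf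

/-! ### The quadratic forms -/

/-- Scaling factors. -/
noncomputable def sc (ε : ℝ) (n : ℕ) : ℝ := if n ≤ 2 then 1 else ε ^ (2 * n - 5)

/-- Scaling factors. -/
noncomputable def uc (ε : ℝ) (n : ℕ) : ℝ := if n ≤ 2 then ε ^ (5 - 2 * n) else 1

theorem cont_sc (n : ℕ) : Continuous fun ε => sc ε n := by
  unfold sc; split_ifs
  · exact continuous_const
  · exact continuous_id.pow _

theorem cont_uc (n : ℕ) : Continuous fun ε => uc ε n := by
  unfold uc; split_ifs
  · exact continuous_id.pow _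
  · exact continuous_const

theorem sc_uc {ε : ℝ} (hε : 0 < ε) (n : ℕ) : sc ε n * ε ^ 5 * (ε⁻¹) ^ (2 * n) = uc ε n := by
  have h0 : ε ≠ 0 := hε.ne'
  unfold sc uc
  split_ifs with h
  · have e : (5 : ℕ) = (5 - 2 * n) + 2 * n := by omega
    rw [one_mul, inv_pow]
    conv_lhs => rw [e, pow_add]
    rw [mul_assoc, mul_inv_cancel₀ (pow_ne_zero _ h0), mul_one]
  · rw [← pow_add, inv_pow]
    have e : 2 * n - 5 + 5 = 2 * n := by omega
    rw [e, mul_inv_cancel₀ (pow_ne_zero _ h0)]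

theorem sc_pos {ε : ℝ} (hε : 0 < ε) (n : ℕ) : 0 < sc ε n := by
  unfold sc; split_ifs
  · exact one_pos
  · exact pow_pos hε _

/-- The form `Q_ε`. -/
noncomputable def Qf {D : ℕ} (v g : (Fin k →₀ ℕ) → ℝ) (ε : ℝ) (c : expo k D → ℝ) : ℝ :=
  ∑ α : expo k D, ∑ β : expo k D, c α * c β *
    (sc ε (α : Fin k →₀ ℕ).degree * sc ε (β : Fin k →₀ ℕ).degree *
        (if ((α : Fin k →₀ ℕ) + (β : Fin k →₀ ℕ)).degree ≤ 4 then v ((α : Fin k →₀ ℕ) + (β : Fin k →₀ ℕ)) else 0) +
      uc ε (α : Fin k →₀ ℕ).degree * uc ε (β : Fin k →₀ ℕ).degree * g ((α : Fin k →₀ ℕ) + (β : Fin k →₀ ℕ)))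

theorem cont_Qf {D : ℕ} (v g : (Fin k →₀ ℕ) → ℝ) :
    Continuous fun p : ℝ × (expo k D → ℝ) => Qf v g p.1 p.2 := by
  unfold Qf
  refine continuous_finsetSum _ fun α _ => continuous_finsetSum _ fun β _ => ?_
  have h1 : ∀ n, Continuous fun p : ℝ × (expo k D → ℝ) => sc p.1 n :=
    fun n => (cont_sc n).comp continuous_fst
  have h2 : ∀ n, Continuous fun p : ℝ × (expo k D → ℝ) => uc p.1 n :=
    fun n => (cont_uc n).comp continuous_fst
  have h3 : ∀ γ : expo k D, Continuous fun p : ℝ × (expo k D → ℝ) => p.2 γ :=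
    fun γ => (continuous_apply γ).comp continuous_snd
  exact ((h3 α).mul (h3 β)).mul ((((h1 _).mul (h1 _)).mul continuous_const).add
    (((h2 _).mul (h2 _)).mul continuous_const))

theorem Qf_smul {D : ℕ} (v g : (Fin k →₀ ℕ) → ℝ) (ε r : ℝ) (c : expo k D → ℝ) :
    Qf v g ε (r • c) = r ^ 2 * Qf v g ε c := by
  unfold Qf
  rw [Finset.mul_sum]
  refine Finset.sum_congr rfl fun α _ => ?_
  rw [Finset.mul_sum]
  refine Finset.sum_congr rfl fun β _ => ?_
  simp only [Pi.smul_apply, smul_eq_mul]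
  ring

/-- At `ε = 0` the form is the sum of two squares. -/
theorem Qf_zero {D : ℕ} (ℓ g : MvPolynomial (Fin k) ℝ →ₗ[ℝ] ℝ) (c : expo k D → ℝ) :
    Qf (fun α => ℓ (monomial α 1)) (fun α => g (monomial α 1)) 0 c =
      ℓ (pl (fun α : expo k D => c α * sc 0 (α : Fin k →₀ ℕ).degree) *
        pl fun α : expo k D => c α * sc 0 (α : Fin k →₀ ℕ).degree) +
      g (pl (fun α : expo k D => c α * uc 0 (α : Fin k →₀ ℕ).degree) *
        pl fun α : expo k D => c α * uc 0 (α : Fin k →₀ ℕ).degree) := by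
  rw [quad, quad, ← Finset.sum_add_distrib]
  unfold Qf
  refine Finset.sum_congr rfl fun α _ => ?_
  rw [← Finset.sum_add_distrib]
  refine Finset.sum_congr rfl fun β _ => ?_
  have key : sc 0 (α : Fin k →₀ ℕ).degree * sc 0 (β : Fin k →₀ ℕ).degree *
      (if ((α : Fin k →₀ ℕ) + (β : Fin k →₀ ℕ)).degree ≤ 4 then ℓ (monomial ((α : Fin k →₀ ℕ) + (β : Fin k →₀ ℕ)) 1) else 0) =
      sc 0 (α : Fin k →₀ ℕ).degree * sc 0 (β : Fin k →₀ ℕ).degree *
        ℓ (monomial ((α : Fin k →₀ ℕ) + (β : Fin k →₀ ℕ)) 1) := by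
    by_cases h1 : (α : Fin k →₀ ℕ).degree ≤ 2
    · by_cases h2 : (β : Fin k →₀ ℕ).degree ≤ 2
      · have : ((α : Fin k →₀ ℕ) + (β : Fin k →₀ ℕ)).degree ≤ 4 := by rw [map_add]; omega
        rw [if_pos this]
      · have : sc 0 (β : Fin k →₀ ℕ).degree = 0 := by
          unfold sc; rw [if_neg h2]; exact zero_pow (by omega)
        rw [this]; ring
    · have : sc 0 (α : Fin k →₀ ℕ).degree = 0 := by
        unfold sc; rw [if_neg h1]; exact zero_pow (by omega)
      rw [this]; ring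
  rw [key]
  ring

theorem Qf_zero_pos {D : ℕ} (hD : 2 ≤ D) (L : MvPolynomial (Fin k) ℝ →ₗ[ℝ] ℝ)
    (hL : ∀ f : MvPolynomial (Fin k) ℝ, f.totalDegree ≤ 2 → 0 ≤ L (f * f)) {d : ℝ} (hd : 0 < d)
    (hd1 : d ≤ 1) (c : expo k D → ℝ) (hc : c ≠ 0) :
    0 < Qf (fun α => ((1 - d) • L + d • gl k D) (monomial α 1))
      (fun α => gl k D (monomial α 1)) 0 c := by
  rw [Qf_zero]
  set A := pl (fun α : expo k D => c α * sc 0 (α : Fin k →₀ ℕ).degree) with hA
  set B := pl (fun α : expo k D => c α * uc 0 (α : Fin k →₀ ℕ).degree) with hB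
  have hAd : A.totalDegree ≤ 2 := by
    rw [hA]; refine totalDegree_pl _ fun α hα => ?_
    unfold sc
    rw [if_neg (by omega), zero_pow (by omega), mul_zero]
  have hBd : B.totalDegree ≤ D := by
    rw [hB]; refine totalDegree_pl _ fun α hα => ?_
    have := mem_expo.1 α.2
    omega
  have e1 : ((1 - d) • L + d • gl k D) (A * A) = (1 - d) * L (A * A) + d * gl k D (A * A) := by
    simp [LinearMap.add_apply, LinearMap.smul_apply, smul_eq_mul]
  rw [e1]
  have h1 : 0 ≤ (1 - d) * L (A * A) := mul_nonneg (by linarith) (hL A hAd)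
  have h2 : 0 ≤ d * gl k D (A * A) := mul_nonneg hd.le (gl_sq_nonneg D A)
  have h3 : 0 ≤ gl k D (B * B) := gl_sq_nonneg D B
  obtain ⟨α, hα⟩ : ∃ α, c α ≠ 0 := by
    by_contra hcon
    push Not at hcon
    exact hc (funext hcon)
  by_cases hdeg : (α : Fin k →₀ ℕ).degree ≤ 2
  · have hA0 : A ≠ 0 := by
      intro h
      have := coeff_pl (fun α : expo k D => c α * sc 0 (α : Fin k →₀ ℕ).degree) α
      rw [← hA, h, coeff_zero] at this
      have hs : sc 0 (α : Fin k →₀ ℕ).degree = 1 := by unfold sc; rw [if_pos hdeg]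
      rw [hs, mul_one] at this
      exact hα this.symm
    have := mul_pos hd (gl_sq_pos A (hAd.trans hD) hA0)
    linarith
  · have hB0 : B ≠ 0 := by
      intro h
      have := coeff_pl (fun α : expo k D => c α * uc 0 (α : Fin k →₀ ℕ).degree) α
      rw [← hB, h, coeff_zero] at this
      have hs : uc 0 (α : Fin k →₀ ℕ).degree = 1 := by unfold uc; rw [if_neg hdeg]
      rw [hs, mul_one] at this
      exact hα this.symm
    have := gl_sq_pos B hBd hB0
    linarith

theorem Qf_nonneg {D : ℕ} (hD : 2 ≤ D) (L : MvPolynomial (Fin k) ℝ →ₗ[ℝ] ℝ)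
    (hL : ∀ f : MvPolynomial (Fin k) ℝ, f.totalDegree ≤ 2 → 0 ≤ L (f * f)) {d : ℝ} (hd : 0 < d)
    (hd1 : d ≤ 1) :
    ∀ᶠ ε in 𝓝 (0 : ℝ), ∀ c : expo k D → ℝ,
      0 ≤ Qf (fun α => ((1 - d) • L + d • gl k D) (monomial α 1))
        (fun α => gl k D (monomial α 1)) ε c := by
  set v : (Fin k →₀ ℕ) → ℝ := fun α => ((1 - d) • L + d • gl k D) (monomial α 1) with hv
  set g : (Fin k →₀ ℕ) → ℝ := fun α => gl k D (monomial α 1) with hg
  have hK : IsCompact (Metric.sphere (0 : expo k D → ℝ) 1) := isCompact_sphere _ _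
  have key : ∀ᶠ ε in 𝓝 (0 : ℝ), ∀ c ∈ Metric.sphere (0 : expo k D → ℝ) 1, 0 < Qf v g ε c := by
    refine hK.eventually_forall_of_forall_eventually fun c hc => ?_
    have hc0 : c ≠ 0 := by
      rintro rfl
      simp at hc
    have hpos : 0 < Qf v g 0 c := Qf_zero_pos hD L hL hd hd1 c hc0
    have hcont := (cont_Qf (D := D) v g).tendsto ((0 : ℝ), c)
    exact hcont.eventually (lt_mem_nhds hpos)
  filter_upwards [key] with ε hε c
  by_cases hc : c = 0
  · subst hc
    have : Qf v g ε (0 : expo k D → ℝ) = 0 := by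
      unfold Qf; simp
    rw [this]
  · have hn : 0 < ‖c‖ := norm_pos_iff.2 hc
    have e : c = ‖c‖ • (‖c‖⁻¹ • c) := by
      rw [smul_smul, mul_inv_cancel₀ hn.ne', one_smul]
    rw [e, Qf_smul]
    refine mul_nonneg (sq_nonneg _) (hε _ ?_).le
    rw [mem_sphere_zero_iff_norm, norm_smul, norm_inv, norm_norm, inv_mul_cancel₀ hn.ne']

/-- The values of the extended functional. -/
noncomputable def ve (v g : (Fin k →₀ ℕ) → ℝ) (ε : ℝ) (α : Fin k →₀ ℕ) : ℝ :=
  (if α.degree ≤ 4 then v α else 0) + ε ^ 10 * (ε⁻¹) ^ (2 * α.degree) * g α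

theorem fn_ve_sq {D : ℕ} (v g : (Fin k →₀ ℕ) → ℝ) {ε : ℝ} (hε : 0 < ε)
    (f : MvPolynomial (Fin k) ℝ) (hf : f.totalDegree ≤ D) :
    fn (ve v g ε) (f * f) = Qf v g ε fun α : expo k D =>
      coeff (α : Fin k →₀ ℕ) f / sc ε (α : Fin k →₀ ℕ).degree := by
  have e : f = pl (D := D) fun α => coeff (α : Fin k →₀ ℕ) f := expand f hf
  have e2 : fn (ve v g ε) (f * f) = ∑ α : expo k D, ∑ β : expo k D,
      coeff (α : Fin k →₀ ℕ) f * coeff (β : Fin k →₀ ℕ) f * ve v g ε ((α : Fin k →₀ ℕ) + (β : Fin k →₀ ℕ)) := by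
    conv_lhs => rw [e, quad]
    simp only [fn_mon]
  rw [e2]
  unfold Qf
  refine Finset.sum_congr rfl fun α _ => Finset.sum_congr rfl fun β _ => ?_
  have ha := (sc_pos hε (α : Fin k →₀ ℕ).degree).ne'
  have hb := (sc_pos hε (β : Fin k →₀ ℕ).degree).ne'
  rw [← sc_uc hε (α : Fin k →₀ ℕ).degree, ← sc_uc hε (β : Fin k →₀ ℕ).degree]
  unfold ve
  have hdeg : ((α : Fin k →₀ ℕ) + (β : Fin k →₀ ℕ)).degree =
      (α : Fin k →₀ ℕ).degree + (β : Fin k →₀ ℕ).degree := map_add _ _ _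
  rw [hdeg, mul_add 2, pow_add]
  field_simp

end C6

open C6 in
theorem stmtC6 : StmtC6 := by
  intro k D L hL1 hL δ hδ
  set M : ℕ := D + 2 with hM
  -- choice of the mixing parameter
  set C : ℝ := ∑ α ∈ expo k 4, |gl k M (monomial α 1) - L (monomial α 1)| + 1 with hC
  have hCpos : 0 < C := by
    have : 0 ≤ ∑ α ∈ expo k 4, |gl k M (monomial α 1) - L (monomial α 1)| :=
      Finset.sum_nonneg fun _ _ => abs_nonneg _
    linarith
  set d : ℝ := δ / (δ + C) with hd
  have hdpos : 0 < d := div_pos hδ (by linarith)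
  have hd1 : d ≤ 1 := (div_le_one (by linarith)).2 (by linarith)
  set ℓ : MvPolynomial (Fin k) ℝ →ₗ[ℝ] ℝ := (1 - d) • L + d • gl k M with hℓ
  have hℓ1 : ℓ 1 = 1 := by
    rw [hℓ]; simp [hL1, gl_one]
  have hclose : ∀ α ∈ expo k 4, |ℓ (monomial α 1) - L (monomial α 1)| < δ := by
    intro α hα
    have e : ℓ (monomial α 1) - L (monomial α 1) =
        d * (gl k M (monomial α 1) - L (monomial α 1)) := by
      rw [hℓ]; simp only [LinearMap.add_apply, LinearMap.smul_apply, smul_eq_mul]; ring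
    rw [e, abs_mul, abs_of_pos hdpos]
    have h1 : |gl k M (monomial α 1) - L (monomial α 1)| < C := by
      have := Finset.single_le_sum (f := fun α => |gl k M (monomial α 1) - L (monomial α 1)|)
        (fun _ _ => abs_nonneg _) hα
      linarith
    rw [hd, div_mul_eq_mul_div, div_lt_iff₀ (by linarith)]
    nlinarith
  -- the family of functionals
  have ev1 := Qf_nonneg (k := k) (D := M) (by omega) L hL hdpos hd1
  have ev2 : ∀ᶠ ε in 𝓝 (0 : ℝ), ∀ α ∈ expo k 4,
      |(1 + ε ^ 10)⁻¹ * (ℓ (monomial α 1) + ε ^ (10 - 2 * α.degree) * gl k M (monomial α 1)) -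
        L (monomial α 1)| < δ := by
    rw [Filter.eventually_all_finset]
    intro α hα
    have hdeg : α.degree ≤ 4 := mem_expo.1 hα
    have hcont : ContinuousAt (fun ε : ℝ => |(1 + ε ^ 10)⁻¹ * (ℓ (monomial α 1) +
        ε ^ (10 - 2 * α.degree) * gl k M (monomial α 1)) - L (monomial α 1)|) 0 := by
      have h0 : (1 : ℝ) + 0 ^ 10 ≠ 0 := by norm_num
      fun_prop (disch := assumption)
    have hval : |(1 + (0 : ℝ) ^ 10)⁻¹ * (ℓ (monomial α 1) +
        0 ^ (10 - 2 * α.degree) * gl k M (monomial α 1)) - L (monomial α 1)| < δ := by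
      rw [zero_pow (by omega : 10 - 2 * α.degree ≠ 0)]
      simpa using hclose α hα
    exact hcont.eventually (gt_mem_nhds hval)
  have ev : ∀ᶠ ε in 𝓝[>] (0 : ℝ), 0 < ε := eventually_mem_nhdsWithin
  obtain ⟨ε, ⟨h1, h2⟩, hε⟩ :=
    (((ev1.and ev2).filter_mono nhdsWithin_le_nhds).and ev).exists
  set v : (Fin k →₀ ℕ) → ℝ := fun α => ℓ (monomial α 1) with hv
  set g : (Fin k →₀ ℕ) → ℝ := fun α => gl k M (monomial α 1) with hg
  have hn : 0 < 1 + ε ^ 10 := by positivity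
  refine ⟨(1 + ε ^ 10)⁻¹ • fn (ve v g ε), ?_, ?_, ?_⟩
  · have e1 : (1 : MvPolynomial (Fin k) ℝ) = monomial 0 1 := rfl
    rw [LinearMap.smul_apply, smul_eq_mul, e1, fn_mon]
    have e2 : ve v g ε 0 = 1 + ε ^ 10 := by
      unfold ve
      rw [hv, hg]
      simp only [map_zero, mul_zero, pow_zero, mul_one, Nat.zero_le, if_true]
      rw [← e1, hℓ1, gl_one, mul_one]
    rw [e2, inv_mul_cancel₀ hn.ne']
  · intro f hf
    rw [LinearMap.smul_apply, smul_eq_mul]
    refine mul_nonneg (inv_nonneg.2 hn.le) ?_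
    rw [fn_ve_sq v g hε f (hf.trans (by omega : D ≤ M))]
    exact h1 _
  · intro α hα
    rw [LinearMap.smul_apply, smul_eq_mul, fn_mon]
    have := h2 α (mem_expo.2 hα)
    have e : ve v g ε α = ℓ (monomial α 1) +
        ε ^ (10 - 2 * α.degree) * gl k M (monomial α 1) := by
      unfold ve
      rw [if_pos hα]
      have e3 : ε ^ 10 * (ε⁻¹) ^ (2 * α.degree) = ε ^ (10 - 2 * α.degree) := by
        have e4 : (10 : ℕ) = (10 - 2 * α.degree) + 2 * α.degree := by omega
        rw [inv_pow]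
        conv_lhs => rw [e4, pow_add]
        rw [mul_assoc, mul_inv_cancel₀ (pow_ne_zero _ hε.ne'), mul_one]
      rw [e3]
    rw [e]
    exact this

end Vale.Agent.P256.PL
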