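import Vale.Agent.P256.PL.D.FinalOf
import Vale.Agent.P256.PL.D.CertF
import Vale.Agent.P256.PL.D.Sem7
import Vale.Agent.P256.PL.D.TransferB
import Vale.Agent.P256.PL.D.SemRB

/-!
# P256, module D: the explicit data (Mermin pentagram) satisfy the data condition.
-/

namespace Vale.Agent.P256.PL

theorem stmtD : StmtD :=
  D.stmtD_of_parts D.TB.transfer (fun i x _ => D.evT_rowT i x) D.rowZ_lt D.SB.semR D.cert7

end Vale.Agent.P256.PL
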