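import Vale.Agent.P256.PL.Stmts

/-!
# P256, module D5: the pseudo-moment functional of the data
-/

namespace Vale.Agent.P256.PL

open MvPolynomial Matrix

namespace D5

variable {k : ℕ}

/-- A function on lists of length at most four. -/
def ZL (τ : Tens k ℝ) (Z : E4 k ℝ) : List (Fin k) → ℝ
  | [] => τ 0 0 0
  | [a] => τ 0 0 a.succ
  | [a, b] => τ 0 a.succ b.succ
  | [a, b, c] => τ a.succ b.succ c.succ
  | [a, b, c, d] => Z a b c d
  | _ => 0

theorem ZL_long (τ : Tens k ℝ) (Z : E4 k ℝ) : ∀ l : List (Fin k), 5 ≤ l.length → ZL τ Z l = 0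
  | [] => by simp
  | [_] => by simp
  | [_, _] => by simp
  | [_, _, _] => by simp
  | [_, _, _, _] => by simp
  | _ :: _ :: _ :: _ :: _ :: _ => fun _ => rfl

theorem ZL_perm {τ : Tens k ℝ} {Z : E4 k ℝ} (hτ : IsSymT τ)
    (h1 : ∀ a b c d, Z a b c d = Z b a c d) (h2 : ∀ a b c d, Z a b c d = Z a c b d)
    (h3 : ∀ a b c d, Z a b c d = Z a b d c) {l l' : List (Fin k)} (h : l.Perm l') :
    ∀ p : List (Fin k), ZL τ Z (p ++ l) = ZL τ Z (p ++ l') := by
  induction h with
  | nil => intro p; rfl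
  | cons x _ ih => intro p; simpa using ih (p ++ [x])
  | trans _ _ ih1 ih2 => intro p; rw [ih1, ih2]
  | swap x y l =>
    intro p
    by_cases hlen : 5 ≤ (p ++ y :: x :: l).length
    · rw [ZL_long _ _ _ hlen, ZL_long]
      simpa using hlen
    · rcases p with _ | ⟨a, _ | ⟨b, _ | ⟨c, p⟩⟩⟩
      · rcases l with _ | ⟨c, _ | ⟨d, _ | ⟨e, l⟩⟩⟩
        · exact hτ.2 _ _ _
        · exact hτ.1 _ _ _
        · exact h1 _ _ _ _
        · simp at hlen
      · rcases l with _ | ⟨d, _ | ⟨e, l⟩⟩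
        · exact hτ.2 _ _ _
        · exact h2 _ _ _ _
        · simp at hlen
      · rcases l with _ | ⟨e, l⟩
        · exact h3 _ _ _ _
        · simp at hlen
      · simp at hlen; omega

/-- The functional. -/
noncomputable def LL (τ : Tens k ℝ) (Z : E4 k ℝ) : MvPolynomial (Fin k) ℝ →ₗ[ℝ] ℝ :=
  (basisMonomials (Fin k) ℝ).constr ℝ fun α => ZL τ Z (Finsupp.toMultiset α).toList

theorem LL_monomial (τ : Tens k ℝ) (Z : E4 k ℝ) (α : Fin k →₀ ℕ) :
    LL τ Z (monomial α 1) = ZL τ Z (Finsupp.toMultiset α).toList := by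
  have h := (basisMonomials (Fin k) ℝ).constr_basis ℝ
    (fun α => ZL τ Z (Finsupp.toMultiset α).toList) α
  rwa [coe_basisMonomials] at h

theorem prod_X (l : List (Fin k)) :
    (l.map (X : Fin k → MvPolynomial (Fin k) ℝ)).prod =
      monomial (Multiset.toFinsupp (l : Multiset (Fin k))) 1 := by
  induction l with
  | nil => simp
  | cons a l ih =>
    rw [List.map_cons, List.prod_cons, ih, ← Multiset.cons_coe, ← Multiset.singleton_add,
      map_add, Multiset.toFinsupp_singleton, X, monomial_mul, one_mul]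

theorem LL_prod {τ : Tens k ℝ} {Z : E4 k ℝ} (hτ : IsSymT τ)
    (h1 : ∀ a b c d, Z a b c d = Z b a c d) (h2 : ∀ a b c d, Z a b c d = Z a c b d)
    (h3 : ∀ a b c d, Z a b c d = Z a b d c) (l : List (Fin k)) :
    LL τ Z (l.map X).prod = ZL τ Z l := by
  rw [prod_X, LL_monomial, Multiset.toFinsupp_toMultiset]
  have : ((l : Multiset (Fin k)).toList).Perm l := by
    rw [← Multiset.coe_eq_coe, Multiset.coe_toList]
  simpa using ZL_perm hτ h1 h2 h3 this []

theorem hat_zero : (hat X : Fin (k + 1) → MvPolynomial (Fin k) ℝ) 0 = 1 := rfl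

theorem hat_succ (i : Fin k) : (hat X : Fin (k + 1) → MvPolynomial (Fin k) ℝ) i.succ = X i := rfl

section main

variable {τ : Tens k ℝ} {Z : E4 k ℝ} (hτ : IsSymT τ)
    (h1 : ∀ a b c d, Z a b c d = Z b a c d) (h2 : ∀ a b c d, Z a b c d = Z a c b d)
    (h3 : ∀ a b c d, Z a b c d = Z a b d c)

include hτ h1 h2 h3

theorem LL4 (i j l m : Fin k) : LL τ Z (X i * X j * (X l * X m)) = Z i j l m := by
  have h := LL_prod hτ h1 h2 h3 [i, j, l, m]
  have e : ([i, j, l, m].map (X : Fin k → MvPolynomial (Fin k) ℝ)).prod =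
      X i * X j * (X l * X m) := by simp [mul_assoc]
  rw [e] at h
  exact h

theorem LL0 : LL τ Z 1 = τ 0 0 0 := by
  have h := LL_prod hτ h1 h2 h3 []
  simpa [ZL] using h

theorem LLc (a b c : Fin (k + 1)) :
    LL τ Z (hat X a * hat X b * hat X c) = τ a b c := by
  have s1 : ∀ i : Fin k, LL τ Z (X i) = τ 0 0 i.succ := by
    intro i
    have h := LL_prod hτ h1 h2 h3 [i]
    simpa [ZL] using h
  have s2 : ∀ i j : Fin k, LL τ Z (X i * X j) = τ 0 i.succ j.succ := by
    intro i j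
    have h := LL_prod hτ h1 h2 h3 [i, j]
    simpa [ZL] using h
  have s3 : ∀ i j l : Fin k, LL τ Z (X i * X j * X l) = τ i.succ j.succ l.succ := by
    intro i j l
    have h := LL_prod hτ h1 h2 h3 [i, j, l]
    simpa [ZL, mul_assoc] using h
  obtain ⟨t1, t2⟩ := hτ
  refine Fin.cases ?_ (fun i => ?_) a <;> refine Fin.cases ?_ (fun j => ?_) b <;>
    refine Fin.cases ?_ (fun l => ?_) c <;>
    simp only [hat_zero, hat_succ, one_mul, mul_one, s1, s2, s3]
  · exact LL0 ⟨t1, t2⟩ h1 h2 h3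
  · exact t2 _ _ _
  · exact (t2 _ _ _).trans ((t1 _ _ _).trans (t2 _ _ _)) |>.trans (by rw [t2])
  · exact t1 _ _ _
  · exact (t1 _ _ _).trans (t2 _ _ _)

end main

/-- Index set of the spanning family of the polynomials of degree at most two. -/
abbrev Ix (k : ℕ) := Fin (k + 1) ⊕ (Fin k × Fin k)

/-- The spanning family of the polynomials of degree at most two. -/
noncomputable def bas : Ix k → MvPolynomial (Fin k) ℝ
  | .inl a => hat X a
  | .inr q => X q.1 * X q.2

theorem rep (f : MvPolynomial (Fin k) ℝ) (hf : f.totalDegree ≤ 2) :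
    ∃ c : Ix k → ℝ, ∑ x, c x • bas x = f := by
  rw [← Submodule.mem_span_range_iff_exists_fun ℝ]
  rw [f.as_sum]
  refine Submodule.sum_mem _ fun α hα => ?_
  have hdeg : Multiset.card (Finsupp.toMultiset α) ≤ 2 := by
    rw [Finsupp.card_toMultiset]
    exact (le_totalDegree hα).trans hf
  have e : monomial α (coeff α f) = coeff α f • (monomial α (1 : ℝ)) := by
    rw [smul_monomial, smul_eq_mul, mul_one]
  rw [e]
  refine Submodule.smul_mem _ _ ?_
  have h := prod_X (Finsupp.toMultiset α).toList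
  rw [Multiset.coe_toList, Finsupp.toMultiset_toFinsupp] at h
  rw [← h]
  have hl : (Finsupp.toMultiset α).toList.length ≤ 2 := by
    rwa [Multiset.length_toList]
  generalize (Finsupp.toMultiset α).toList = l at hl
  rcases l with _ | ⟨a, _ | ⟨b, _ | ⟨c, l⟩⟩⟩
  · exact Submodule.subset_span ⟨.inl 0, by simp [bas, hat_zero]⟩
  · exact Submodule.subset_span ⟨.inl a.succ, by simp [bas, hat_succ]⟩
  · exact Submodule.subset_span ⟨.inr (a, b), by simp [bas]⟩
  · simp at hl

theorem LL_sq (L : MvPolynomial (Fin k) ℝ →ₗ[ℝ] ℝ) (c : Ix k → ℝ) :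
    L ((∑ x, c x • bas x) * ∑ x, c x • bas x) = ∑ x, ∑ y, c x * c y * L (bas x * bas y) := by
  rw [Finset.sum_mul_sum, map_sum]
  refine Finset.sum_congr rfl fun x _ => ?_
  rw [map_sum]
  refine Finset.sum_congr rfl fun y _ => ?_
  rw [smul_mul_smul_comm, map_smul, smul_eq_mul]

section main2

variable {τ : Tens k ℝ} {Z : E4 k ℝ} (hτ : IsSymT τ)
    (h1 : ∀ a b c d, Z a b c d = Z b a c d) (h2 : ∀ a b c d, Z a b c d = Z a c b d)
    (h3 : ∀ a b c d, Z a b c d = Z a b d c)

include hτ h1 h2 h3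

theorem LL_sq' (v : Fin (k + 1) → ℝ) (q : Fin k × Fin k → ℝ) :
    LL τ Z ((∑ x, (Sum.elim v q) x • bas x) * ∑ x, (Sum.elim v q) x • bas x) =
      (∑ a, ∑ b, v a * v b * τ 0 a b) + 2 * (∑ a, ∑ x, v a * q x * τ x.1.succ x.2.succ a) +
        ∑ x, ∑ y, q x * q y * Z x.1 x.2 y.1 y.2 := by
  have e1 : ∀ a b : Fin (k + 1), LL τ Z (hat X a * hat X b) = τ 0 a b := by
    intro a b
    have := LLc hτ h1 h2 h3 0 a b
    rwa [hat_zero, one_mul] at this
  have e2 : ∀ (a : Fin (k + 1)) (x : Fin k × Fin k),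
      LL τ Z (hat X a * (X x.1 * X x.2)) = τ x.1.succ x.2.succ a := by
    intro a x
    have := LLc hτ h1 h2 h3 x.1.succ x.2.succ a
    rw [hat_succ, hat_succ] at this
    rw [← this, mul_comm]
  have e3 : ∀ (a : Fin (k + 1)) (x : Fin k × Fin k),
      LL τ Z ((X x.1 * X x.2) * hat X a) = τ x.1.succ x.2.succ a := by
    intro a x
    rw [mul_comm, e2]
  have e4 : ∀ (x y : Fin k × Fin k),
      LL τ Z ((X x.1 * X x.2) * (X y.1 * X y.2)) = Z x.1 x.2 y.1 y.2 := by
    intro x y
    exact LL4 hτ h1 h2 h3 _ _ _ _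
  rw [LL_sq]
  simp only [Fintype.sum_sum_type, Sum.elim_inl, Sum.elim_inr, bas, e1, e2, e3, e4]
  rw [Finset.sum_add_distrib, Finset.sum_add_distrib]
  have e5 : ∑ x : Fin k × Fin k, ∑ a, q x * v a * τ x.1.succ x.2.succ a =
      ∑ a, ∑ x : Fin k × Fin k, v a * q x * τ x.1.succ x.2.succ a := by
    rw [Finset.sum_comm]
    refine Finset.sum_congr rfl fun a _ => Finset.sum_congr rfl fun x _ => ?_
    ring
  rw [e5]
  ring

end main2

theorem key (Y : Matrix (Fin (k + 1)) (Fin (k + 1)) ℝ) (hY : Y.PosDef)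
    (v t : Fin (k + 1) → ℝ) :
    0 ≤ Y.det * (Y.det * (v ⬝ᵥ Y *ᵥ v) + 2 * Y.det * (v ⬝ᵥ t) + t ⬝ᵥ Y.adjugate *ᵥ t) := by
  have h := hY.posSemidef.dotProduct_mulVec_nonneg (Y.det • v + Y.adjugate *ᵥ t)
  have hs : Yᵀ = Y := by
    have := hY.1
    rwa [Matrix.IsHermitian, conjTranspose_eq_transpose_of_trivial] at this
  have e1 : Y *ᵥ (Y.det • v + Y.adjugate *ᵥ t) = Y.det • (Y *ᵥ v) + Y.det • t := by
    rw [mulVec_add, mulVec_smul, mulVec_mulVec, mul_adjugate, smul_mulVec, one_mulVec]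
  have e2 : (Y.adjugate *ᵥ t) ⬝ᵥ (Y *ᵥ v) = Y.det * (v ⬝ᵥ t) := by
    rw [dotProduct_mulVec, ← mulVec_transpose, hs, mulVec_mulVec, mul_adjugate, smul_mulVec,
      one_mulVec, smul_dotProduct, smul_eq_mul, dotProduct_comm t v]
  have e3 : (Y.adjugate *ᵥ t) ⬝ᵥ t = t ⬝ᵥ Y.adjugate *ᵥ t := dotProduct_comm _ _
  rw [star_trivial, e1] at h
  simp only [add_dotProduct, dotProduct_add, smul_dotProduct, dotProduct_smul, smul_eq_mul,
    e2, e3] at h
  nlinarith [h]

end D5

open D5

/-- D5: the functional. -/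
theorem stmtD5 : StmtD5 := by
  intro k n τ U w hτ h0 hY hU hw hR
  set D := (yM τ).det with hD
  have hDpos : 0 < D := hY.det_pos
  have hs : (yM τ)ᵀ = yM τ := by
    have := hY.1
    rwa [Matrix.IsHermitian, conjTranspose_eq_transpose_of_trivial] at this
  have hA : ∀ a b, (yM τ).adjugate a b = (yM τ).adjugate b a := by
    intro a b
    have := adjugate_transpose (yM τ)
    rw [hs] at this
    exact congrFun (congrFun this b) a
  have t1 := hτ.1
  have t2 := hτ.2
  let Z : E4 k ℝ := fun i j l m => Xt τ i j l m / D + ∑ p, w p * (U p i j * U p l m)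
  have hZ : ∀ i j l m, D * Z i j l m = Xt τ i j l m + D * ∑ p, w p * (U p i j * U p l m) := by
    intro i j l m
    show D * (Xt τ i j l m / D + ∑ p, w p * (U p i j * U p l m)) = _
    field_simp
  have h1 : ∀ a b c d, Z a b c d = Z b a c d := by
    intro a b c d
    show Xt τ a b c d / D + ∑ p, w p * (U p a b * U p c d) =
      Xt τ b a c d / D + ∑ p, w p * (U p b a * U p c d)
    have e1 : Xt τ a b c d = Xt τ b a c d := by
      unfold Xt
      refine Finset.sum_congr rfl fun x _ => Finset.sum_congr rfl fun y _ => ?_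
      rw [t1 a.succ b.succ x]
    have e2 : ∀ p, U p a b = U p b a := fun p => (hU p).apply b a
    simp only [e1, e2]
  have h3 : ∀ a b c d, Z a b c d = Z a b d c := by
    intro a b c d
    show Xt τ a b c d / D + ∑ p, w p * (U p a b * U p c d) =
      Xt τ a b d c / D + ∑ p, w p * (U p a b * U p d c)
    have e1 : Xt τ a b c d = Xt τ a b d c := by
      unfold Xt
      refine Finset.sum_congr rfl fun x _ => Finset.sum_congr rfl fun y _ => ?_
      rw [t1 c.succ d.succ y]
    have e2 : ∀ p, U p c d = U p d c := fun p => (hU p).apply d c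
    simp only [e1, e2]
  have hmid : ∀ a b c d, Z a b c d = Z a d c b := by
    intro a b c d
    have h := hR a c b d
    have e : D * Z a b c d = D * Z a d c b := by
      rw [hZ, hZ]
      simp only [alt, Rs, diagonal_apply, Matrix.neg_apply] at h
      have e1 : ∀ x y x' y' : Fin k, ∑ p, ∑ q, -(if p = q then w p else 0) * (U p x y * U q x' y') =
          -∑ p, w p * (U p x y * U p x' y') := by
        intro x y x' y'
        rw [← Finset.sum_neg_distrib]
        refine Finset.sum_congr rfl fun p _ => ?_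
        simp [Finset.sum_ite_eq]
      rw [e1, e1] at h
      linarith
    exact mul_left_cancel₀ hDpos.ne' e
  have h2 : ∀ a b c d, Z a b c d = Z a c b d := by
    intro a b c d
    rw [h3 a b c d, hmid a b d c, h3]
  have hL0 := LL0 hτ h1 h2 h3
  refine ⟨LL τ Z, by rw [hL0, h0], ?_, ?_, ?_⟩
  · intro f hf
    obtain ⟨c, rfl⟩ := rep f hf
    obtain ⟨v, q, rfl⟩ : ∃ v q, c = Sum.elim v q := ⟨_, _, (Sum.elim_comp_inl_inr c).symm⟩
    rw [LL_sq' hτ h1 h2 h3]
    let t : Fin (k + 1) → ℝ := fun a => ∑ x : Fin k × Fin k, q x * τ x.1.succ x.2.succ a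
    have hk := key (yM τ) hY v t
    rw [← hD] at hk
    have e1 : v ⬝ᵥ yM τ *ᵥ v = ∑ a, ∑ b, v a * v b * τ 0 a b := by
      simp only [dotProduct, mulVec, yM, Finset.mul_sum]
      refine Finset.sum_congr rfl fun a _ => Finset.sum_congr rfl fun b _ => ?_
      ring
    have e2 : v ⬝ᵥ t = ∑ a, ∑ x : Fin k × Fin k, v a * q x * τ x.1.succ x.2.succ a := by
      simp only [dotProduct, t, Finset.mul_sum]
      refine Finset.sum_congr rfl fun a _ => Finset.sum_congr rfl fun b _ => ?_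
      ring
    have e3 : t ⬝ᵥ (yM τ).adjugate *ᵥ t =
        ∑ x : Fin k × Fin k, ∑ y : Fin k × Fin k, q x * q y * Xt τ x.1 x.2 y.1 y.2 := by
      have f1 : t ⬝ᵥ (yM τ).adjugate *ᵥ t = ∑ a, ∑ b, ∑ x : Fin k × Fin k, ∑ y : Fin k × Fin k,
          q x * q y * (τ x.1.succ x.2.succ a * (yM τ).adjugate a b * τ y.1.succ y.2.succ b) := by
        have g : ∀ a b, t a * ((yM τ).adjugate a b * t b) = ∑ x : Fin k × Fin k,
            ∑ y : Fin k × Fin k, q x * q y *
              (τ x.1.succ x.2.succ a * (yM τ).adjugate a b * τ y.1.succ y.2.succ b) := by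
          intro a b
          rw [show t a * ((yM τ).adjugate a b * t b) = t a * t b * (yM τ).adjugate a b by ring]
          simp only [t]
          rw [Finset.sum_mul_sum, Finset.sum_mul]
          refine Finset.sum_congr rfl fun x _ => ?_
          rw [Finset.sum_mul]
          refine Finset.sum_congr rfl fun y _ => ?_
          ring
        simp only [dotProduct, mulVec, Finset.mul_sum, g]
      rw [f1]
      simp only [Xt, Finset.mul_sum]
      calc _ = ∑ a, ∑ x : Fin k × Fin k, ∑ b, ∑ y : Fin k × Fin k,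
            q x * q y * (τ x.1.succ x.2.succ a * (yM τ).adjugate a b * τ y.1.succ y.2.succ b) :=
            Finset.sum_congr rfl fun a _ => Finset.sum_comm
        _ = ∑ x : Fin k × Fin k, ∑ a, ∑ b, ∑ y : Fin k × Fin k,
            q x * q y * (τ x.1.succ x.2.succ a * (yM τ).adjugate a b * τ y.1.succ y.2.succ b) :=
            Finset.sum_comm
        _ = ∑ x : Fin k × Fin k, ∑ a, ∑ y : Fin k × Fin k, ∑ b,
            q x * q y * (τ x.1.succ x.2.succ a * (yM τ).adjugate a b * τ y.1.succ y.2.succ b) :=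
            Finset.sum_congr rfl fun x _ => Finset.sum_congr rfl fun a _ => Finset.sum_comm
        _ = _ := Finset.sum_congr rfl fun x _ => Finset.sum_comm
    have e4 : D * ∑ x : Fin k × Fin k, ∑ y : Fin k × Fin k, q x * q y * Z x.1 x.2 y.1 y.2 =
        t ⬝ᵥ (yM τ).adjugate *ᵥ t + D * ∑ p, w p * (∑ x : Fin k × Fin k, q x * U p x.1 x.2) ^ 2 := by
      rw [e3]
      have f1 : ∑ p, w p * (∑ x : Fin k × Fin k, q x * U p x.1 x.2) ^ 2 =
          ∑ x : Fin k × Fin k, ∑ y : Fin k × Fin k,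
            q x * q y * ∑ p, w p * (U p x.1 x.2 * U p y.1 y.2) := by
        have g : ∀ p, w p * (∑ x : Fin k × Fin k, q x * U p x.1 x.2) ^ 2 =
            ∑ x : Fin k × Fin k, ∑ y : Fin k × Fin k,
              q x * q y * (w p * (U p x.1 x.2 * U p y.1 y.2)) := by
          intro p
          rw [pow_two, Finset.sum_mul_sum, Finset.mul_sum]
          refine Finset.sum_congr rfl fun x _ => ?_
          rw [Finset.mul_sum]
          refine Finset.sum_congr rfl fun y _ => ?_
          ring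
        simp only [g]
        rw [Finset.sum_comm]
        refine Finset.sum_congr rfl fun x _ => ?_
        rw [Finset.sum_comm]
        refine Finset.sum_congr rfl fun y _ => ?_
        rw [Finset.mul_sum]
      rw [f1, Finset.mul_sum, Finset.mul_sum, ← Finset.sum_add_distrib]
      refine Finset.sum_congr rfl fun x _ => ?_
      rw [Finset.mul_sum, Finset.mul_sum, ← Finset.sum_add_distrib]
      refine Finset.sum_congr rfl fun y _ => ?_
      rw [show D * (q x * q y * Z x.1 x.2 y.1 y.2) = q x * q y * (D * Z x.1 x.2 y.1 y.2) by ring,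
        hZ]
      ring
    have e5 : 0 ≤ ∑ p, w p * (∑ x : Fin k × Fin k, q x * U p x.1 x.2) ^ 2 :=
      Finset.sum_nonneg fun p _ => mul_nonneg (hw p).le (sq_nonneg _)
    rw [e1, e2] at hk
    set S1 := ∑ a, ∑ b, v a * v b * τ 0 a b
    set S2 := ∑ a, ∑ x : Fin k × Fin k, v a * q x * τ x.1.succ x.2.succ a
    set S3 := ∑ x : Fin k × Fin k, ∑ y : Fin k × Fin k, q x * q y * Z x.1 x.2 y.1 y.2
    set S4 := ∑ p, w p * (∑ x : Fin k × Fin k, q x * U p x.1 x.2) ^ 2
    have h5 : 0 ≤ D * S1 + 2 * D * S2 + t ⬝ᵥ (yM τ).adjugate *ᵥ t :=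
      nonneg_of_mul_nonneg_right (by linarith) hDpos
    have h6 : 0 ≤ D * (S1 + 2 * S2 + S3) := by nlinarith [mul_nonneg hDpos.le e5]
    exact nonneg_of_mul_nonneg_right h6 hDpos
  · funext a b c
    exact LLc hτ h1 h2 h3 a b c
  · intro i j l m
    rw [LL4 hτ h1 h2 h3, hZ]

end Vale.Agent.P256.PL
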