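import Vale.Agent.P256.Defs

/-!
# P256: the projected Lax conjecture is false. Definitions.

`J = Fin (k+1)` are the homogeneous indices (`0` is the homogenising one), `I = Fin k` the others
(embedded by `Fin.succ`).
-/

namespace Vale.Agent.P256.PL

open MvPolynomial

/-- Three-tensors on `A^(k+1)`. -/
abbrev Tens (k : ℕ) (A : Type*) := Fin (k + 1) → Fin (k + 1) → Fin (k + 1) → A

/-- Four-index arrays on `A^k`. -/
abbrev E4 (k : ℕ) (A : Type*) := Fin k → Fin k → Fin k → Fin k → A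

/-- Index set of `E4`. -/
abbrev Idx4 (k : ℕ) := Fin k × Fin k × Fin k × Fin k

/-- A symmetric three-tensor. -/
def IsSymT {k : ℕ} {A : Type*} (τ : Tens k A) : Prop :=
  (∀ a b c, τ a b c = τ b a c) ∧ ∀ a b c, τ a b c = τ a c b

section ring

variable {k : ℕ} {A : Type*} [CommRing A]

/-- The matrix `y = τ_0`. -/
def yM (τ : Tens k A) : Matrix (Fin (k + 1)) (Fin (k + 1)) A := fun a b => τ 0 a b

/-- `Xt = τ adj(y) τᵀ` on the indices `I`. -/
def Xt (τ : Tens k A) : E4 k A := fun i j l m =>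
  ∑ a, ∑ b, τ i.succ j.succ a * (yM τ).adjugate a b * τ l.succ m.succ b

/-- Antisymmetrisation: `(alt X)(i,j;l,m) = X_{il,jm} - X_{im,jl}`. -/
def alt (X : E4 k A) : E4 k A := fun i j l m => X i l j m - X i m j l

/-- `U ⊗ U'`. -/
def tens2 (U U' : Matrix (Fin k) (Fin k) A) : E4 k A := fun i j l m => U i j * U' l m

/-- `U ∧ U`. -/
def wedge (U : Matrix (Fin k) (Fin k) A) : E4 k A := alt (tens2 U U)

/-- The pairing of four-index arrays. -/
def pairing (N X : E4 k A) : A := ∑ i, ∑ j, ∑ l, ∑ m, N i j l m * X i j l m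

/-- The quadratic form `N(U)`. -/
def quadN (N : E4 k A) (U : Matrix (Fin k) (Fin k) A) : A := pairing N (tens2 U U)

end ring

section Q

variable {k : ℕ}

/-- A form `Q(σ, R)` evaluated in an `ℝ`-algebra. -/
noncomputable def Qev {A : Type*} [CommRing A] [Algebra ℝ A]
    (Q : MvPolynomial (Option (Idx4 k)) ℝ) (σ : A) (R : E4 k A) : A :=
  aeval (fun o : Option (Idx4 k) => o.elim σ fun q => R q.1 q.2.1 q.2.2.1 q.2.2.2) Q

/-- The polynomial `p(τ,s) = Q(s det y - ⟨N,Xt⟩, alt Xt)` evaluated in an `ℝ`-algebra. -/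
noncomputable def pf {A : Type*} [CommRing A] [Algebra ℝ A]
    (Q : MvPolynomial (Option (Idx4 k)) ℝ) (N : E4 k ℝ) (τ : Tens k A) (s : A) : A :=
  Qev Q (s * (yM τ).det - pairing (fun i j l m => algebraMap ℝ A (N i j l m)) (Xt τ)) (alt (Xt τ))

/-- Homogenised points `(1, x)`. -/
def hat {A : Type*} [CommRing A] (x : Fin k → A) : Fin (k + 1) → A := Fin.cons 1 x

/-- The cube of a vector. -/
def cube {A : Type*} [CommRing A] (z : Fin (k + 1) → A) : Tens k A :=
  fun a b c => z a * z b * z c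

/-- `x xᵀ`. -/
def sq {A : Type*} [CommRing A] (x : Fin k → A) : Matrix (Fin k) (Fin k) A :=
  fun i j => x i * x j

end Q

end Vale.Agent.P256.PL
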