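import Vale.Agent.P256.PL.Stmts

/-!
# P256, module PL-F: invariance of `p` under translations and dilations.
-/

namespace Vale.Agent.P256.PL

namespace F

open MvPolynomial Matrix

variable {k : ℕ}

/-- moment vector of `p`: `e ↦ L(p z_e)`. -/
noncomputable def mv (L : MvPolynomial (Fin k) ℝ →ₗ[ℝ] ℝ)
    (z : Fin (k + 1) → MvPolynomial (Fin k) ℝ) (p : MvPolynomial (Fin k) ℝ) :
    Fin (k + 1) → ℝ := fun e => L (p * z e)

/-- The bilinear form `B(p,q) = v_p · adj(y) v_q`. -/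
noncomputable def Bf (L : MvPolynomial (Fin k) ℝ →ₗ[ℝ] ℝ)
    (z : Fin (k + 1) → MvPolynomial (Fin k) ℝ) (p q : MvPolynomial (Fin k) ℝ) : ℝ :=
  mv L z p ⬝ᵥ ((yM (tauL L z)).adjugate *ᵥ mv L z q)

/-- `D(p,q) = B(p,q) - det(y) L(pq)`. -/
noncomputable def Df (L : MvPolynomial (Fin k) ℝ →ₗ[ℝ] ℝ)
    (z : Fin (k + 1) → MvPolynomial (Fin k) ℝ) (p q : MvPolynomial (Fin k) ℝ) : ℝ :=
  Bf L z p q - (yM (tauL L z)).det * L (p * q)

variable (L : MvPolynomial (Fin k) ℝ →ₗ[ℝ] ℝ) (z : Fin (k + 1) → MvPolynomial (Fin k) ℝ)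

lemma Xt_eq (i j l m : Fin k) :
    Xt (tauL L z) i j l m = Bf L z (z i.succ * z j.succ) (z l.succ * z m.succ) := by
  simp only [Xt, Bf, dotProduct, mulVec, Finset.mul_sum, mv, tauL, cube]
  refine Finset.sum_congr rfl fun a _ => Finset.sum_congr rfl fun b _ => ?_
  ring

lemma yM_eq (hz : z 0 = 1) (a b : Fin (k + 1)) : yM (tauL L z) a b = L (z a * z b) := by
  simp [yM, tauL, cube, hz]

lemma yM_symm (hz : z 0 = 1) : (yM (tauL L z))ᵀ = yM (tauL L z) := by
  ext a b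
  rw [transpose_apply, yM_eq L z hz, yM_eq L z hz, mul_comm]

lemma Bf_symm (hz : z 0 = 1) (p q : MvPolynomial (Fin k) ℝ) : Bf L z p q = Bf L z q p := by
  unfold Bf
  have h : (yM (tauL L z)).adjugateᵀ = (yM (tauL L z)).adjugate := by
    rw [adjugate_transpose, yM_symm L z hz]
  rw [dotProduct_mulVec, ← mulVec_transpose, h, dotProduct_comm]

lemma Df_symm (hz : z 0 = 1) (p q : MvPolynomial (Fin k) ℝ) : Df L z p q = Df L z q p := by
  unfold Df
  rw [Bf_symm L z hz, mul_comm p q]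

lemma mv_add (p q : MvPolynomial (Fin k) ℝ) : mv L z (p + q) = mv L z p + mv L z q := by
  ext e; simp [mv, add_mul]

lemma mv_smul (c : ℝ) (p : MvPolynomial (Fin k) ℝ) : mv L z (c • p) = c • mv L z p := by
  ext e; simp [mv]

lemma Df_add (p p' q : MvPolynomial (Fin k) ℝ) : Df L z (p + p') q = Df L z p q + Df L z p' q := by
  unfold Df Bf
  rw [mv_add, add_dotProduct, add_mul, map_add]; ring

lemma Df_smul (c : ℝ) (p q : MvPolynomial (Fin k) ℝ) : Df L z (c • p) q = c * Df L z p q := by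
  unfold Df Bf
  rw [mv_smul, smul_dotProduct, smul_mul_assoc, map_smul, smul_eq_mul, smul_eq_mul]; ring

lemma Df_z (hz : z 0 = 1) (b : Fin (k + 1)) (q : MvPolynomial (Fin k) ℝ) :
    Df L z (z b) q = 0 := by
  unfold Df Bf
  have h1 : mv L z (z b) = yM (tauL L z) b := by
    ext e; rw [yM_eq L z hz]; rfl
  have h2 : yM (tauL L z) b ⬝ᵥ ((yM (tauL L z)).adjugate *ᵥ mv L z q)
      = ((yM (tauL L z)) *ᵥ ((yM (tauL L z)).adjugate *ᵥ mv L z q)) b := rfl
  rw [h1, h2, mulVec_mulVec, mul_adjugate, smul_mulVec, one_mulVec, Pi.smul_apply, smul_eq_mul,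
    mul_comm (z b) q]
  simp [mv]

/-- The transformation matrix. -/
noncomputable def gm (ξ : Fin k → ℝ) (ε : ℝ) : Matrix (Fin (k + 1)) (Fin (k + 1)) ℝ :=
  Fin.cons (Fin.cons 1 0) fun i => Fin.cons (ξ i) fun j => if i = j then ε else 0

lemma det_gm (ξ : Fin k → ℝ) (ε : ℝ) : (gm ξ ε).det = ε ^ k := by
  rw [det_succ_row_zero, Fin.sum_univ_succ]
  have h0 : ∀ j : Fin k, gm ξ ε 0 j.succ = 0 := fun j => by simp [gm]
  have h1 : gm ξ ε 0 0 = 1 := by simp [gm]
  have h2 : (gm ξ ε).submatrix Fin.succ (Fin.succAbove 0) = diagonal fun _ => ε := by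
    ext i j
    rw [submatrix_apply, diagonal_apply, Fin.succAbove_zero]
    simp [gm]
  rw [h2, det_diagonal]
  simp [h0, h1]

/-- The transformed coordinates. -/
noncomputable def zp (ξ : Fin k → ℝ) (ε : ℝ) : Fin (k + 1) → MvPolynomial (Fin k) ℝ :=
  hat fun j => C (ξ j) + C ε * X j

lemma hat_zero {A : Type*} [CommRing A] (x : Fin k → A) : hat x 0 = 1 := rfl

lemma hat_succ {A : Type*} [CommRing A] (x : Fin k → A) (i : Fin k) : hat x i.succ = x i := rfl

lemma zp_eq (ξ : Fin k → ℝ) (ε : ℝ) (a : Fin (k + 1)) :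
    zp ξ ε a = ∑ b, gm ξ ε a b • hat (X : Fin k → MvPolynomial (Fin k) ℝ) b := by
  rw [Fin.sum_univ_succ]
  refine Fin.cases ?_ (fun i => ?_) a
  · simp [zp, gm, hat_zero]
  · simp only [zp, hat_succ, hat_zero, gm, Fin.cons_succ, Fin.cons_zero, ite_smul, zero_smul,
      Finset.sum_ite_eq, Finset.mem_univ, if_true, smul_eq_C_mul, mul_one]

lemma mv_zp (ξ : Fin k → ℝ) (ε : ℝ) (p : MvPolynomial (Fin k) ℝ) :
    mv L (zp ξ ε) p = gm ξ ε *ᵥ mv L (hat X) p := by
  ext e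
  simp only [mv, mulVec, dotProduct, zp_eq, Finset.mul_sum, map_sum, mul_smul_comm, map_smul,
    smul_eq_mul]

lemma y_zp (ξ : Fin k → ℝ) (ε : ℝ) :
    yM (tauL L (zp ξ ε)) = gm ξ ε * yM (tauL L (hat X)) * (gm ξ ε)ᵀ := by
  ext a b
  have h1 : yM (tauL L (zp ξ ε)) a b = (gm ξ ε *ᵥ mv L (hat X) (zp ξ ε a)) b := by
    rw [yM_eq L (zp ξ ε) rfl, ← mv_zp]; rfl
  have h2 : ∀ c, mv L (hat X) (zp ξ ε a) c = (gm ξ ε *ᵥ mv L (hat X) (hat X c)) a := by
    intro c
    rw [← mv_zp]; simp only [mv]; rw [mul_comm]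
  have h3 : ∀ c d, mv L (hat X) (hat X c) d = yM (tauL L (hat X)) d c := by
    intro c d
    rw [yM_eq L _ (hat_zero _), mul_comm]; rfl
  rw [h1, mul_apply, mulVec, dotProduct]
  refine Finset.sum_congr rfl fun c _ => ?_
  rw [h2, mul_comm, transpose_apply, mul_apply, mulVec, dotProduct]
  simp only [h3]

lemma det_y_zp (ξ : Fin k → ℝ) (ε : ℝ) :
    (yM (tauL L (zp ξ ε))).det = ε ^ (2 * k) * (yM (tauL L (hat X))).det := by
  rw [y_zp, det_mul, det_mul, det_transpose, det_gm]; ring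

lemma Bf_zp (ξ : Fin k → ℝ) (ε : ℝ) (p q : MvPolynomial (Fin k) ℝ) :
    Bf L (zp ξ ε) p q = ε ^ (2 * k) * Bf L (hat X) p q := by
  unfold Bf
  rw [y_zp, mv_zp, mv_zp, adjugate_mul_distrib, adjugate_mul_distrib]
  set g := gm ξ ε with hg
  set y := yM (tauL L (hat X)) with hy
  set v := mv L (hat X) p
  set w := mv L (hat X) q
  have h1 : (g *ᵥ v) ⬝ᵥ ((gᵀ.adjugate * (y.adjugate * g.adjugate)) *ᵥ (g *ᵥ w))
      = v ⬝ᵥ ((gᵀ * (gᵀ.adjugate * (y.adjugate * g.adjugate)) * g) *ᵥ w) := by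
    generalize gᵀ.adjugate * (y.adjugate * g.adjugate) = M
    rw [← mulVec_mulVec w (gᵀ * M) g, ← mulVec_mulVec _ gᵀ M, dotProduct_mulVec v gᵀ,
      vecMul_transpose]
  have h2 : gᵀ * (gᵀ.adjugate * (y.adjugate * g.adjugate)) * g = ε ^ (2 * k) • y.adjugate := by
    have : gᵀ * (gᵀ.adjugate * (y.adjugate * g.adjugate)) * g
        = (gᵀ * gᵀ.adjugate) * y.adjugate * (g.adjugate * g) := by
      simp only [Matrix.mul_assoc]
    rw [this, mul_adjugate, adjugate_mul, det_transpose, hg, det_gm, smul_mul_assoc, one_mul,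
      mul_smul_comm, mul_one, smul_smul]
    congr 1; ring
  rw [h1, h2, smul_mulVec, dotProduct_smul, smul_eq_mul]

/-- `Df` for the transformed coordinates, computed in the old ones. -/
lemma zp_mul (ξ : Fin k → ℝ) (ε : ℝ) (i j : Fin k) :
    zp ξ ε i.succ * zp ξ ε j.succ
      = (ε ^ 2) • (X i * X j) + ((ξ i * ε) • X j + ((ξ j * ε) • X i +
          (ξ i * ξ j) • (1 : MvPolynomial (Fin k) ℝ))) := by
  simp only [zp, hat_succ, smul_eq_C_mul, map_mul, map_pow, mul_one]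
  ring

lemma Df_left (ξ : Fin k → ℝ) (ε : ℝ) (i j : Fin k) (q : MvPolynomial (Fin k) ℝ) :
    Df L (hat X) (zp ξ ε i.succ * zp ξ ε j.succ) q = ε ^ 2 * Df L (hat X) (X i * X j) q := by
  have hX : ∀ i : Fin k, Df L (hat X) (X i) q = 0 := fun i => Df_z L (hat X) rfl i.succ q
  have h1 : Df L (hat X) 1 q = 0 := Df_z L (hat X) rfl 0 q
  rw [zp_mul, Df_add, Df_add, Df_add, Df_smul, Df_smul, Df_smul, Df_smul, hX, hX, h1]
  ring

lemma Df_zp (ξ : Fin k → ℝ) (ε : ℝ) (i j l m : Fin k) :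
    Df L (hat X) (zp ξ ε i.succ * zp ξ ε j.succ) (zp ξ ε l.succ * zp ξ ε m.succ)
      = ε ^ 4 * Df L (hat X) (X i * X j) (X l * X m) := by
  rw [Df_left, Df_symm L (hat X) rfl, Df_left, Df_symm L (hat X) rfl]
  ring

/-- The basic identity. -/
lemma main (ξ : Fin k → ℝ) (ε : ℝ) (i j l m : Fin k) :
    Xt (tauL L (zp ξ ε)) i j l m - (yM (tauL L (zp ξ ε))).det *
        L (zp ξ ε i.succ * zp ξ ε j.succ * (zp ξ ε l.succ * zp ξ ε m.succ))
      = ε ^ (2 * k + 4) * (Xt (tauL L (hat X)) i j l m - (yM (tauL L (hat X))).det *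
        L (X i * X j * (X l * X m))) := by
  have h1 := Df_zp L ξ ε i j l m
  have h2 : Xt (tauL L (hat X)) i j l m = Bf L (hat X) (X i * X j) (X l * X m) :=
    Xt_eq L (hat X) i j l m
  rw [Xt_eq, Bf_zp, det_y_zp, h2]
  simp only [Df] at h1
  linear_combination ε ^ (2 * k) * h1

/-- Homogeneity of the evaluation of `Q`. -/
lemma Qev_smul (m : ℕ) (Q : MvPolynomial (Option (Idx4 k)) ℝ) (hQ : Q.IsHomogeneous m)
    (c σ : ℝ) (R : E4 k ℝ) : Qev Q (c * σ) (fun i j l m => c * R i j l m) = c ^ m * Qev Q σ R := by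
  unfold Qev
  rw [aeval_def, aeval_def, eval₂_eq, eval₂_eq, Finset.mul_sum]
  refine Finset.sum_congr rfl fun d hd => ?_
  have hdeg : ∑ i ∈ d.support, d i = m := by
    have := hQ (mem_support_iff.mp hd)
    rw [Finsupp.weight_apply, Finsupp.sum] at this
    simpa using this
  have : ∀ o : Option (Idx4 k), (o.elim (c * σ) fun q => c * R q.1 q.2.1 q.2.2.1 q.2.2.2)
      = c * (o.elim σ fun q => R q.1 q.2.1 q.2.2.1 q.2.2.2) := by
    intro o; cases o <;> rfl
  simp only [this, mul_pow, Finset.prod_mul_distrib, Finset.prod_pow_eq_pow_sum, hdeg]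
  ring

lemma alt_main (ξ : Fin k → ℝ) (ε : ℝ) (i j l m : Fin k) :
    alt (Xt (tauL L (zp ξ ε))) i j l m = ε ^ (2 * k + 4) * alt (Xt (tauL L (hat X))) i j l m := by
  have h1 := main L ξ ε i l j m
  have h2 := main L ξ ε i m j l
  have e1 : zp ξ ε i.succ * zp ξ ε l.succ * (zp ξ ε j.succ * zp ξ ε m.succ)
      = zp ξ ε i.succ * zp ξ ε m.succ * (zp ξ ε j.succ * zp ξ ε l.succ) := by ring
  have e2 : (X i * X l * (X j * X m) : MvPolynomial (Fin k) ℝ)
      = X i * X m * (X j * X l) := by ring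
  rw [e1, e2] at h1
  simp only [alt]
  linear_combination h1 - h2

end F

theorem stmtF : StmtF := by
  intro k m Q N L ξ ε hQ
  have hp : (hat fun j => MvPolynomial.C (ξ j) + MvPolynomial.C ε * MvPolynomial.X j)
      = F.zp ξ ε := rfl
  have hS : ∀ v : Fin k → MvPolynomial (Fin k) ℝ,
      L (quadN (fun i j l m => MvPolynomial.C (N i j l m)) (sq v))
        = ∑ i, ∑ j, ∑ l, ∑ m, N i j l m * L (v i * v j * (v l * v m)) := by
    intro v
    simp only [quadN, pairing, tens2, sq, map_sum, MvPolynomial.C_mul', map_smul, smul_eq_mul]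
  rw [hp, hS, hS]
  unfold pf
  set lam := ε ^ (2 * k + 4) with hlam
  have h1 : alt (Xt (tauL L (F.zp ξ ε)))
      = fun i j l m => lam * alt (Xt (tauL L (hat MvPolynomial.X))) i j l m := by
    funext i j l m
    exact F.alt_main L ξ ε i j l m
  have h2 : (∑ i, ∑ j, ∑ l, ∑ m, N i j l m *
        L ((MvPolynomial.C (ξ i) + MvPolynomial.C ε * MvPolynomial.X i) *
          (MvPolynomial.C (ξ j) + MvPolynomial.C ε * MvPolynomial.X j) *
          ((MvPolynomial.C (ξ l) + MvPolynomial.C ε * MvPolynomial.X l) *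
          (MvPolynomial.C (ξ m) + MvPolynomial.C ε * MvPolynomial.X m)))) *
        (yM (tauL L (F.zp ξ ε))).det -
        pairing (fun i j l m => algebraMap ℝ ℝ (N i j l m)) (Xt (tauL L (F.zp ξ ε)))
      = lam * ((∑ i, ∑ j, ∑ l, ∑ m, N i j l m *
        L (MvPolynomial.X i * MvPolynomial.X j * (MvPolynomial.X l * MvPolynomial.X m))) *
        (yM (tauL L (hat MvPolynomial.X))).det -
        pairing (fun i j l m => algebraMap ℝ ℝ (N i j l m)) (Xt (tauL L (hat MvPolynomial.X)))) := by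
    simp only [pairing, Algebra.algebraMap_self, RingHom.id_apply, Finset.sum_mul,
      ← Finset.sum_sub_distrib, Finset.mul_sum]
    refine Finset.sum_congr rfl fun i _ => Finset.sum_congr rfl fun j _ =>
      Finset.sum_congr rfl fun l _ => Finset.sum_congr rfl fun m _ => ?_
    have := F.main L ξ ε i j l m
    simp only [F.zp, F.hat_succ] at this
    rw [hlam]
    simp only [F.zp]
    linear_combination (-N i j l m) * this
  rw [h2, h1, F.Qev_smul (2 * m) Q hQ, hlam, ← pow_mul]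
  congr 2
  ring

end Vale.Agent.P256.PL
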