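import Vale.Agent.P256.PL.Z
import Vale.Agent.P256.PL.A1
import Vale.Agent.P256.PL.A2
import Vale.Agent.P256.PL.A3
import Vale.Agent.P256.PL.A4
import Vale.Agent.P256.PL.A5
import Vale.Agent.P256.PL.B2
import Vale.Agent.P256.PL.B3
import Vale.Agent.P256.PL.B4
import Vale.Agent.P256.PL.C
import Vale.Agent.P256.PL.C6
import Vale.Agent.P256.PL.F
import Vale.Agent.P256.PL.D5
import Vale.Agent.P256.PL.D.FinalOf
import Vale.Agent.P256.PL.D.TransferB
import Vale.Agent.P256.PL.D.Sem7
import Vale.Agent.P256.PL.D.SemR653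
import Vale.Agent.P256.PL.D.CertF

/-! The projected Lax conjecture is false: the modules put together. -/

namespace Vale.Agent.P256.PL

/-- The data of the example. -/
theorem stmtD : StmtD :=
  D.stmtD_of_parts D.TB.transfer (fun i x _ => D.evT_rowT i x) D.rowZ_lt D.semR653 D.cert7

/-- Some hyperbolicity cone is not a spectrahedral shadow. -/
theorem stmtFinal : StmtFinal :=
  stmtFinal_of stmtA1 stmtA2 stmtA3 stmtA4 stmtA5 stmtB2 stmtB3 stmtB4 stmtC stmtC6 stmtF stmtD
    stmtD5

end Vale.Agent.P256.PL
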