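import Vale.Agent.P256.PL.Defs

/-!
# P256: the projected Lax conjecture is false. Statements of the modules.

Each `StmtX : Prop` is proved in its own file `PL/X.lean` as `theorem stmtX : StmtX`.
-/

namespace Vale.Agent.P256.PL

open MvPolynomial Matrix

/-- `‖R‖²`. -/
def normSq {k : ℕ} (R : E4 k ℝ) : ℝ := ∑ i, ∑ j, ∑ l, ∑ m, R i j l m ^ 2

/-- Evaluation of a polynomial in the coordinates of `E4`. -/
noncomputable def hev {k : ℕ} (h : MvPolynomial (Idx4 k) ℝ) (R : E4 k ℝ) : ℝ :=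
  eval (fun q => R q.1 q.2.1 q.2.2.1 q.2.2.2) h

/-- `Q` is a form of degree `2m`, monic in `σ`, with `2m` simple real roots for `0 ≠ R ∈ B`,
separated by continuous functions `μ 1 < ... < μ (2m-1)`. -/
structure GoodQ {k : ℕ} (B : Set (E4 k ℝ)) (m : ℕ) (Q : MvPolynomial (Option (Idx4 k)) ℝ) :
    Prop where
  mpos : 0 < m
  hom : Q.IsHomogeneous (2 * m)
  lead : Qev Q (1 : ℝ) 0 = 1
  sep : ∃ μ : ℕ → E4 k ℝ → ℝ, (∀ i, Continuous (μ i)) ∧ (∀ i, μ i 0 = 0) ∧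
    ∀ R ∈ B, R ≠ 0 → ∀ i, 1 ≤ i → i < 2 * m →
      0 < (-1 : ℝ) ^ i * Qev Q (μ i R) R ∧ (i + 1 < 2 * m → μ i R < μ (i + 1) R)

/-- Domination: the roots of `Q(·, -U∧U)` have absolute value `< N(U)`. -/
def DomQ {k : ℕ} (Q : MvPolynomial (Option (Idx4 k)) ℝ) (N : E4 k ℝ) : Prop :=
  ∀ U : Matrix (Fin k) (Fin k) ℝ, U.IsSymm → U ≠ 0 →
    0 < quadN N U ∧ ∀ σ : ℝ, quadN N U ≤ |σ| → 0 < Qev Q σ (-wedge U)

/-! ## A: construction of `Q` and `N` -/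

/-- A1. Construction of `Q` from a separating form `h`. -/
def StmtA1 : Prop :=
  ∀ (k m : ℕ) (B : Set (E4 k ℝ)) (W : Submodule ℝ (E4 k ℝ)) (l : E4 k ℝ →ₗ[ℝ] ℝ)
    (R₀ : E4 k ℝ) (h : MvPolynomial (Idx4 k) ℝ) (θ : ℝ),
    IsClosed B → (∀ (c : ℝ) (R), R ∈ B → c • R ∈ B) → 0 < m → h.IsHomogeneous (2 * m) →
    R₀ ∈ W → 0 < l R₀ → 0 < θ → θ * normSq R₀ ≤ l R₀ ^ 2 → 0 < hev h R₀ →
    (∀ R ∈ B, R ∈ W → (∀ c : ℝ, R ≠ c • R₀) → hev h R = 0) →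
    ∃ Q : MvPolynomial (Option (Idx4 k)) ℝ, GoodQ B m Q ∧ Qev Q (l R₀) R₀ < 0 ∧
      ∀ R ∈ B, R ∈ W → (∀ c : ℝ, R ≠ c • R₀) → θ * normSq R ≤ l R ^ 2 →
        ∀ σ : ℝ, |l R| ≤ |σ| → 0 < Qev Q σ R

/-- A2. Construction of `N`. -/
def StmtA2 : Prop :=
  ∀ (k m : ℕ) (Q : MvPolynomial (Option (Idx4 k)) ℝ)
    (K : Submodule ℝ (Matrix (Fin k) (Fin k) ℝ)) (l : E4 k ℝ →ₗ[ℝ] ℝ),
    0 < m → Q.IsHomogeneous (2 * m) → Qev Q (1 : ℝ) 0 = 1 →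
    (∀ U ∈ K, U ≠ 0 → 0 < l (-wedge U) ∧
      ∀ σ : ℝ, l (-wedge U) ≤ |σ| → 0 < Qev Q σ (-wedge U)) →
    ∃ N : E4 k ℝ, (∀ U ∈ K, quadN N U = l (-wedge U)) ∧ DomQ Q N

/-- The Bianchi/Jacobi type expression. -/
def Bi {k : ℕ} (R : E4 k ℝ) (G : Fin k → Fin k → Fin k → ℝ) (a b c d e : Fin k) : ℝ :=
  (∑ g, (R b c d g * G a e g - G a d g * R b c g e)) +
  (∑ g, (R c a d g * G b e g - G b d g * R c a g e)) +
  ∑ g, (R a b d g * G c e g - G c d g * R a b g e)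

/-- Symmetric and trace free `G`. -/
def IsG {k : ℕ} (G : Fin k → Fin k → Fin k → ℝ) : Prop :=
  (∀ a e g, G a e g = G e a g) ∧ ∀ a, ∑ g, G a g g = 0

/-- The closed cone `B`. -/
def BB (k : ℕ) : Set (E4 k ℝ) :=
  {R | ∃ G : Fin k → Fin k → Fin k → ℝ, G ≠ 0 ∧ IsG G ∧ ∀ a b c d e, Bi R G a b c d e = 0}

/-- A3. `BB` is a closed cone. -/
def StmtA3 : Prop :=
  ∀ k : ℕ, IsClosed (BB k) ∧ ∀ (c : ℝ) (R), R ∈ BB k → c • R ∈ BB k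

/-- A4. All `alt (Xt τ)` and all `± U ∧ U` are in `BB`. -/
def StmtA4 : Prop :=
  ∀ k : ℕ, 2 ≤ k → (∀ τ : Tens k ℝ, IsSymT τ → alt (Xt τ) ∈ BB k) ∧
    ∀ U : Matrix (Fin k) (Fin k) ℝ, U.IsSymm → wedge U ∈ BB k ∧ -wedge U ∈ BB k

/-- The element of `E4` belonging to a symmetric matrix `s`. -/
def Rs {k n : ℕ} (U : Fin n → Matrix (Fin k) (Fin k) ℝ) (s : Matrix (Fin n) (Fin n) ℝ) : E4 k ℝ :=
  alt fun i j l m => ∑ p, ∑ q, s p q * (U p i j * U q l m)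

/-- The data condition (C). `R₀ = -∑ w_p U_p ∧ U_p`. -/
structure DataC {k n : ℕ} (U : Fin n → Matrix (Fin k) (Fin k) ℝ) (w : Fin n → ℝ)
    (G₀ : Fin k → Fin k → Fin k → ℝ) : Prop where
  two : 2 ≤ n
  symm : ∀ p, (U p).IsSymm
  wpos : ∀ p, 0 < w p
  isG : IsG G₀
  ne : G₀ ≠ 0
  sol : ∀ a b c d e, Bi (Rs U (-diagonal w)) G₀ a b c d e = 0
  rigid : ∀ (G : Fin k → Fin k → Fin k → ℝ) (s : Matrix (Fin n) (Fin n) ℝ), IsG G → s.IsSymm →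
    (∀ a b c d e, Bi (Rs U (-diagonal w)) G a b c d e + Bi (Rs U s) G₀ a b c d e = 0) →
    (∃ c : ℝ, s = c • diagonal w) ∧ ∃ c : ℝ, G = c • G₀

/-- A5. From the data condition: linear form, separating form. `K` is the span of the `U_p`. -/
def StmtA5 : Prop :=
  ∀ (k n : ℕ) (U : Fin n → Matrix (Fin k) (Fin k) ℝ) (w : Fin n → ℝ)
    (G₀ : Fin k → Fin k → Fin k → ℝ), 2 ≤ k → DataC U w G₀ →
    ∃ (W : Submodule ℝ (E4 k ℝ)) (l : E4 k ℝ →ₗ[ℝ] ℝ) (θ : ℝ) (m : ℕ)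
      (h : MvPolynomial (Idx4 k) ℝ),
      0 < θ ∧ 0 < m ∧ h.IsHomogeneous (2 * m) ∧
      Rs U (-diagonal w) ∈ W ∧ 0 < l (Rs U (-diagonal w)) ∧
      θ * normSq (Rs U (-diagonal w)) ≤ l (Rs U (-diagonal w)) ^ 2 ∧
      0 < hev h (Rs U (-diagonal w)) ∧
      (∀ R ∈ BB k, R ∈ W → (∀ c : ℝ, R ≠ c • Rs U (-diagonal w)) → hev h R = 0) ∧
      ∀ V ∈ Submodule.span ℝ (Set.range U), V ≠ 0 →
        -wedge V ∈ W ∧ (∀ c : ℝ, -wedge V ≠ c • Rs U (-diagonal w)) ∧ 0 < l (-wedge V) ∧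
          θ * normSq (-wedge V) ≤ l (-wedge V) ^ 2

/-! ## B: hyperbolicity -/

/-- B1. Root counting: `T 0 < ... < T n` with dominating alternating values give `2 m n` roots. -/
def StmtB1 : Prop :=
  ∀ (k m : ℕ) (B : Set (E4 k ℝ)) (Q : MvPolynomial (Option (Idx4 k)) ℝ) (n : ℕ) (T : ℕ → ℝ)
    (S : Polynomial ℝ) (R : E4 k (Polynomial ℝ)),
    GoodQ B m Q → (∀ (c : ℝ) (R), R ∈ B → c • R ∈ B) →
    (∀ t : ℝ, (fun i j l m => (R i j l m).eval t) ∈ B) →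
    (∀ i, i < n → T i < T (i + 1)) →
    (∀ i, i ≤ n → S.eval (T i) ≠ 0 ∧ ∀ σ : ℝ, |S.eval (T i)| ≤ |σ| →
      0 < Qev Q σ (fun i' j l m => (R i' j l m).eval (T i))) →
    (∀ i, i < n → S.eval (T i) * S.eval (T (i + 1)) < 0) →
    Qev Q S R ≠ 0 → 2 * m * n ≤ Multiset.card (Qev Q S R).roots

/-- B2. The real rootedness of `p` on lines in direction `(E, sE)`. -/
def StmtB2 : Prop :=
  ∀ (k m : ℕ) (B : Set (E4 k ℝ)) (Q : MvPolynomial (Option (Idx4 k)) ℝ) (N : E4 k ℝ)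
    (E : Tens k ℝ) (sE : ℝ), 1 ≤ k →
    GoodQ B m Q → (∀ (c : ℝ) (R), R ∈ B → c • R ∈ B) →
    (∀ τ : Tens k ℝ, IsSymT τ → alt (Xt τ) ∈ B) → DomQ Q N →
    IsSymT E → (yM E).PosDef → alt (Xt E) = 0 → pairing N (Xt E) < sE * (yM E).det →
    ∀ (τ : Tens k ℝ) (s : ℝ), IsSymT τ → ∀ t : ℂ,
      pf Q N (fun a b c => t * (E a b c : ℂ) - (τ a b c : ℂ)) (t * (sE : ℂ) - (s : ℂ)) = 0 →
      t.im = 0

/-- B3. The direction and the rank one moment points. -/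
def StmtB3 : Prop :=
  ∀ (k m : ℕ) (B : Set (E4 k ℝ)) (Q : MvPolynomial (Option (Idx4 k)) ℝ) (N : E4 k ℝ)
    (E : Tens k ℝ) (sE : ℝ),
    GoodQ B m Q → DomQ Q N →
    IsSymT E → (yM E).PosDef → alt (Xt E) = 0 → pairing N (Xt E) < sE * (yM E).det →
    0 < pf Q N E sE ∧
    ∀ (x : Fin k → ℝ) (t : ℝ), 0 < t →
      0 < pf Q N (fun a b c => t * E a b c + cube (hat x) a b c) (t * sE + quadN N (sq x))

/-- B4. There is a direction. -/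
def StmtB4 : Prop :=
  ∀ k : ℕ, ∃ E : Tens k ℝ, IsSymT E ∧ (yM E).PosDef ∧ alt (Xt E) = 0

/-! ## C: spectrahedral shadows and pseudo-moments -/

/-- C. The non-shadow theorem. -/
def StmtC : Prop :=
  ∀ (k n d w : ℕ) (p : MvPolynomial (Fin n) ℝ) (K : Set (Fin n → ℝ))
    (ν : Fin n → MvPolynomial (Fin k) ℝ) (L : MvPolynomial (Fin k) ℝ →ₗ[ℝ] ℝ),
    p.IsHomogeneous d → IsSpectrahedralShadow K → (∀ u ∈ K, 0 ≤ eval u p) →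
    (∀ x : Fin k → ℝ, (fun i => eval x (ν i)) ∈ K) →
    (∀ i, (ν i).totalDegree ≤ w + 1) → L 1 = 1 →
    (∀ f : MvPolynomial (Fin k) ℝ, f.totalDegree ≤ w + 1 → 0 ≤ L (f * f)) →
    (∀ (ξ : Fin k → ℝ) (ε : ℝ),
      eval (fun i => L (aeval (fun j => C (ξ j) + C ε * X j) (ν i))) p =
        ε ^ w * eval (fun i => L (ν i)) p) →
    0 ≤ eval (fun i => L (ν i)) p

/-- C6. Extension of a pseudo-moment functional to all degrees, up to a small error. -/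
def StmtC6 : Prop :=
  ∀ (k D : ℕ) (L : MvPolynomial (Fin k) ℝ →ₗ[ℝ] ℝ), L 1 = 1 →
    (∀ f : MvPolynomial (Fin k) ℝ, f.totalDegree ≤ 2 → 0 ≤ L (f * f)) → ∀ δ : ℝ, 0 < δ →
    ∃ L' : MvPolynomial (Fin k) ℝ →ₗ[ℝ] ℝ, L' 1 = 1 ∧
      (∀ f : MvPolynomial (Fin k) ℝ, f.totalDegree ≤ D → 0 ≤ L' (f * f)) ∧
      ∀ α : Fin k →₀ ℕ, α.degree ≤ 4 → |L' (monomial α 1) - L (monomial α 1)| < δ

/-! ## F: invariance -/

/-- The generic point `(1, X)`. -/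
noncomputable def Xhat (k : ℕ) : Fin (k + 1) → MvPolynomial (Fin k) ℝ := hat X

/-- The cubic tensor of a functional. -/
noncomputable def tauL {k : ℕ} (L : MvPolynomial (Fin k) ℝ →ₗ[ℝ] ℝ)
    (z : Fin (k + 1) → MvPolynomial (Fin k) ℝ) : Tens k ℝ := fun a b c => L (cube z a b c)

/-- F. Invariance under translations and dilations. -/
def StmtF : Prop :=
  ∀ (k m : ℕ) (Q : MvPolynomial (Option (Idx4 k)) ℝ) (N : E4 k ℝ)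
    (L : MvPolynomial (Fin k) ℝ →ₗ[ℝ] ℝ) (ξ : Fin k → ℝ) (ε : ℝ), Q.IsHomogeneous (2 * m) →
    pf Q N (tauL L (hat fun j => C (ξ j) + C ε * X j))
      (L (quadN (fun i j l m => C (N i j l m)) (sq fun j => C (ξ j) + C ε * X j))) =
    ε ^ (2 * m * (2 * k + 4)) * pf Q N (tauL L (hat X))
      (L (quadN (fun i j l m => C (N i j l m)) (sq X)))

/-! ## D: data -/

/-- D. The example (Mermin pentagram). `y = yM τ`, `P = y⁻¹`. -/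
def StmtD : Prop :=
  ∃ (k n : ℕ) (τ : Tens k ℝ) (U : Fin n → Matrix (Fin k) (Fin k) ℝ) (w : Fin n → ℝ)
    (G₀ : Fin k → Fin k → Fin k → ℝ), 2 ≤ k ∧ IsSymT τ ∧ τ 0 0 0 = 1 ∧ (yM τ).PosDef ∧
    (∀ i j l m, alt (Xt τ) i j l m = (yM τ).det * Rs U (-diagonal w) i j l m) ∧ DataC U w G₀

/-- D5. From the data to a pseudo-moment functional: if `X + ∑ w_p U_p ⊗ U_p` is totally
symmetric. -/
def StmtD5 : Prop :=
  ∀ (k n : ℕ) (τ : Tens k ℝ) (U : Fin n → Matrix (Fin k) (Fin k) ℝ) (w : Fin n → ℝ),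
    IsSymT τ → τ 0 0 0 = 1 → (yM τ).PosDef → (∀ p, (U p).IsSymm) → (∀ p, 0 < w p) →
    (∀ i j l m, alt (Xt τ) i j l m = (yM τ).det * Rs U (-diagonal w) i j l m) →
    ∃ L : MvPolynomial (Fin k) ℝ →ₗ[ℝ] ℝ, L 1 = 1 ∧
      (∀ f : MvPolynomial (Fin k) ℝ, f.totalDegree ≤ 2 → 0 ≤ L (f * f)) ∧
      tauL L (hat X) = τ ∧
      ∀ i j l m, (yM τ).det * L (X i * X j * (X l * X m)) =
        Xt τ i j l m + (yM τ).det * ∑ p, w p * (U p i j * U p l m)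

/-- The final statement. -/
def StmtFinal : Prop :=
  ∃ (n : ℕ) (p : MvPolynomial (Fin n) ℝ) (e : Fin n → ℝ),
    IsHyperbolic p e ∧ ¬ IsSpectrahedralShadow (hypCone p e)

end Vale.Agent.P256.PL
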