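import Vale.Agent.P256.PL.Z2

/-!
# Assembly: the final statement from the modules.
-/

namespace Vale.Agent.P256.PL.Z

open MvPolynomial Matrix

section curve

variable {k : ℕ}

/-- The moment curve as a vector of polynomials. -/
noncomputable def nu (N : E4 k ℝ) : Fin (dimN k) → MvPolynomial (Fin k) ℝ :=
  co (cube (hat X)) (quadN (fun i j l m => C (N i j l m)) (sq X))

theorem map_co {A B : Type*} (f : A → B) (τ : Tens k A) (s : A) (i : Fin (dimN k)) :
    f (co τ s i) = co (mapT f τ) (f s) i := by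
  simp only [co]
  cases (eqv k).symm i <;> rfl

theorem mapT_cube {A B : Type*} [CommRing A] [CommRing B] (φ : A →+* B) (x : Fin k → A) :
    mapT φ (cube (hat x)) = cube (hat fun j => φ (x j)) := by
  have h : ∀ a, φ (hat x a) = hat (fun j => φ (x j)) a := by
    intro a
    refine Fin.cases ?_ (fun i => ?_) a
    · simp [hat]
    · simp [hat]
  funext a b c
  simp only [mapT, cube, map_mul, h]

theorem map_quadN {A B : Type*} [CommRing A] [CommRing B] (φ : A →+* B) (N : E4 k A)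
    (x : Fin k → A) :
    φ (quadN N (sq x)) = quadN (fun i j l m => φ (N i j l m)) (sq fun j => φ (x j)) := by
  simp only [quadN, pairing, tens2, sq, map_sum, map_mul]

theorem eval_nu (N : E4 k ℝ) (x : Fin k → ℝ) :
    (fun i => eval x (nu N i)) = co (cube (hat x)) (quadN N (sq x)) := by
  funext i
  unfold nu
  rw [map_co (fun f => eval x f)]
  congr 1
  · have := mapT_cube (eval x) (X : Fin k → MvPolynomial (Fin k) ℝ)
    simp only [eval_X] at this
    exact this
  · have := map_quadN (eval x) (fun i j l m => C (N i j l m))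
      (X : Fin k → MvPolynomial (Fin k) ℝ)
    simp only [eval_X, eval_C] at this
    exact this

theorem subst_nu (N : E4 k ℝ) (g : Fin k → MvPolynomial (Fin k) ℝ) (i : Fin (dimN k)) :
    aeval g (nu N i) =
      co (cube (hat g)) (quadN (fun i j l m => C (N i j l m)) (sq g)) i := by
  unfold nu
  rw [map_co (fun f => aeval g f)]
  congr 1
  · have := mapT_cube ((aeval g : MvPolynomial (Fin k) ℝ →ₐ[ℝ] MvPolynomial (Fin k) ℝ) :
      MvPolynomial (Fin k) ℝ →+* MvPolynomial (Fin k) ℝ) (X : Fin k → MvPolynomial (Fin k) ℝ)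
    simp only [RingHom.coe_coe, aeval_X] at this
    exact this
  · have := map_quadN ((aeval g : MvPolynomial (Fin k) ℝ →ₐ[ℝ] MvPolynomial (Fin k) ℝ) :
      MvPolynomial (Fin k) ℝ →+* MvPolynomial (Fin k) ℝ) (fun i j l m => C (N i j l m))
      (X : Fin k → MvPolynomial (Fin k) ℝ)
    simp only [RingHom.coe_coe, aeval_X, aeval_C, algebraMap_eq] at this
    exact this

theorem L_co (L : MvPolynomial (Fin k) ℝ →ₗ[ℝ] ℝ) (z : Fin (k + 1) → MvPolynomial (Fin k) ℝ)
    (s : MvPolynomial (Fin k) ℝ) :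
    (fun i => L (co (cube z) s i)) = co (tauL L z) (L s) := by
  funext i
  rw [map_co (fun f => L f)]
  rfl

theorem isSymT_tauL (L : MvPolynomial (Fin k) ℝ →ₗ[ℝ] ℝ)
    (z : Fin (k + 1) → MvPolynomial (Fin k) ℝ) : IsSymT (tauL L z) := by
  have h := isSymT_cube z
  constructor
  · intro a b c
    simp only [tauL, h.1 a b c]
  · intro a b c
    simp only [tauL, h.2 a b c]

theorem deg_hat (a : Fin (k + 1)) :
    (hat (X : Fin k → MvPolynomial (Fin k) ℝ) a).totalDegree ≤ 1 := by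
  refine Fin.cases ?_ (fun i => ?_) a
  · simp [hat]
  · simp [hat]

theorem deg_nu (N : E4 k ℝ) (i : Fin (dimN k)) : (nu N i).totalDegree ≤ 4 := by
  unfold nu co
  cases (eqv k).symm i with
  | none =>
    simp only [Option.elim, quadN, pairing, tens2, sq]
    refine totalDegree_finsetSum_le fun i _ => totalDegree_finsetSum_le fun j _ =>
      totalDegree_finsetSum_le fun l _ => totalDegree_finsetSum_le fun m _ => ?_
    refine (totalDegree_mul _ _).trans ?_
    have h1 := totalDegree_mul (X i * X j : MvPolynomial (Fin k) ℝ) (X l * X m)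
    have h2 := totalDegree_mul (X i : MvPolynomial (Fin k) ℝ) (X j)
    have h3 := totalDegree_mul (X l : MvPolynomial (Fin k) ℝ) (X m)
    simp only [totalDegree_X, totalDegree_C] at *
    omega
  | some q =>
    simp only [Option.elim, cube]
    have h1 := totalDegree_mul (hat (X : Fin k → MvPolynomial (Fin k) ℝ) q.1 * hat X q.2.1)
      (hat X q.2.2)
    have h2 := totalDegree_mul (hat (X : Fin k → MvPolynomial (Fin k) ℝ) q.1) (hat X q.2.1)
    have h3 := deg_hat q.1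
    have h4 := deg_hat q.2.1
    have h5 := deg_hat q.2.2
    omega

end curve

section approx

variable {k : ℕ}

theorem L_monos (L : MvPolynomial (Fin k) ℝ →ₗ[ℝ] ℝ) (f : MvPolynomial (Fin k) ℝ) :
    L f = ∑ α ∈ f.support, coeff α f * L (monomial α 1) := by
  conv_lhs => rw [as_sum f]
  rw [map_sum]
  refine Finset.sum_congr rfl fun α _ => ?_
  rw [← smul_eq_mul, ← map_smul, smul_monomial, smul_eq_mul, mul_one]

theorem approx (L L' : MvPolynomial (Fin k) ℝ →ₗ[ℝ] ℝ) (δ : ℝ)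
    (h : ∀ α : Fin k →₀ ℕ, α.degree ≤ 4 → |L' (monomial α 1) - L (monomial α 1)| < δ)
    (f : MvPolynomial (Fin k) ℝ) (hf : f.totalDegree ≤ 4) :
    |L' f - L f| ≤ (∑ α ∈ f.support, |coeff α f|) * δ := by
  rw [L_monos L' f, L_monos L f, ← Finset.sum_sub_distrib, Finset.sum_mul]
  refine (Finset.abs_sum_le_sum_abs _ _).trans (Finset.sum_le_sum fun α hα => ?_)
  rw [← mul_sub, abs_mul]
  refine mul_le_mul_of_nonneg_left (h α ?_).le (abs_nonneg _)
  refine le_trans ?_ hf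
  exact le_totalDegree hα

/-- Perturbation of `L` keeping a strict inequality. -/
theorem exists_pert (hC6 : StmtC6) (L : MvPolynomial (Fin k) ℝ →ₗ[ℝ] ℝ) (h1 : L 1 = 1)
    (h2 : ∀ f : MvPolynomial (Fin k) ℝ, f.totalDegree ≤ 2 → 0 ≤ L (f * f)) (D : ℕ) {n : ℕ}
    (ν : Fin n → MvPolynomial (Fin k) ℝ) (hν : ∀ i, (ν i).totalDegree ≤ 4)
    (p : MvPolynomial (Fin n) ℝ) (hp : eval (fun i => L (ν i)) p < 0) :
    ∃ L' : MvPolynomial (Fin k) ℝ →ₗ[ℝ] ℝ, L' 1 = 1 ∧
      (∀ f : MvPolynomial (Fin k) ℝ, f.totalDegree ≤ D → 0 ≤ L' (f * f)) ∧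
      eval (fun i => L' (ν i)) p < 0 := by
  have hcont : Continuous fun v : Fin n → ℝ => eval v p := MvPolynomial.continuous_eval p
  have hop : IsOpen {v : Fin n → ℝ | eval v p < 0} := isOpen_lt hcont continuous_const
  obtain ⟨η, hη, hball⟩ := Metric.isOpen_iff.1 hop (fun i => L (ν i)) hp
  set M : ℝ := 1 + ∑ i, ∑ α ∈ (ν i).support, |coeff α (ν i)| with hM
  have hMi : ∀ i, ∑ α ∈ (ν i).support, |coeff α (ν i)| ≤ M - 1 := by
    intro i
    have := Finset.single_le_sum (f := fun i => ∑ α ∈ (ν i).support, |coeff α (ν i)|)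
      (fun i _ => Finset.sum_nonneg fun α _ => abs_nonneg _) (Finset.mem_univ i)
    linarith
  have hM0 : 0 ≤ M - 1 := by
    rw [hM]
    have : 0 ≤ ∑ i, ∑ α ∈ (ν i).support, |coeff α (ν i)| :=
      Finset.sum_nonneg fun i _ => Finset.sum_nonneg fun α _ => abs_nonneg _
    linarith
  have hMpos : 0 < M := by linarith
  obtain ⟨L', hL1, hL2, hL3⟩ := hC6 k D L h1 h2 (η / M) (div_pos hη hMpos)
  refine ⟨L', hL1, hL2, hball ?_⟩
  rw [Metric.mem_ball, dist_pi_lt_iff hη]
  intro i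
  rw [Real.dist_eq]
  refine lt_of_le_of_lt (approx L L' _ hL3 (ν i) (hν i)) ?_
  calc (∑ α ∈ (ν i).support, |coeff α (ν i)|) * (η / M) ≤ (M - 1) * (η / M) :=
        mul_le_mul_of_nonneg_right (hMi i) (div_pos hη hMpos).le
    _ < M * (η / M) := by
        have := div_pos hη hMpos
        nlinarith
    _ = η := by field_simp

end approx

/-- The assembly. -/
theorem final_of (hA1 : StmtA1) (hA2 : StmtA2) (hA3 : StmtA3) (hA4 : StmtA4) (hA5 : StmtA5)
    (hB2 : StmtB2) (hB3 : StmtB3) (hB4 : StmtB4) (hC : StmtC) (hC6 : StmtC6) (hF : StmtF)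
    (hD : StmtD) (hD5 : StmtD5) : StmtFinal := by
  obtain ⟨k, n, τ, U, w, G₀, hk, hτ, hτ0, hpos, hX, hdat⟩ := hD
  obtain ⟨W, l, θ, m, h, hθ, hm, hh, hRW, hlR, hθR, hhR, hsep, hK⟩ := hA5 k n U w G₀ hk hdat
  obtain ⟨hBcl, hBsm⟩ := hA3 k
  obtain ⟨hBX, hBw⟩ := hA4 k hk
  obtain ⟨Q, hQ, hQneg, hQdom⟩ := hA1 k m (BB k) W l (Rs U (-diagonal w)) h θ hBcl hBsm hm hh
    hRW hlR hθ hθR hhR hsep
  have hKsymm : ∀ V ∈ Submodule.span ℝ (Set.range U), V.IsSymm := by
    intro V hV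
    induction hV using Submodule.span_induction with
    | mem x hx =>
      obtain ⟨p, rfl⟩ := hx
      exact hdat.symm p
    | zero => exact isSymm_zero
    | add x y _ _ hx hy => exact hx.add hy
    | smul c x _ hx => exact hx.smul c
  obtain ⟨N, hN1, hN2⟩ := hA2 k m Q (Submodule.span ℝ (Set.range U)) l hm hQ.hom hQ.lead (by
    intro V hV hV0
    obtain ⟨a1, a2, a3, a4⟩ := hK V hV hV0
    refine ⟨a3, fun σ hσ => hQdom _ (hBw V (hKsymm V hV)).2 a1 a2 a4 σ ?_⟩
    rwa [abs_of_pos a3])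
  obtain ⟨E, hE, hEpos, hE0⟩ := hB4 k
  have hdetE : 0 < (yM E).det := hEpos.det_pos
  obtain ⟨sE, hsE⟩ : ∃ sE : ℝ, pairing N (Xt E) < sE * (yM E).det :=
    ⟨(pairing N (Xt E) + 1) / (yM E).det, by
      rw [div_mul_cancel₀ _ hdetE.ne']
      linarith⟩
  obtain ⟨L, hL1, hL2, hL3, hL4⟩ := hD5 k n τ U w hτ hτ0 hpos hdat.symm hdat.wpos hX
  have hhyp := isHyp hB2 hB3 (BB k) Q N E sE (by omega) hQ hBsm hBX hN2 hE hEpos hE0 hsE
  refine ⟨dimN k, pP Q N, co E sE, hhyp, fun hsh => ?_⟩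
  -- the value at `L` is negative
  have hval : ∀ Λ : MvPolynomial (Fin k) ℝ →ₗ[ℝ] ℝ,
      eval (fun i => Λ (nu N i)) (pP Q N) = pf Q N (tauL Λ (hat X))
        (Λ (quadN (fun i j l m => C (N i j l m)) (sq X))) := by
    intro Λ
    unfold nu
    rw [L_co, eval_co (isSymT_tauL Λ _)]
  have hneg : eval (fun i => L (nu N i)) (pP Q N) < 0 := by
    rw [hval, hL3, pf_value (m := m) hQ.hom τ U w l L hX hL4 fun p =>
      hN1 _ (Submodule.subset_span ⟨p, rfl⟩)]
    exact mul_neg_of_pos_of_neg (pow_pos hpos.det_pos _) hQneg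
  obtain ⟨L', hL'1, hL'2, hL'3⟩ := exists_pert hC6 L hL1 hL2 (2 * m * (2 * k + 4) + 1) (nu N)
    (deg_nu N) (pP Q N) hneg
  have hw : 4 ≤ 2 * m * (2 * k + 4) + 1 := by nlinarith
  have hfin := hC k (dimN k) _ (2 * m * (2 * k + 4)) (pP Q N) (hypCone (pP Q N) (co E sE)) (nu N)
    L' (pP_homog Q N hQ.hom) hsh
    (fun u hu => cone_nonneg (pP_homog Q N hQ.hom) hhyp.2.1 hu)
    (fun x => by
      rw [eval_nu]
      exact moment_mem hB3 (BB k) Q N E sE hQ hN2 hE hEpos hE0 hsE x)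
    (fun i => (deg_nu N i).trans hw) hL'1 hL'2 ?_
  · linarith
  · intro ξ ε
    rw [hval L']
    have h5 : (fun i => L' (aeval (fun j => C (ξ j) + C ε * X j) (nu N i))) =
        co (tauL L' (hat fun j => C (ξ j) + C ε * X j))
          (L' (quadN (fun i j l m => C (N i j l m)) (sq fun j => C (ξ j) + C ε * X j))) := by
      rw [← L_co]
      funext i
      rw [subst_nu]
    rw [h5, eval_co (isSymT_tauL L' _)]
    exact hF k m Q N L' ξ ε hQ.hom

end Vale.Agent.P256.PL.Z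

namespace Vale.Agent.P256.PL

/-- The final statement from the modules. -/
theorem stmtFinal_of (hA1 : StmtA1) (hA2 : StmtA2) (hA3 : StmtA3) (hA4 : StmtA4) (hA5 : StmtA5)
    (hB2 : StmtB2) (hB3 : StmtB3) (hB4 : StmtB4) (hC : StmtC) (hC6 : StmtC6) (hF : StmtF)
    (hD : StmtD) (hD5 : StmtD5) : StmtFinal :=
  Z.final_of hA1 hA2 hA3 hA4 hA5 hB2 hB3 hB4 hC hC6 hF hD hD5

end Vale.Agent.P256.PL
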