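import Vale.Agent.P256.PL.Stmts

/-!
# Assembly, part 1: naturality of `pf`, symmetrisation, the polynomial `p`.
-/

namespace Vale.Agent.P256.PL.Z

open MvPolynomial Matrix

section nat

variable {k : ℕ} {A B : Type*} [CommRing A] [Algebra ℝ A] [CommRing B] [Algebra ℝ B]

/-- Apply a map to a tensor. -/
def mapT (f : A → B) (τ : Tens k A) : Tens k B := fun a b c => f (τ a b c)

theorem map_Qev (φ : A →ₐ[ℝ] B) (Q : MvPolynomial (Option (Idx4 k)) ℝ) (σ : A) (R : E4 k A) :
    φ (Qev Q σ R) = Qev Q (φ σ) (fun i j l m => φ (R i j l m)) := by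
  unfold Qev
  rw [comp_aeval_apply]
  congr 2
  funext o
  cases o <;> rfl

theorem map_yM (φ : A →ₐ[ℝ] B) (τ : Tens k A) :
    yM (mapT φ τ) = (φ : A →+* B).mapMatrix (yM τ) := by
  ext a b
  rfl

theorem map_det_yM (φ : A →ₐ[ℝ] B) (τ : Tens k A) :
    (yM (mapT φ τ)).det = φ (yM τ).det := by
  rw [map_yM, ← RingHom.map_det]
  rfl

theorem map_Xt (φ : A →ₐ[ℝ] B) (τ : Tens k A) (i j l m : Fin k) :
    Xt (mapT φ τ) i j l m = φ (Xt τ i j l m) := by
  unfold Xt
  rw [map_yM, ← RingHom.map_adjugate]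
  simp only [map_sum, map_mul]
  rfl

theorem map_pf (φ : A →ₐ[ℝ] B) (Q : MvPolynomial (Option (Idx4 k)) ℝ) (N : E4 k ℝ)
    (τ : Tens k A) (s : A) : φ (pf Q N τ s) = pf Q N (mapT φ τ) (φ s) := by
  unfold pf
  rw [map_Qev]
  congr 1
  · rw [map_sub, map_mul, map_det_yM]
    congr 1
    unfold pairing
    simp only [map_sum, map_mul, map_Xt, AlgHom.commutes]
  · funext i j l m
    unfold alt
    rw [map_sub, map_Xt, map_Xt]

end nat

section sym

variable {k : ℕ} {A B : Type*} [CommRing A] [Algebra ℝ A] [CommRing B] [Algebra ℝ B]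

/-- Symmetrisation. -/
noncomputable def symT (τ : Tens k A) : Tens k A := fun a b c =>
  (1 / 6 : ℝ) • (τ a b c + τ a c b + τ b a c + τ b c a + τ c a b + τ c b a)

theorem isSymT_symT (τ : Tens k A) : IsSymT (symT τ) := by
  constructor
  · intro a b c
    unfold symT
    congr 1
    ring
  · intro a b c
    unfold symT
    congr 1
    ring

theorem symT_of_isSymT {τ : Tens k A} (h : IsSymT τ) : symT τ = τ := by
  funext a b c
  have h1 : τ a c b = τ a b c := (h.2 a b c).symm
  have h2 : τ b a c = τ a b c := (h.1 a b c).symm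
  have h3 : τ b c a = τ a b c := by rw [← h2, h.2 b a c]
  have h4 : τ c a b = τ a b c := by rw [← h1, h.1 a c b]
  have h5 : τ c b a = τ a b c := by rw [h.2 c b a, h4]
  unfold symT
  rw [h1, h2, h3, h4, h5]
  have : τ a b c + τ a b c + τ a b c + τ a b c + τ a b c + τ a b c = (6 : ℝ) • τ a b c := by
    rw [show (6 : ℝ) = 1 + 1 + 1 + 1 + 1 + 1 by norm_num]
    simp only [add_smul, one_smul]
  rw [this, smul_smul]
  norm_num

theorem mapT_symT (φ : A →ₐ[ℝ] B) (τ : Tens k A) : mapT φ (symT τ) = symT (mapT φ τ) := by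
  funext a b c
  unfold mapT symT
  rw [map_smul]
  simp only [map_add]

end sym

section coord

variable {k : ℕ}

/-- Index type of the coordinates `(τ, s)`. -/
abbrev Ix (k : ℕ) := Option (Fin (k + 1) × Fin (k + 1) × Fin (k + 1))

/-- The number of coordinates. -/
abbrev dimN (k : ℕ) : ℕ := Fintype.card (Ix k)

/-- The numbering of the coordinates. -/
noncomputable def eqv (k : ℕ) : Ix k ≃ Fin (dimN k) := Fintype.equivFin _

/-- The tensor of a coordinate vector. -/
noncomputable def tOf {A : Type*} (v : Fin (dimN k) → A) : Tens k A :=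
  fun a b c => v (eqv k (some (a, b, c)))

/-- The scalar of a coordinate vector. -/
noncomputable def sOf {A : Type*} (v : Fin (dimN k) → A) : A := v (eqv k none)

/-- The coordinate vector of `(τ, s)`. -/
noncomputable def co {A : Type*} (τ : Tens k A) (s : A) : Fin (dimN k) → A :=
  fun i => ((eqv k).symm i).elim s fun q => τ q.1 q.2.1 q.2.2

@[simp] theorem tOf_co {A : Type*} (τ : Tens k A) (s : A) : tOf (co τ s) = τ := by
  funext a b c
  simp [tOf, co]

@[simp] theorem sOf_co {A : Type*} (τ : Tens k A) (s : A) : sOf (co τ s) = s := by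
  simp [sOf, co]

/-- The polynomial `p`. -/
noncomputable def pP (Q : MvPolynomial (Option (Idx4 k)) ℝ) (N : E4 k ℝ) :
    MvPolynomial (Fin (dimN k)) ℝ := pf Q N (symT (tOf X)) (sOf X)

theorem aeval_pP {A : Type*} [CommRing A] [Algebra ℝ A] (Q : MvPolynomial (Option (Idx4 k)) ℝ)
    (N : E4 k ℝ) (v : Fin (dimN k) → A) :
    aeval v (pP Q N) = pf Q N (symT (tOf v)) (sOf v) := by
  unfold pP
  rw [map_pf, mapT_symT]
  congr 1
  · congr 1
    funext a b c
    simp [mapT, tOf]
  · simp [sOf]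

theorem eval_pP (Q : MvPolynomial (Option (Idx4 k)) ℝ)
    (N : E4 k ℝ) (v : Fin (dimN k) → ℝ) :
    eval v (pP Q N) = pf Q N (symT (tOf v)) (sOf v) := by
  rw [← aeval_pP, aeval_eq_eval]

end coord

section homog

variable {k : ℕ} {σ : Type*}

theorem det_homog {n : ℕ} (M : Matrix (Fin n) (Fin n) (MvPolynomial σ ℝ))
    (hM : ∀ a b, (M a b).IsHomogeneous 1) : M.det.IsHomogeneous n := by
  rw [det_apply]
  refine IsHomogeneous.sum _ _ _ fun π _ => ?_
  have h1 : (∏ i, M (π i) i).IsHomogeneous n := by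
    have := IsHomogeneous.prod Finset.univ (fun i => M (π i) i) (fun _ => 1)
      fun i _ => hM (π i) i
    simpa using this
  rcases Int.units_eq_one_or (Equiv.Perm.sign π) with h | h
  · rw [h, one_smul]
    exact h1
  · rw [h, Units.neg_smul, one_smul]
    exact h1.neg

theorem adj_homog (M : Matrix (Fin (k + 1)) (Fin (k + 1)) (MvPolynomial σ ℝ))
    (hM : ∀ a b, (M a b).IsHomogeneous 1) (a b : Fin (k + 1)) :
    (M.adjugate a b).IsHomogeneous k := by
  rw [adjugate_fin_succ_eq_det_submatrix]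
  have h1 := det_homog (M.submatrix b.succAbove a.succAbove) fun i j => hM _ _
  rcases neg_one_pow_eq_or (MvPolynomial σ ℝ) (b + a : ℕ) with h | h
  · rw [h, one_mul]
    exact h1
  · rw [h, neg_one_mul]
    exact h1.neg

theorem Xt_homog (τ : Tens k (MvPolynomial σ ℝ)) (h : ∀ a b c, (τ a b c).IsHomogeneous 1)
    (i j l m : Fin k) : (Xt τ i j l m).IsHomogeneous (k + 2) := by
  unfold Xt
  refine IsHomogeneous.sum _ _ _ fun a _ => IsHomogeneous.sum _ _ _ fun b _ => ?_
  have := ((h i.succ j.succ a).mul (adj_homog (yM τ) (fun _ _ => h _ _ _) a b)).mul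
    (h l.succ m.succ b)
  rwa [show 1 + k + 1 = k + 2 by ring] at this

theorem pf_homog (Q : MvPolynomial (Option (Idx4 k)) ℝ) (N : E4 k ℝ) {d : ℕ}
    (hQ : Q.IsHomogeneous d)
    (τ : Tens k (MvPolynomial σ ℝ)) (h : ∀ a b c, (τ a b c).IsHomogeneous 1)
    (s : MvPolynomial σ ℝ) (hs : s.IsHomogeneous 1) :
    (pf Q N τ s).IsHomogeneous ((k + 2) * d) := by
  unfold pf Qev
  refine hQ.aeval _ fun o => ?_
  cases o with
  | none =>
    refine IsHomogeneous.sub ?_ ?_
    · have := hs.mul (det_homog (yM τ) fun _ _ => h _ _ _)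
      rwa [show 1 + (k + 1) = k + 2 by ring] at this
    · unfold pairing
      refine IsHomogeneous.sum _ _ _ fun i _ => IsHomogeneous.sum _ _ _ fun j _ =>
        IsHomogeneous.sum _ _ _ fun l _ => IsHomogeneous.sum _ _ _ fun m _ => ?_
      have := (isHomogeneous_C σ (N i j l m)).mul (Xt_homog τ h i j l m)
      rwa [zero_add] at this
  | some q => exact (Xt_homog τ h _ _ _ _).sub (Xt_homog τ h _ _ _ _)

theorem symT_homog (τ : Tens k (MvPolynomial σ ℝ)) (h : ∀ a b c, (τ a b c).IsHomogeneous 1)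
    (a b c : Fin (k + 1)) : (symT τ a b c).IsHomogeneous 1 := by
  unfold symT
  rw [smul_eq_C_mul]
  have := (isHomogeneous_C σ (1 / 6 : ℝ)).mul
    ((((((h a b c).add (h a c b)).add (h b a c)).add (h b c a)).add (h c a b)).add (h c b a))
  rwa [zero_add] at this

theorem pP_homog (Q : MvPolynomial (Option (Idx4 k)) ℝ) (N : E4 k ℝ) {d : ℕ}
    (hQ : Q.IsHomogeneous d) : (pP Q N).IsHomogeneous ((k + 2) * d) :=
  pf_homog Q N hQ _ (symT_homog _ fun _ _ _ => isHomogeneous_X _ _) _ (isHomogeneous_X _ _)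

end homog

end Vale.Agent.P256.PL.Z
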