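import Vale.Agent.P256.PL.Z1

/-!
# Assembly, part 2: hyperbolicity of `p`, `p ≥ 0` on the cone, the moment points are in the cone.
-/

namespace Vale.Agent.P256.PL.Z

open MvPolynomial Matrix

theorem eval_mul_homog {σ : Type*} [Fintype σ] {p : MvPolynomial σ ℝ} {d : ℕ}
    (hp : p.IsHomogeneous d) (c : ℝ) (v : σ → ℝ) :
    eval (fun i => c * v i) p = c ^ d * eval v p := by
  rw [eval_eq', eval_eq', Finset.mul_sum]
  refine Finset.sum_congr rfl fun α hα => ?_
  have h1 : ∑ i, α i = d := by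
    have := hp (mem_support_iff.1 hα)
    rw [← this]
    simp [Finsupp.weight_apply, Finsupp.sum_fintype]
  simp only [mul_pow, Finset.prod_mul_distrib, Finset.prod_pow_eq_pow_sum, h1]
  ring

section cone

variable {n d : ℕ} {p : MvPolynomial (Fin n) ℝ} {e : Fin n → ℝ}

theorem eval_neg_zero (hp : p.IsHomogeneous d) {v : Fin n → ℝ} (h : eval v p = 0) :
    eval (-v) p = 0 := by
  have := eval_mul_homog hp (-1) v
  rw [h, mul_zero] at this
  rw [← this]
  congr 2
  funext i
  simp

theorem cone_nonneg (hp : p.IsHomogeneous d) (he : 0 < eval e p) {u : Fin n → ℝ}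
    (hu : u ∈ hypCone p e) : 0 ≤ eval u p := by
  by_contra hneg
  rw [not_le] at hneg
  have hcont : ContinuousOn (fun t : ℝ => eval ((1 - t) • u + t • e) p) (Set.Icc 0 1) :=
    ((MvPolynomial.continuous_eval p).comp (by fun_prop)).continuousOn
  have h0 : (0 : ℝ) ∈ Set.Icc ((fun t : ℝ => eval ((1 - t) • u + t • e) p) 0)
      ((fun t : ℝ => eval ((1 - t) • u + t • e) p) 1) := by
    constructor
    · simpa using hneg.le
    · simpa using he.le
  obtain ⟨t, ht, ht0⟩ := intermediate_value_Icc zero_le_one hcont h0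
  simp only at ht0
  have ht1 : t ≠ 1 := by
    rintro rfl
    simp at ht0
    linarith
  have ht0' : t ≠ 0 := by
    rintro rfl
    simp at ht0
    linarith
  have htlt : t < 1 := lt_of_le_of_ne ht.2 ht1
  have htpos : 0 < t := lt_of_le_of_ne ht.1 (Ne.symm ht0')
  have h1 : 0 < 1 - t := by linarith
  have h2 : (1 - t) • u + t • e = fun i => (1 - t) * (u + (t / (1 - t)) • e) i := by
    funext i
    simp only [Pi.add_apply, Pi.smul_apply, smul_eq_mul]
    field_simp
  rw [h2, eval_mul_homog hp] at ht0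
  have h3 : eval (u + (t / (1 - t)) • e) p = 0 := by
    rcases mul_eq_zero.1 ht0 with h | h
    · exact absurd h (pow_pos h1 d).ne'
    · exact h
  have h4 := eval_neg_zero hp h3
  have h5 : -(u + (t / (1 - t)) • e) = (-(t / (1 - t))) • e - u := by
    rw [neg_smul]
    abel
  rw [h5] at h4
  have := hu _ h4
  have h6 : 0 < t / (1 - t) := div_pos htpos h1
  linarith

theorem mem_cone (hp : p.IsHomogeneous d) {u : Fin n → ℝ}
    (h : ∀ t : ℝ, 0 < t → 0 < eval (t • e + u) p) : u ∈ hypCone p e := by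
  intro t ht
  by_contra hneg
  rw [not_le] at hneg
  have h1 := h (-t) (by linarith)
  have h2 := eval_neg_zero hp ht
  have h3 : -(t • e - u) = (-t) • e + u := by
    rw [neg_smul]
    abel
  rw [h3] at h2
  linarith

end cone

section hyp

variable {k : ℕ}

theorem co_comb (c : ℝ) (E τ : Tens k ℝ) (sE s : ℝ) :
    c • co E sE + co τ s = co (fun a b c' => c * E a b c' + τ a b c') (c * sE + s) := by
  funext i
  simp only [Pi.add_apply, Pi.smul_apply, smul_eq_mul, co]
  cases (eqv k).symm i <;> rfl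

theorem eval_co {Q : MvPolynomial (Option (Idx4 k)) ℝ} {N : E4 k ℝ} {τ : Tens k ℝ} {s : ℝ}
    (h : IsSymT τ) : eval (co τ s) (pP Q N) = pf Q N τ s := by
  rw [eval_pP, tOf_co, sOf_co, symT_of_isSymT h]

theorem isSymT_cube {A : Type*} [CommRing A] (z : Fin (k + 1) → A) : IsSymT (cube z) := by
  constructor <;> intro a b c <;> simp only [cube] <;> ring

theorem isHyp (hB2 : StmtB2) (hB3 : StmtB3) {m : ℕ} (B : Set (E4 k ℝ))
    (Q : MvPolynomial (Option (Idx4 k)) ℝ) (N : E4 k ℝ) (E : Tens k ℝ) (sE : ℝ) (hk : 1 ≤ k)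
    (hQ : GoodQ B m Q) (hB : ∀ (c : ℝ) (R), R ∈ B → c • R ∈ B)
    (hX : ∀ τ : Tens k ℝ, IsSymT τ → alt (Xt τ) ∈ B) (hD : DomQ Q N)
    (hE : IsSymT E) (hpos : (yM E).PosDef) (h0 : alt (Xt E) = 0)
    (hs : pairing N (Xt E) < sE * (yM E).det) :
    IsHyperbolic (pP Q N) (co E sE) := by
  refine ⟨⟨_, pP_homog Q N hQ.hom⟩, ?_, ?_⟩
  · rw [eval_co hE]
    exact (hB3 k m B Q N E sE hQ hD hE hpos h0 hs).1
  · intro x t ht
    rw [aeval_pP] at ht
    refine hB2 k m B Q N E sE hk hQ hB hX hD hE hpos h0 hs (symT (tOf x)) (sOf x)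
      (isSymT_symT _) t ?_
    rw [← ht]
    congr 1
    · funext a b c
      have hEs : symT E a b c = E a b c := by rw [symT_of_isSymT hE]
      rw [← hEs]
      simp only [symT, tOf, co, Equiv.symm_apply_apply, Option.elim, smul_eq_mul,
        Complex.real_smul]
      push_cast
      ring
    · simp [sOf, co]

theorem moment_mem (hB3 : StmtB3) {m : ℕ} (B : Set (E4 k ℝ))
    (Q : MvPolynomial (Option (Idx4 k)) ℝ) (N : E4 k ℝ) (E : Tens k ℝ) (sE : ℝ)
    (hQ : GoodQ B m Q) (hD : DomQ Q N)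
    (hE : IsSymT E) (hpos : (yM E).PosDef) (h0 : alt (Xt E) = 0)
    (hs : pairing N (Xt E) < sE * (yM E).det) (x : Fin k → ℝ) :
    co (cube (hat x)) (quadN N (sq x)) ∈ hypCone (pP Q N) (co E sE) := by
  refine mem_cone (pP_homog Q N hQ.hom) fun t ht => ?_
  rw [co_comb, eval_co]
  · exact (hB3 k m B Q N E sE hQ hD hE hpos h0 hs).2 x t ht
  · have h1 := isSymT_cube (hat x)
    constructor
    · intro a b c
      simp only
      rw [hE.1 a b c, h1.1 a b c]
    · intro a b c
      simp only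
      rw [hE.2 a b c, h1.2 a b c]

end hyp

section value

variable {k : ℕ}

theorem Qev_real (Q : MvPolynomial (Option (Idx4 k)) ℝ) (σ : ℝ) (R : E4 k ℝ) :
    Qev Q σ R = eval (fun o : Option (Idx4 k) => o.elim σ fun q => R q.1 q.2.1 q.2.2.1 q.2.2.2) Q :=
  rfl

theorem Qev_smul {Q : MvPolynomial (Option (Idx4 k)) ℝ} {d : ℕ} (hQ : Q.IsHomogeneous d)
    (c σ : ℝ) (R : E4 k ℝ) :
    Qev Q (c * σ) (fun i j l m => c * R i j l m) = c ^ d * Qev Q σ R := by
  rw [Qev_real, Qev_real, ← eval_mul_homog hQ]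
  congr 2
  funext o
  cases o <;> rfl

theorem Rs_diag {n : ℕ} (U : Fin n → Matrix (Fin k) (Fin k) ℝ) (w : Fin n → ℝ) :
    Rs U (-diagonal w) = ∑ p, w p • (-wedge (U p)) := by
  funext i j l m
  simp only [Rs, alt, Finset.sum_apply, Pi.smul_apply, Pi.neg_apply, wedge, tens2, smul_eq_mul]
  rw [← Finset.sum_sub_distrib]
  refine Finset.sum_congr rfl fun p _ => ?_
  rw [← Finset.sum_sub_distrib, Finset.sum_eq_single p]
  · simp
    ring
  · intro q _ hq
    simp [Ne.symm hq]
  · simp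

/-- `pairing N` as a linear map. -/
def pairL (N : E4 k ℝ) : E4 k ℝ →ₗ[ℝ] ℝ where
  toFun := pairing N
  map_add' X Y := by
    simp only [pairing, Pi.add_apply, mul_add, Finset.sum_add_distrib]
  map_smul' c X := by
    simp only [pairing, Pi.smul_apply, smul_eq_mul, Finset.mul_sum, mul_left_comm,
      RingHom.id_apply]

/-- The value of `p` at the point given by the data. -/
theorem pf_value {n m : ℕ} {Q : MvPolynomial (Option (Idx4 k)) ℝ} {N : E4 k ℝ}
    (hQ : Q.IsHomogeneous (2 * m)) (τ : Tens k ℝ) (U : Fin n → Matrix (Fin k) (Fin k) ℝ)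
    (w : Fin n → ℝ) (l : E4 k ℝ →ₗ[ℝ] ℝ) (L : MvPolynomial (Fin k) ℝ →ₗ[ℝ] ℝ)
    (hX : ∀ i j l m, alt (Xt τ) i j l m = (yM τ).det * Rs U (-diagonal w) i j l m)
    (hL : ∀ i j l m, (yM τ).det * L (X i * X j * (X l * X m)) =
        Xt τ i j l m + (yM τ).det * ∑ p, w p * (U p i j * U p l m))
    (hN : ∀ p, quadN N (U p) = l (-wedge (U p))) :
    pf Q N τ (L (quadN (fun i j l m => C (N i j l m)) (sq X))) =
      (yM τ).det ^ (2 * m) * Qev Q (l (Rs U (-diagonal w))) (Rs U (-diagonal w)) := by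
  rw [← Qev_smul hQ]
  unfold pf
  congr 1
  · rw [Rs_diag, map_sum]
    simp only [map_smul, smul_eq_mul, ← hN]
    have h1 : L (quadN (fun i j l m => C (N i j l m)) (sq X)) =
        pairL N fun i j l m => L (X i * X j * (X l * X m)) := by
      change _ = pairing N _
      unfold quadN pairing tens2 sq
      simp only [map_sum, ← smul_eq_C_mul, map_smul, smul_eq_mul]
    have h2 : (yM τ).det • (fun i j l m => L (X i * X j * (X l * X m)) : E4 k ℝ) =
        Xt τ + (yM τ).det • ∑ p, w p • tens2 (U p) (U p) := by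
      funext i j l m
      simp only [Pi.smul_apply, Pi.add_apply, Finset.sum_apply, tens2, smul_eq_mul]
      exact hL i j l m
    have h3 := congrArg (pairL N) h2
    rw [map_smul, map_add, map_smul, map_sum] at h3
    simp only [map_smul, smul_eq_mul] at h3
    rw [h1]
    change _ - pairL N (Xt τ) = _
    have h4 : ∀ p, pairL N (tens2 (U p) (U p)) = quadN N (U p) := fun p => rfl
    simp only [h4] at h3
    linarith
  · funext i j l' m'
    exact hX i j l' m'

end value

end Vale.Agent.P256.PL.Z
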